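import Mathlib

/-!
# A barrier lemma for finitely many scalar functions
-/

namespace Vale.Agent.P072

open Set Filter Topology

/-- A function with negative right derivative at `t` is smaller than `f t` just after `t`. -/
lemma eventually_lt_of_hasDerivWithinAt_neg {f : ℝ → ℝ} {f' t : ℝ}
    (hf : HasDerivWithinAt f f' (Ici t) t) (hneg : f' < 0) :
    ∀ᶠ s in 𝓝[>] t, f s < f t := by
  have h1 : HasDerivWithinAt f f' (Ioi t) t := hf.mono Ioi_subset_Ici_self
  rw [hasDerivWithinAt_iff_tendsto_slope' (by simp)] at h1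
  have h2 : ∀ᶠ s in 𝓝[>] t, slope f t s < 0 := h1.eventually (Iio_mem_nhds hneg)
  filter_upwards [h2, self_mem_nhdsWithin] with s hs hst
  have hst' : 0 < s - t := sub_pos.mpr hst
  rw [slope_def_field, div_lt_iff₀ hst'] at hs
  linarith

/-- **Barrier lemma.** Finitely many continuous functions `u α` on `[a, b]` that are `≤ 0` at `a`
stay `≤ 0`, provided that whenever all are `≤ 0` and one of them vanishes, that one has a negative
right derivative. -/
lemma barrier {ι : Type*} [Finite ι] (u : ι → ℝ → ℝ) {a b : ℝ}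
    (hcont : ∀ α, ContinuousOn (u α) (Icc a b)) (h0 : ∀ α, u α a ≤ 0)
    (hstep : ∀ t ∈ Ico a b, (∀ β, u β t ≤ 0) → ∀ α, u α t = 0 →
      ∃ u', HasDerivWithinAt (u α) u' (Ici t) t ∧ u' < 0) :
    ∀ t ∈ Icc a b, ∀ α, u α t ≤ 0 := by
  set s : Set ℝ := {t | ∀ α, u α t ≤ 0} with hs
  suffices Icc a b ⊆ s from fun t ht => this ht
  apply IsClosed.Icc_subset_of_forall_mem_nhdsWithin
  · have : s ∩ Icc a b = Icc a b ∩ ⋂ α, (Icc a b ∩ (u α) ⁻¹' (Iic 0)) := by
      ext t
      simp only [hs, mem_inter_iff, Set.mem_ofPred_eq, mem_iInter, mem_preimage, mem_Iic]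
      constructor
      · rintro ⟨h1, h2⟩
        exact ⟨h2, fun α => ⟨h2, h1 α⟩⟩
      · rintro ⟨h1, h2⟩
        exact ⟨fun α => (h2 α).2, h1⟩
    rw [this]
    exact isClosed_Icc.inter (isClosed_iInter fun α =>
      (hcont α).preimage_isClosed_of_isClosed isClosed_Icc isClosed_Iic)
  · exact h0
  · intro t ht
    have hts : ∀ β, u β t ≤ 0 := ht.1
    have htI : t ∈ Ico a b := ht.2
    have : ∀ᶠ r in 𝓝[>] t, ∀ α, u α r ≤ 0 := by
      rw [eventually_all]
      intro α
      rcases lt_or_eq_of_le (hts α) with hlt | heq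
      · have hc : ContinuousWithinAt (u α) (Icc a b) t := hcont α t ⟨htI.1, htI.2.le⟩
        have h1 : ∀ᶠ r in 𝓝[Icc a b] t, u α r < 0 := hc.eventually (Iio_mem_nhds hlt)
        have h2 : 𝓝[>] t ≤ 𝓝[Icc a b] t := by
          apply nhdsWithin_le_of_mem
          exact mem_of_superset (Ioo_mem_nhdsGT htI.2)
            (fun r hr => ⟨htI.1.trans hr.1.le, hr.2.le⟩)
        exact (h1.filter_mono h2).mono fun r hr => hr.le
      · obtain ⟨u', hu', hneg⟩ := hstep t htI hts α heq
        have := eventually_lt_of_hasDerivWithinAt_neg hu' hneg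
        exact this.mono fun r hr => by rw [heq] at hr; exact hr.le
    exact this

end Vale.Agent.P072
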