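import Vale.Agent.P072.Entropy

/-!
# The circumscribed polygons `InG` and the two comparison lemmas
-/

namespace Vale.Agent.P072

open Finset

variable {d : ℕ}

/-- `x` lies in the polygon circumscribed about `{V ≤ M}` with edge directions `Z`, in dual form:
every affine minorant of the entropy whose slope is orthogonal to some `z ∈ Z` is `≤ M` at `x`. -/
def InG (Z : Finset (Fin d → ℝ)) (M : ℝ) (x : Fin d → ℝ) : Prop :=
  ∀ z ∈ Z, ∀ p : Fin d → ℝ, z ⬝ᵥ p = 0 → dualT p x ≤ M

lemma InG.mono {Z : Finset (Fin d → ℝ)} {M M' : ℝ} {x : Fin d → ℝ} (h : InG Z M x)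
    (hM : M ≤ M') : InG Z M' x := fun z hz p hp => (h z hz p hp).trans hM

lemma InG_of_ent_le {Z : Finset (Fin d → ℝ)} {M : ℝ} {x : Fin d → ℝ} (hx : ∀ i, 0 ≤ x i)
    (h : ent x ≤ M) : InG Z M x := fun _ _ p _ => (dualT_le_ent hx p).trans h

lemma cost_ge {Z : Finset (Fin d → ℝ)} {x q : Fin d → ℝ} (hx : ∀ i, 0 < x i)
    (hG : InG Z (dualT q x) x) {z : Fin d → ℝ} (hz : z ∈ Z) {p : Fin d → ℝ}
    (hp : z ⬝ᵥ p = 0) :
    ∑ i, x i * phi (q i - Real.log (x i)) ≤ ∑ i, x i * phi (p i - Real.log (x i)) := by
  rw [← ent_sub_dualT hx, ← ent_sub_dualT hx]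
  have := hG z hz p hp
  linarith

/-- If `z · log x` is small then so is `z · q`, where `q` is the active slope. -/
lemma gap_lemma {Z : Finset (Fin d → ℝ)} {x q : Fin d → ℝ} (hx : ∀ i, 0 < x i)
    (hG : InG Z (dualT q x) x) {z : Fin d → ℝ} (hz : z ∈ Z)
    (hint : ∀ i, z i = 0 ∨ 1 ≤ |z i|) {Zs : ℝ} (hbd : ∀ i, |z i| ≤ Zs) {T : ℝ} (hT : 0 ≤ T)
    (h : |z ⬝ᵥ lg x| ≤ T) : |z ⬝ᵥ q| ≤ T + d * (Zs * Real.exp T) := by
  set a := z ⬝ᵥ lg x with ha
  have hterm : ∀ i, |z i * (q i - lg x i)| ≤ Zs * Real.exp T := by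
    intro i
    have hZs : 0 ≤ Zs := (abs_nonneg _).trans (hbd i)
    rcases hint i with h0 | h1
    · rw [h0, zero_mul, abs_zero]; positivity
    · have hzi : z i ≠ 0 := by
        intro h0; rw [h0, abs_zero] at h1; linarith
      obtain ⟨c0, hc0⟩ : ∃ c0, c0 = a / z i := ⟨_, rfl⟩
      let p : Fin d → ℝ := fun k => lg x k - (if k = i then c0 else 0)
      have hp : z ⬝ᵥ p = 0 := by
        have : z ⬝ᵥ p = a - z i * c0 := by
          rw [ha]
          unfold dotProduct
          simp only [p, mul_sub, Finset.sum_sub_distrib, mul_ite, mul_zero, Finset.sum_ite_eq',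
            Finset.mem_univ, if_true]
        rw [this, hc0]; field_simp; ring
      have hc := cost_ge hx hG hz hp
      have hR : ∑ k, x k * phi (p k - Real.log (x k)) = x i * phi (-(a / z i)) := by
        rw [← hc0]
        rw [Finset.sum_eq_single i]
        · simp [p, lg]
        · intro k _ hk
          simp [p, lg, hk, phi_zero]
        · simp
      have hL : x i * phi (q i - Real.log (x i)) ≤ ∑ k, x k * phi (q k - Real.log (x k)) :=
        Finset.single_le_sum (f := fun k => x k * phi (q k - Real.log (x k)))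
          (fun k _ => mul_nonneg (hx k).le (phi_nonneg _)) (Finset.mem_univ i)
      have h2 : |-(a / z i)| ≤ T := by
        rw [abs_neg, abs_div]
        calc |a| / |z i| ≤ |a| / 1 := by
              apply div_le_div_of_nonneg_left (abs_nonneg _) one_pos h1
          _ ≤ T := by simpa using h
      have h3 : x i * phi (q i - Real.log (x i)) ≤ x i * phi T := by
        calc _ ≤ x i * phi (-(a / z i)) := by rw [← hR]; exact hL.trans hc
          _ ≤ x i * phi T := mul_le_mul_of_nonneg_left (phi_le_of_abs_le h2) (hx i).le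
      have h4 : phi (q i - Real.log (x i)) ≤ phi T := le_of_mul_le_mul_left h3 (hx i)
      have h5 := abs_le_of_phi_le hT h4
      rw [abs_mul]
      exact mul_le_mul (hbd i) h5 (abs_nonneg _) hZs
  have hsplit : z ⬝ᵥ q = a + ∑ i, z i * (q i - lg x i) := by
    rw [ha]
    unfold dotProduct
    rw [← Finset.sum_add_distrib]
    apply Finset.sum_congr rfl
    intro i _
    ring
  rw [hsplit]
  calc |a + ∑ i, z i * (q i - lg x i)| ≤ |a| + |∑ i, z i * (q i - lg x i)| := abs_add_le _ _
    _ ≤ T + ∑ i : Fin d, |z i * (q i - lg x i)| := by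
        gcongr
        exact Finset.abs_sum_le_sum_abs _ _
    _ ≤ T + ∑ _i : Fin d, Zs * Real.exp T := by
        gcongr with i _
        exact hterm i
    _ = T + d * (Zs * Real.exp T) := by simp

/-- `z · log x` and `z · q` cannot have opposite signs. -/
lemma sign_lemma {Z : Finset (Fin d → ℝ)} {x q : Fin d → ℝ} (hx : ∀ i, 0 < x i)
    (hG : InG Z (dualT q x) x) {z : Fin d → ℝ} (hz : z ∈ Z) :
    0 ≤ (z ⬝ᵥ lg x) * (z ⬝ᵥ q) := by
  by_contra hcon
  push Not at hcon
  set A := z ⬝ᵥ lg x with hA
  set B := z ⬝ᵥ q with hB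
  have hAB : A - B ≠ 0 := by
    intro h0
    have : A = B := by linarith
    rw [this] at hcon
    nlinarith [mul_self_nonneg B]
  set l := A / (A - B) with hl
  have hl0 : 0 ≤ l ∧ l < 1 := by
    rcases lt_or_gt_of_ne hAB with hneg | hpos
    · -- A < B so A < 0 < B
      have hA0 : A < 0 := by
        by_contra h0; push Not at h0
        have : 0 ≤ A * B := mul_nonneg h0 (by linarith)
        linarith
      have hB0 : 0 < B := by
        by_contra h0; push Not at h0
        have : 0 ≤ A * B := mul_nonneg_of_nonpos_of_nonpos hA0.le h0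
        linarith
      constructor
      · exact div_nonneg_of_nonpos hA0.le hneg.le
      · rw [hl, div_lt_one_of_neg hneg]; linarith
    · have hA0 : 0 < A := by
        by_contra h0; push Not at h0
        have : 0 ≤ A * B := mul_nonneg_of_nonpos_of_nonpos h0 (by linarith)
        linarith
      have hB0 : B < 0 := by
        by_contra h0; push Not at h0
        have : 0 ≤ A * B := mul_nonneg hA0.le h0
        linarith
      constructor
      · exact div_nonneg hA0.le hpos.le
      · rw [hl, div_lt_one hpos]; linarith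
  let p : Fin d → ℝ := fun k => lg x k + l * (q k - lg x k)
  have hp : z ⬝ᵥ p = 0 := by
    have : z ⬝ᵥ p = A + l * (B - A) := by
      rw [hA, hB]
      unfold dotProduct
      rw [← Finset.sum_sub_distrib, Finset.mul_sum, ← Finset.sum_add_distrib]
      apply Finset.sum_congr rfl
      intro i _
      simp only [p]; ring
    rw [this, hl]; field_simp; ring
  have hc := cost_ge hx hG hz hp
  set D0 := ∑ i, x i * phi (q i - Real.log (x i)) with hD0
  have hD0nn : 0 ≤ D0 := Finset.sum_nonneg fun k _ => mul_nonneg (hx k).le (phi_nonneg _)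
  have hle : ∑ k, x k * phi (p k - Real.log (x k)) ≤ l * D0 := by
    rw [hD0, Finset.mul_sum]
    apply Finset.sum_le_sum
    intro k _
    have : p k - Real.log (x k) = l * (q k - Real.log (x k)) := by simp [p, lg]
    rw [this]
    have := phi_smul_le (u := q k - Real.log (x k)) hl0.1 hl0.2.le
    have h2 := mul_le_mul_of_nonneg_left this (hx k).le
    linarith
  have hD0z : D0 = 0 := by nlinarith [hl0.2]
  have hall : ∀ k, q k = lg x k := by
    intro k
    have := (Finset.sum_eq_zero_iff_of_nonneg
      (fun k _ => mul_nonneg (hx k).le (phi_nonneg _))).mp hD0z k (Finset.mem_univ k)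
    rcases mul_eq_zero.mp this with h0 | h0
    · exact absurd h0 (hx k).ne'
    · have := eq_zero_of_phi_eq_zero h0
      simp only [lg]; linarith
  have : B = A := by rw [hA, hB]; congr 1; ext k; exact hall k
  rw [this] at hcon
  nlinarith [mul_self_nonneg A]

end Vale.Agent.P072
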