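import Vale.Agent.P072.Setup
import Vale.Agent.P072.Sub.Scalar

/-!
# The compact core and boundedness of the polygons
-/

namespace Vale.Agent.P072

open Finset

namespace Setup

variable {d : ℕ} (A : Setup d)

/-- There are two non-parallel directions in `Z`. -/
lemma exists_pair : ∃ z0 ∈ A.Z, ∃ z1 ∈ A.Z, om A.i0 A.j0 z0 z1 ≠ 0 := by
  have hv1ne : A.v1 ≠ 0 := by
    intro h0
    apply A.hv
    rw [h0]
    simp [om]
  obtain ⟨_, ⟨r, hr, rfl⟩, -⟩ := exists_nonparallel A.hinj A.hv1 A.hv2 A.hv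
    (G := reactionVector '' (A.N.reactions : Set ((Fin d → ℕ) × (Fin d → ℕ)))) rfl A.hv1 hv1ne
  have hrZ : reactionVector r ∈ A.Z := A.reactionVector_mem hr
  obtain ⟨_, ⟨r', hr', rfl⟩, hD⟩ := exists_nonparallel A.hinj A.hv1 A.hv2 A.hv
    (G := reactionVector '' (A.N.reactions : Set ((Fin d → ℕ) × (Fin d → ℕ)))) rfl
    (A.hZS _ hrZ) (A.hZne _ hrZ)
  exact ⟨_, hrZ, _, A.reactionVector_mem hr', hD⟩

/-- **Core lemma.** A point `b` of the class at which one direction of `Z` is critical and a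
non-parallel one is almost critical lies in a fixed compact box. -/
lemma core_bounds : ∃ βlo βhi : ℝ, 0 < βlo ∧ 1 ≤ βhi ∧ ∀ b z0 z : Fin d → ℝ, (∀ i, 0 < b i) →
    b - A.c ∈ A.N.stoich → z0 ∈ A.Z → z ∈ A.Z → om A.i0 A.j0 z0 z ≠ 0 → z0 ⬝ᵥ lg b = 0 →
    |z ⬝ᵥ lg b| ≤ A.T2 → ∀ i, βlo ≤ b i ∧ b i ≤ βhi := by
  obtain ⟨cmin, hcmin, hcl⟩ := exists_pos_lower_bound Finset.univ A.c (fun i _ => A.hc i)
  set cmax : ℝ := max cmin (∑ i, A.c i) with hcmax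
  have hcu : ∀ i, A.c i ≤ cmax := fun i =>
    (Finset.single_le_sum (fun k _ => (A.hc k).le) (Finset.mem_univ i)).trans (le_max_right _ _)
  have hZs0 : 0 < A.Zs := lt_of_lt_of_le one_pos A.hZs
  have hT2 := A.T2_pos
  set C3 : ℝ := 2 * A.Zs * A.T2 with hC3
  have hC3pos : 0 ≤ C3 := by positivity
  obtain ⟨C4, hC4, hlow⟩ := scalar_core_lower cmin cmax C3 hcmin (le_max_left _ _) hC3pos
  obtain ⟨lo, hi, hlo, -, hbd⟩ :=
    scalar_core_bounds cmin cmax C3 (d * C4) hcmin (le_max_left _ _) hC3pos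
  refine ⟨lo, max hi 1, hlo, le_max_right _ _, fun b z0 z hb hbS hz0 hz hom h0 hzT i => ?_⟩
  set w : Fin d → ℝ := b - A.c with hw
  set W : ℝ := ∑ k, |w k| with hW
  have hWk : ∀ k, |w k| ≤ W := fun k =>
    Finset.single_le_sum (f := fun k => |w k|) (fun k _ => abs_nonneg _) (Finset.mem_univ k)
  have hW0 : 0 ≤ W := Finset.sum_nonneg (fun k _ => abs_nonneg _)
  have hpl := dot_plucker A.hinj hbS (A.hZS z0 hz0) (A.hZS z hz) h0
  have h1 : 1 ≤ |om A.i0 A.j0 z0 z| := one_le_abs_om (A.hZint z0 hz0) (A.hZint z hz) hom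
  have h2 : |om A.i0 A.j0 z0 w| ≤ 2 * A.Zs * W := abs_om_le (A.hZbd z0 hz0) hWk
  have h3 : |w ⬝ᵥ lg b| ≤ C3 * W := by
    calc |w ⬝ᵥ lg b| = |w ⬝ᵥ lg b| * 1 := (mul_one _).symm
      _ ≤ |w ⬝ᵥ lg b| * |om A.i0 A.j0 z0 z| := mul_le_mul_of_nonneg_left h1 (abs_nonneg _)
      _ = |z ⬝ᵥ lg b| * |om A.i0 A.j0 z0 w| := by rw [← abs_mul, hpl, abs_mul]
      _ ≤ A.T2 * (2 * A.Zs * W) := mul_le_mul hzT h2 (abs_nonneg _) hT2.le
      _ = C3 * W := by rw [hC3]; ring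
  set ψ : Fin d → ℝ := fun k => (b k - A.c k) * Real.log (b k) - C3 * |b k - A.c k| with hψ
  have hsum : ∑ k, ψ k ≤ 0 := by
    have e : ∑ k, ψ k = w ⬝ᵥ lg b - C3 * W := by
      simp only [hψ, Finset.sum_sub_distrib, hW, Finset.mul_sum, dotProduct, lg, hw, Pi.sub_apply]
    rw [e]
    have := le_abs_self (w ⬝ᵥ lg b)
    linarith
  have hψlow : ∀ k, 0 ≤ ψ k + C4 := fun k => by
    have := hlow (A.c k) (b k) (hcl k (Finset.mem_univ k)) (hcu k) (hb k)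
    simp only [hψ]
    linarith
  have hψi : ψ i + C4 ≤ ∑ k, (ψ k + C4) :=
    Finset.single_le_sum (f := fun k => ψ k + C4) (fun k _ => hψlow k) (Finset.mem_univ i)
  have hψi' : ψ i ≤ d * C4 := by
    rw [Finset.sum_add_distrib, Finset.sum_const, Finset.card_univ, Fintype.card_fin,
      nsmul_eq_mul] at hψi
    linarith
  obtain ⟨g1, g2⟩ := hbd (A.c i) (b i) (hcl i (Finset.mem_univ i)) (hcu i) (hb i) hψi'
  exact ⟨g1, g2.trans (le_max_left _ _)⟩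

/-- Bound of a minor on a polygon. -/
lemma abs_om_le_of_InG {M : ℝ} {x z : Fin d → ℝ} (hG : InG A.Z M x) (hz : z ∈ A.Z) :
    |om A.i0 A.j0 z x| ≤ M + (∑ k, Real.exp (rho A.i0 A.j0 z k) +
      ∑ k, Real.exp (-(rho A.i0 A.j0 z k))) := by
  have hz0 : z ⬝ᵥ rho A.i0 A.j0 z = 0 := by rw [dot_rho, om_self]
  have hz1 : z ⬝ᵥ (-rho A.i0 A.j0 z) = 0 := by rw [dotProduct_neg, hz0, neg_zero]
  have e1 := hG z hz _ hz0
  have e2 := hG z hz _ hz1
  have f1 : dualT (rho A.i0 A.j0 z) x =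
      om A.i0 A.j0 z x - ∑ k, Real.exp (rho A.i0 A.j0 z k) := by
    unfold dualT
    rw [Finset.sum_sub_distrib, ← dot_rho]
    rfl
  have f2 : dualT (-rho A.i0 A.j0 z) x =
      -om A.i0 A.j0 z x - ∑ k, Real.exp (-(rho A.i0 A.j0 z k)) := by
    unfold dualT
    rw [Finset.sum_sub_distrib, ← dot_rho, ← dotProduct_neg]
    rfl
  rw [f1] at e1
  rw [f2] at e2
  have p1 : 0 ≤ ∑ k, Real.exp (rho A.i0 A.j0 z k) :=
    Finset.sum_nonneg (fun k _ => (Real.exp_pos _).le)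
  have p2 : 0 ≤ ∑ k, Real.exp (-(rho A.i0 A.j0 z k)) :=
    Finset.sum_nonneg (fun k _ => (Real.exp_pos _).le)
  rw [abs_le]
  constructor <;> linarith

/-- The polygons are bounded. -/
lemma InG_bounded (M : ℝ) : ∃ B : ℝ, ∀ x : Fin d → ℝ, x - A.c ∈ A.N.stoich → InG A.Z M x →
    ∀ i, |x i| ≤ B := by
  obtain ⟨z0, hz0, z1, hz1, hD⟩ := A.exists_pair
  set E : (Fin d → ℝ) → ℝ := fun z => M + (∑ k, Real.exp (rho A.i0 A.j0 z k) +
      ∑ k, Real.exp (-(rho A.i0 A.j0 z k))) + |om A.i0 A.j0 z A.c| with hE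
  refine ⟨E z1 * A.Zs + E z0 * A.Zs + ∑ k, |A.c k|, fun x hxS hG i => ?_⟩
  have hb : ∀ z ∈ A.Z, |om A.i0 A.j0 z (x - A.c)| ≤ E z := by
    intro z hz
    rw [om_sub_right]
    calc |om A.i0 A.j0 z x - om A.i0 A.j0 z A.c|
        ≤ |om A.i0 A.j0 z x| + |om A.i0 A.j0 z A.c| := abs_sub _ _
      _ ≤ E z := by
          have := A.abs_om_le_of_InG hG hz
          simp only [hE]
          linarith
  have hpl := plucker_apply A.hinj hxS (A.hZS z0 hz0) (A.hZS z1 hz1) i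
  have h1 : 1 ≤ |om A.i0 A.j0 z0 z1| := one_le_abs_om (A.hZint z0 hz0) (A.hZint z1 hz1) hD
  have hE1 : 0 ≤ E z1 := (abs_nonneg _).trans (hb z1 hz1)
  have hE0 : 0 ≤ E z0 := (abs_nonneg _).trans (hb z0 hz0)
  have h2 : |(x - A.c) i| ≤ E z1 * A.Zs + E z0 * A.Zs := by
    calc |(x - A.c) i| = 1 * |(x - A.c) i| := (one_mul _).symm
      _ ≤ |om A.i0 A.j0 z0 z1| * |(x - A.c) i| := mul_le_mul_of_nonneg_right h1 (abs_nonneg _)
      _ = |om A.i0 A.j0 (x - A.c) z1 * z0 i + om A.i0 A.j0 z0 (x - A.c) * z1 i| := by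
          rw [← abs_mul, hpl]
      _ ≤ |om A.i0 A.j0 (x - A.c) z1 * z0 i| + |om A.i0 A.j0 z0 (x - A.c) * z1 i| :=
          abs_add_le _ _
      _ = |om A.i0 A.j0 z1 (x - A.c)| * |z0 i| + |om A.i0 A.j0 z0 (x - A.c)| * |z1 i| := by
          rw [abs_mul, abs_mul, om_swap A.i0 A.j0 (x - A.c) z1, abs_neg]
      _ ≤ E z1 * A.Zs + E z0 * A.Zs :=
          add_le_add (mul_le_mul (hb z1 hz1) (A.hZbd z0 hz0 i) (abs_nonneg _) hE1)
            (mul_le_mul (hb z0 hz0) (A.hZbd z1 hz1 i) (abs_nonneg _) hE0)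
  have h3 : |A.c i| ≤ ∑ k, |A.c k| :=
    Finset.single_le_sum (f := fun k => |A.c k|) (fun k _ => abs_nonneg _) (Finset.mem_univ i)
  have h4 : |x i| ≤ |(x - A.c) i| + |A.c i| := by
    have := abs_add_le ((x - A.c) i) (A.c i)
    simpa using this
  linarith

end Setup

end Vale.Agent.P072
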