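import Mathlib

/-!
# Mass-action systems and permanence (definitions for P072)

Conventions follow the problem file: complexes are vectors in `ℕ^d`, a network is a finite set of
reactions `y → y'` with `y ≠ y'`, the mass-action field is
`f(x) = ∑ k_{y→y'} x^y (y' - y)`, and permanence on a positive stoichiometric class `P` means
global existence of positive solutions from every point of `P` together with a compact subset of
`P` that absorbs every solution starting in `P`.
-/

namespace Vale.Agent.P072

/-- A finite reaction network on `d` species: a finite set of reactions `(y, y')` between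
complexes `y, y' ∈ ℕ^d` with `y ≠ y'`. -/
structure Network (d : ℕ) where
  reactions : Finset ((Fin d → ℕ) × (Fin d → ℕ))
  ne : ∀ r ∈ reactions, r.1 ≠ r.2

variable {d : ℕ}

/-- `N.React y y'` : the reaction `y → y'` belongs to the network. -/
def Network.React (N : Network d) (y y' : Fin d → ℕ) : Prop := (y, y') ∈ N.reactions

/-- Weak reversibility: for every reaction `y → y'` there is a directed path from `y'` to `y`. -/
def Network.WeaklyReversible (N : Network d) : Prop :=
  ∀ r ∈ N.reactions, Relation.ReflTransGen N.React r.2 r.1

/-- Two complexes lie in the same linkage class: they are joined by a path of the underlying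
undirected graph. -/
def Network.SameLinkageClass (N : Network d) (y z : Fin d → ℕ) : Prop :=
  Relation.EqvGen N.React y z

/-- The monomial `x^y = ∏ i, x_i ^ y_i`. -/
def monomial (x : Fin d → ℝ) (y : Fin d → ℕ) : ℝ := ∏ i, x i ^ y i

/-- The reaction vector `y' - y` of a reaction, as a real vector. -/
def reactionVector (r : (Fin d → ℕ) × (Fin d → ℕ)) : Fin d → ℝ :=
  fun i => (r.2 i : ℝ) - (r.1 i : ℝ)

/-- The mass-action vector field `f(x) = ∑_{y → y'} k_{y → y'} x^y (y' - y)`. -/
noncomputable def Network.field (N : Network d) (k : (Fin d → ℕ) × (Fin d → ℕ) → ℝ)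
    (x : Fin d → ℝ) : Fin d → ℝ :=
  ∑ r ∈ N.reactions, (k r * monomial x r.1) • reactionVector r

/-- The stoichiometric subspace `S = span {y' - y}`. -/
def Network.stoich (N : Network d) : Submodule ℝ (Fin d → ℝ) :=
  Submodule.span ℝ (reactionVector '' (N.reactions : Set ((Fin d → ℕ) × (Fin d → ℕ))))

/-- The positive stoichiometric class `(c + S) ∩ ℝ^d_{>0}`. -/
def Network.posClass (N : Network d) (c : Fin d → ℝ) : Set (Fin d → ℝ) :=
  {x | (∀ i, 0 < x i) ∧ x - c ∈ N.stoich}

/-- `x` is a global positive solution of the mass-action system on `[0, ∞)`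
(one-sided derivative at `t = 0`). -/
def Network.IsPosSolution (N : Network d) (k : (Fin d → ℕ) × (Fin d → ℕ) → ℝ)
    (x : ℝ → Fin d → ℝ) : Prop :=
  ∀ t, 0 ≤ t → (∀ i, 0 < x t i) ∧ HasDerivWithinAt x (N.field k (x t)) (Set.Ici 0) t

/-- Permanence on `P`: from every point of `P` there is a global positive solution, and there is a
compact `K ⊆ P` such that every global positive solution starting in `P` is in `K` for all
sufficiently large times. -/
def Network.PermanentOn (N : Network d) (k : (Fin d → ℕ) × (Fin d → ℕ) → ℝ)
    (P : Set (Fin d → ℝ)) : Prop :=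
  (∀ x₀ ∈ P, ∃ x : ℝ → Fin d → ℝ, N.IsPosSolution k x ∧ x 0 = x₀) ∧
  ∃ K : Set (Fin d → ℝ), IsCompact K ∧ K ⊆ P ∧
    ∀ x : ℝ → Fin d → ℝ, N.IsPosSolution k x → x 0 ∈ P → ∃ T, ∀ t, T ≤ t → x t ∈ K

/-- An integer vector is a *root multiple* if it is an integer multiple of a unit vector `e_a`
or of a difference `e_a - e_b` of unit vectors. -/
def IsRootMultiple (u : Fin d → ℤ) : Prop :=
  ∃ (n : ℤ) (a b : Fin d), u = n • Pi.single a 1 ∨ u = n • (Pi.single a 1 - Pi.single b 1)

/-- The network is of *exchange type*: any two complexes of one linkage class differ by a root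
multiple. -/
def Network.ExchangeType (N : Network d) : Prop :=
  ∀ y z, N.SameLinkageClass y z → IsRootMultiple (fun i => (z i : ℤ) - (y i : ℤ))

end Vale.Agent.P072
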