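import Vale.Agent.P072.Defs

/-!
# Mass-action systems with time-dependent rates (definitions for P072, stronger form)

Rates are measurable functions of time with values in `[ε, ε⁻¹]`.  Solutions are understood in the
sense of Caratheodory, in integral form.
-/

namespace Vale.Agent.P072

variable {d : ℕ}

/-- The time-dependent rates `k` are measurable in time and take values in `[ε, ε⁻¹]`. -/
def Network.AdmissibleRates (N : Network d) (ε : ℝ)
    (k : ℝ → (Fin d → ℕ) × (Fin d → ℕ) → ℝ) : Prop :=
  (∀ r, Measurable fun t => k t r) ∧ ∀ t, ∀ r ∈ N.reactions, ε ≤ k t r ∧ k t r ≤ ε⁻¹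

/-- `x` is a global positive solution on `[0, ∞)` of the mass-action system with time-dependent
rates `k`: it is continuous, positive, and satisfies the integral equation
`x t = x 0 + ∫₀ᵗ f(s, x s) ds`. -/
def Network.IsPosSolutionVar (N : Network d) (k : ℝ → (Fin d → ℕ) × (Fin d → ℕ) → ℝ)
    (x : ℝ → Fin d → ℝ) : Prop :=
  ContinuousOn x (Set.Ici 0) ∧ (∀ t, 0 ≤ t → ∀ i, 0 < x t i) ∧
    ∀ t, 0 ≤ t → x t = x 0 + ∫ s in (0 : ℝ)..t, N.field (k s) (x s)

/-- Permanence on `P`, uniformly in the admissible time-dependent rates: there is one compact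
`K ⊆ P` such that for all admissible rates every point of `P` starts a global positive solution
and every global positive solution starting in `P` is in `K` for all sufficiently large times. -/
def Network.PermanentOnVar (N : Network d) (ε : ℝ) (P : Set (Fin d → ℝ)) : Prop :=
  ∃ K : Set (Fin d → ℝ), IsCompact K ∧ K ⊆ P ∧
    ∀ k : ℝ → (Fin d → ℕ) × (Fin d → ℕ) → ℝ, N.AdmissibleRates ε k →
      (∀ x₀ ∈ P, ∃ x : ℝ → Fin d → ℝ, N.IsPosSolutionVar k x ∧ x 0 = x₀) ∧
      ∀ x : ℝ → Fin d → ℝ, N.IsPosSolutionVar k x → x 0 ∈ P → ∃ T, ∀ t, T ≤ t → x t ∈ K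

end Vale.Agent.P072
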