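import Vale.Agent.P072.Vertex

/-!
# Behaviour near the edges of the closed class
-/

namespace Vale.Agent.P072

open Finset

namespace Setup

variable {d : ℕ} (A : Setup d)

/-- At `x`, every monomial with more of species `i` is much smaller than the reachable ones with
less of it. -/
def Good (i : Fin d) (x : Fin d → ℝ) : Prop := ∀ z ∈ A.Z, 0 < z i → z ⬝ᵥ lg x ≤ -A.T

lemma good_of_small (B ε' : ℝ) (hε' : 0 < ε') :
    ∃ δ0 : ℝ, 0 < δ0 ∧ ∀ x : Fin d → ℝ, (∀ k, 0 < x k) → (∀ k, x k ≤ B) →
      (∀ i j, A.Corner i j → ε' ≤ x i + x j) → ∀ i, x i ≤ δ0 → A.Good i x := by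
  classical
  set B' : ℝ := max B 1 with hB'
  set L : ℝ := Real.log B' with hL
  set Q : ℝ := |Real.log (ε' / 2)| with hQ
  set c : ℝ := A.Zs * (L + Q) with hc
  have hB1 : 1 ≤ B' := le_max_right _ _
  have hL0 : 0 ≤ L := Real.log_nonneg hB1
  have hQ0 : 0 ≤ Q := abs_nonneg _
  have hZs0 : 0 < A.Zs := lt_of_lt_of_le one_pos A.hZs
  have hc0 : 0 ≤ c := by positivity
  refine ⟨min (min (ε' / 2) 1) (Real.exp (-(A.T + d * c))), by positivity, ?_⟩
  intro x hx hxB hcor i hxi z hz hzi
  have hxi1 : x i ≤ ε' / 2 := hxi.trans ((min_le_left _ _).trans (min_le_left _ _))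
  have hxi2 : x i ≤ 1 := hxi.trans ((min_le_left _ _).trans (min_le_right _ _))
  have hxi3 : x i ≤ Real.exp (-(A.T + d * c)) := hxi.trans (min_le_right _ _)
  have hterm : ∀ k ∈ (Finset.univ : Finset (Fin d)),
      z k * lg x k ≤ c + (if k = i then -(A.T + d * c) else 0) := by
    intro k _
    have hzk : |z k| ≤ A.Zs := A.hZbd z hz k
    by_cases hki : k = i
    · subst hki
      simp only [if_true]
      have h1 : 1 ≤ z k := by
        rcases A.hZint' hz k with h0 | h0
        · rw [h0] at hzi; exact absurd hzi (lt_irrefl _)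
        · rwa [abs_of_pos hzi] at h0
      have h2 : Real.log (x k) ≤ -(A.T + d * c) := by
        have := Real.log_le_log (hx k) hxi3
        rwa [Real.log_exp] at this
      have h3 : Real.log (x k) ≤ 0 := Real.log_nonpos (hx k).le hxi2
      have h4 : z k * Real.log (x k) ≤ Real.log (x k) := by nlinarith
      unfold lg
      linarith
    · simp only [hki, if_false, add_zero]
      unfold lg
      rcases le_or_gt 0 (z k) with h0 | h0
      · have h1 : Real.log (x k) ≤ L :=
          Real.log_le_log (hx k) ((hxB k).trans (le_max_left _ _))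
        have h2 : z k ≤ A.Zs := (le_abs_self _).trans hzk
        calc z k * Real.log (x k) ≤ z k * L := mul_le_mul_of_nonneg_left h1 h0
          _ ≤ A.Zs * L := mul_le_mul_of_nonneg_right h2 hL0
          _ ≤ c := by rw [hc]; nlinarith
      · have hC : A.Corner i k := ⟨z, hz, hzi, h0⟩
        have h1 : ε' / 2 ≤ x k := by
          have := hcor i k hC
          linarith
        have h2 : -Q ≤ Real.log (x k) := by
          have h3 := Real.log_le_log (by positivity : 0 < ε' / 2) h1
          have h4 := neg_abs_le (Real.log (ε' / 2))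
          linarith
        have h5 : -z k ≤ A.Zs := (neg_le_abs _).trans hzk
        calc z k * Real.log (x k) = (-z k) * (-Real.log (x k)) := by ring
          _ ≤ (-z k) * Q := mul_le_mul_of_nonneg_left (by linarith) (by linarith)
          _ ≤ A.Zs * Q := mul_le_mul_of_nonneg_right h5 hQ0
          _ ≤ c := by rw [hc]; nlinarith
  have hsum := Finset.sum_le_sum hterm
  rw [Finset.sum_add_distrib, Finset.sum_const, Finset.sum_ite_eq' Finset.univ i,
    if_pos (Finset.mem_univ i), Finset.card_univ, Fintype.card_fin, nsmul_eq_mul] at hsum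
  unfold dotProduct
  linarith

lemma field_apply (x : Fin d → ℝ) (i : Fin d) :
    A.N.field A.k x i
      = ∑ r ∈ A.N.reactions, A.k r * monomial x r.1 * ((r.2 i : ℝ) - (r.1 i : ℝ)) := by
  simp only [Network.field, Finset.sum_apply, Pi.smul_apply, smul_eq_mul, reactionVector]

lemma field_lower {x : Fin d → ℝ} {i : Fin d} {e0 : ℝ} (he0 : 0 < e0) (he1 : e0 ≤ 1)
    (hx : ∀ k, e0 ≤ x k) (hgood : A.Good i x) (hnc : ∃ r ∈ A.N.reactions, r.1 i ≠ r.2 i) :
    A.klo / 2 * e0 ^ A.N.size ≤ A.N.field A.k x i := by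
  classical
  have hxpos : ∀ k, 0 < x k := fun k => lt_of_lt_of_le he0 (hx k)
  have hZs0 : 0 < A.Zs := lt_of_lt_of_le one_pos A.hZs
  rw [A.field_apply]
  apply flux_lower_bound A.N.reactions A.k (monomial x) (fun y => (y i : ℝ)) A.hWR A.hklo A.hk
    (fun v => (monomial_pos hxpos v).le) A.hθ0.le (by positivity : 0 ≤ 2 * A.Zs * A.Zs)
  · intro r _ hlt
    have h1 : r.1 i < r.2 i := by exact_mod_cast hlt
    have h2 : r.1 i + 1 ≤ r.2 i := h1
    have h3 : ((r.1 i : ℝ) + 1) ≤ (r.2 i : ℝ) := by exact_mod_cast h2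
    linarith
  · intro r hr
    have hrZ := A.reactionVector_mem hr
    have h1 := A.hZbd _ hrZ i
    have h2 : (r.1 i : ℝ) - (r.2 i : ℝ) = -(reactionVector r i) := by
      unfold reactionVector; ring
    rw [h2]
    have h3 : -(reactionVector r i) ≤ A.Zs := (neg_le_abs _).trans h1
    have h4 : A.Zs ≤ 2 * A.Zs * A.Zs := by nlinarith [A.hZs]
    linarith
  · intro y y' hreach hlt
    have hne : y ≠ y' := by
      intro h0; rw [h0] at hlt; exact lt_irrefl _ hlt
    have hzZ := A.hZreach y y' hreach hne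
    have hnZ := A.hZneg _ hzZ
    have hpos : 0 < (-(toR y' - toR y)) i := by
      simp only [Pi.neg_apply, Pi.sub_apply, toR]
      linarith
    have h1 := hgood _ hnZ hpos
    rw [neg_dotProduct] at h1
    exact A.monomial_le_of_dot hxpos (by linarith)
  · exact A.hsmall
  · obtain ⟨r, hr, hne⟩ := hnc
    exact ⟨r, hr, fun h => hne (by exact_mod_cast h)⟩
  · intro r hr
    exact monomial_lower he0 he1 hx r.1 ((Nat.le_add_right _ _).trans (A.N.total_le_size hr))

lemma coord_conserved {i : Fin d} (hcons : ∀ r ∈ A.N.reactions, r.1 i = r.2 i) {x : Fin d → ℝ}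
    (hx : x - A.c ∈ A.N.stoich) : x i = A.c i := by
  let φ : (Fin d → ℝ) →ₗ[ℝ] ℝ := LinearMap.proj i
  have hφ : ∀ v, φ v = v i := fun v => by simp [φ]
  have hle : A.N.stoich ≤ LinearMap.ker φ := by
    unfold Network.stoich
    rw [Submodule.span_le]
    rintro _ ⟨r, hr, rfl⟩
    simp only [SetLike.mem_coe, LinearMap.mem_ker, hφ]
    have := hcons r hr
    simp only [reactionVector, this, sub_self]
  have h0 : φ (x - A.c) = 0 := hle hx
  rw [map_sub, hφ, hφ] at h0
  linarith

end Setup

end Vale.Agent.P072
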