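import Mathlib

/-!
# Entropy, its Legendre dual, and elementary inequalities
-/

namespace Vale.Agent.P072

open Finset

variable {d : ℕ}

/-- Coordinatewise logarithm. -/
noncomputable def lg (x : Fin d → ℝ) : Fin d → ℝ := fun i => Real.log (x i)

/-- The entropy `V(x) = ∑ (x_i log x_i - x_i)`. -/
noncomputable def ent (x : Fin d → ℝ) : ℝ := ∑ i, (x i * Real.log (x i) - x i)

/-- The affine minorants `T(p; x) = ∑ (x_i p_i - e^{p_i})` of the entropy. -/
noncomputable def dualT (p x : Fin d → ℝ) : ℝ := ∑ i, (x i * p i - Real.exp (p i))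

/-- `φ(u) = e^u - 1 - u`. -/
noncomputable def phi (u : ℝ) : ℝ := Real.exp u - 1 - u

lemma phi_nonneg (u : ℝ) : 0 ≤ phi u := by
  have := Real.add_one_le_exp u
  unfold phi; linarith

lemma phi_zero : phi 0 = 0 := by simp [phi]

lemma eq_zero_of_phi_eq_zero {u : ℝ} (h : phi u = 0) : u = 0 := by
  by_contra hne
  have := Real.add_one_lt_exp hne
  unfold phi at h; linarith

lemma phi_mono {a b : ℝ} (ha : 0 ≤ a) (hab : a ≤ b) : phi a ≤ phi b := by
  -- e^b - e^a ≥ e^a (b - a) ≥ b - a
  have h1 : (b - a) + 1 ≤ Real.exp (b - a) := Real.add_one_le_exp _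
  have h2 : Real.exp b = Real.exp a * Real.exp (b - a) := by
    rw [← Real.exp_add]; congr 1; ring
  have h3 : 1 ≤ Real.exp a := Real.one_le_exp ha
  unfold phi
  rw [h2]
  nlinarith

lemma phi_neg_le {a : ℝ} (ha : 0 ≤ a) : phi (-a) ≤ phi a := by
  -- sinh a ≥ a
  have h : a ≤ Real.sinh a := Real.self_le_sinh_iff.mpr ha
  rw [Real.sinh_eq] at h
  unfold phi
  linarith

lemma phi_le_of_abs_le {a T : ℝ} (h : |a| ≤ T) : phi a ≤ phi T := by
  rcases le_total 0 a with ha | ha
  · rw [abs_of_nonneg ha] at h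
    exact phi_mono ha h
  · rw [abs_of_nonpos ha] at h
    have h1 := phi_neg_le (a := -a) (by linarith)
    rw [neg_neg] at h1
    exact h1.trans (phi_mono (by linarith) h)

lemma abs_le_of_phi_le {u T : ℝ} (hT : 0 ≤ T) (h : phi u ≤ phi T) : |u| ≤ Real.exp T := by
  have hTe : T + 1 ≤ Real.exp T := Real.add_one_le_exp T
  rw [abs_le]
  constructor
  · have : 0 < Real.exp u := Real.exp_pos u
    unfold phi at h
    linarith
  · by_contra hcon
    push Not at hcon
    have hTu : T ≤ u := by linarith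
    -- phi is strictly larger
    have h6 : 0 < u - T := by linarith
    have h1 : (u - T) + 1 < Real.exp (u - T) := Real.add_one_lt_exp h6.ne'
    have h2 : Real.exp u = Real.exp T * Real.exp (u - T) := by
      rw [← Real.exp_add]; congr 1; ring
    have h3 : 1 ≤ Real.exp T := Real.one_le_exp hT
    unfold phi at h
    rw [h2] at h
    nlinarith

lemma phi_smul_le {l u : ℝ} (h0 : 0 ≤ l) (h1 : l ≤ 1) : phi (l * u) ≤ l * phi u := by
  have := convexOn_exp.2 (Set.mem_univ u) (Set.mem_univ (0 : ℝ)) h0 (by linarith : 0 ≤ 1 - l)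
    (by ring)
  simp only [smul_eq_mul, mul_zero, add_zero, Real.exp_zero, mul_one] at this
  unfold phi
  nlinarith

/-- Fenchel–Young for `s log s - s`. -/
lemma fenchel_scalar {y : ℝ} (hy : 0 ≤ y) (p : ℝ) :
    y * p - Real.exp p ≤ y * Real.log y - y := by
  rcases hy.eq_or_lt with rfl | hy
  · have := Real.exp_pos p
    simp; linarith
  · have h1 := Real.add_one_le_exp (p - Real.log y)
    have h2 : Real.exp p = y * Real.exp (p - Real.log y) := by
      rw [Real.exp_sub, Real.exp_log hy]; field_simp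
    rw [h2]
    nlinarith

lemma dualT_le_ent {y : Fin d → ℝ} (hy : ∀ i, 0 ≤ y i) (p : Fin d → ℝ) : dualT p y ≤ ent y :=
  Finset.sum_le_sum fun i _ => fenchel_scalar (hy i) (p i)

lemma dualT_lg_self {b : Fin d → ℝ} (hb : ∀ i, 0 < b i) : dualT (lg b) b = ent b := by
  unfold dualT ent lg
  apply Finset.sum_congr rfl
  intro i _
  rw [Real.exp_log (hb i)]

lemma dualT_add_smul {p z : Fin d → ℝ} (h : z ⬝ᵥ p = 0) (x : Fin d → ℝ) (s : ℝ) :
    dualT p (x + s • z) = dualT p x := by
  unfold dualT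
  have : ∑ i, ((x + s • z) i * p i - Real.exp (p i))
      = ∑ i, (x i * p i - Real.exp (p i)) + s * (z ⬝ᵥ p) := by
    unfold dotProduct
    rw [Finset.mul_sum, ← Finset.sum_add_distrib]
    apply Finset.sum_congr rfl
    intro i _
    simp only [Pi.add_apply, Pi.smul_apply, smul_eq_mul]
    ring
  rw [this, h, mul_zero, add_zero]

lemma ent_sub_dualT {x : Fin d → ℝ} (hx : ∀ i, 0 < x i) (p : Fin d → ℝ) :
    ent x - dualT p x = ∑ i, x i * phi (p i - Real.log (x i)) := by
  unfold ent dualT phi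
  rw [← Finset.sum_sub_distrib]
  apply Finset.sum_congr rfl
  intro i _
  rw [Real.exp_sub, Real.exp_log (hx i)]
  have := (hx i).ne'
  field_simp
  ring

lemma continuous_ent : Continuous (ent : (Fin d → ℝ) → ℝ) := by
  unfold ent
  apply continuous_finsetSum
  intro i _
  exact (Real.continuous_mul_log.comp (continuous_apply i)).sub (continuous_apply i)

lemma continuous_dualT (p : Fin d → ℝ) : Continuous (dualT p) := by
  unfold dualT
  fun_prop

/-- Derivative of the entropy along a curve. -/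
lemma hasDerivWithinAt_ent {x : ℝ → Fin d → ℝ} {v : Fin d → ℝ} {s : Set ℝ} {t : ℝ}
    (hx : HasDerivWithinAt x v s t) (hpos : ∀ i, 0 < x t i) :
    HasDerivWithinAt (fun r => ent (x r)) (lg (x t) ⬝ᵥ v) s t := by
  unfold ent dotProduct lg
  apply HasDerivWithinAt.fun_sum
  intro i _
  have hxi : HasDerivWithinAt (fun r => x r i) (v i) s t := (hasDerivWithinAt_pi.mp hx) i
  have h1 := (Real.hasDerivAt_mul_log (hpos i).ne').comp_hasDerivWithinAt t hxi
  have h2 : HasDerivWithinAt (fun r => x r i * Real.log (x r i) - x r i)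
      ((Real.log (x t i) + 1) * v i - v i) s t := h1.sub hxi
  exact h2.congr_deriv (by ring)

/-- Upper bound for the entropy on a box. -/
lemma ent_le_of_le {b : Fin d → ℝ} {β : ℝ} (hβ : 1 ≤ β) (hb : ∀ i, 0 < b i) (hbβ : ∀ i, b i ≤ β) :
    ent b ≤ d * (β * Real.log β) := by
  unfold ent
  have : ∀ i ∈ (Finset.univ : Finset (Fin d)), b i * Real.log (b i) - b i ≤ β * Real.log β := by
    intro i _
    have h1 : Real.log (b i) ≤ Real.log β := Real.log_le_log (hb i) (hbβ i)
    have h2 : 0 ≤ Real.log β := Real.log_nonneg hβ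
    have h3 : b i * Real.log (b i) ≤ b i * Real.log β :=
      mul_le_mul_of_nonneg_left h1 (hb i).le
    have h4 : b i * Real.log β ≤ β * Real.log β := mul_le_mul_of_nonneg_right (hbβ i) h2
    linarith [hb i]
  calc _ ≤ ∑ _i : Fin d, β * Real.log β := Finset.sum_le_sum this
    _ = d * (β * Real.log β) := by simp

end Vale.Agent.P072
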