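import Vale.Agent.P072.Poly

/-!
# Estimates for the mass-action field on the facets of the polytopes
-/

namespace Vale.Agent.P072

open Finset

variable {d : ℕ}

/-- Total number of molecules appearing in the network. -/
def Network.size (N : Network d) : ℕ := ∑ r ∈ N.reactions, ((∑ i, r.1 i) + (∑ i, r.2 i))

lemma Network.total_le_size (N : Network d) {r : (Fin d → ℕ) × (Fin d → ℕ)}
    (hr : r ∈ N.reactions) : (∑ i, r.1 i) + (∑ i, r.2 i) ≤ N.size :=
  Finset.single_le_sum (f := fun r : (Fin d → ℕ) × (Fin d → ℕ) => (∑ i, r.1 i) + (∑ i, r.2 i))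
    (fun _ _ => Nat.zero_le _) hr

lemma sum_field (N : Network d) (k : (Fin d → ℕ) × (Fin d → ℕ) → ℝ) (x : Fin d → ℝ)
    (I : Finset (Fin d)) :
    ∑ i ∈ I, N.field k x i
      = ∑ r ∈ N.reactions, k r * monomial x r.1 * (height I r.2 - height I r.1) := by
  simp only [Network.field, Finset.sum_apply, Pi.smul_apply, smul_eq_mul, reactionVector]
  rw [Finset.sum_comm]
  apply Finset.sum_congr rfl
  intro r _
  rw [← Finset.mul_sum, height, height, Finset.sum_sub_distrib]

lemma reach_sameClass (N : Network d) {y z : Fin d → ℕ}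
    (h : Relation.ReflTransGen (fun a b => (a, b) ∈ N.reactions) y z) :
    N.SameLinkageClass y z := by
  induction h with
  | refl => exact Relation.EqvGen.refl _
  | tail _ hbc ih => exact Relation.EqvGen.trans _ _ _ ih (Relation.EqvGen.rel _ _ hbc)

section
variable (N : Network d) (k : (Fin d → ℕ) × (Fin d → ℕ) → ℝ)
  (hWR : N.WeaklyReversible) (hET : N.ExchangeType) {klo θ : ℝ}
  (hklo : 0 < klo) (hk : ∀ r ∈ N.reactions, klo ≤ k r) (hθ0 : 0 < θ) (hθ1 : θ ≤ 1)
  (hsmall : θ * (N.size : ℝ) * (∑ r ∈ N.reactions, k r) ≤ klo / 2)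

include hWR hET hklo hk hθ0 hθ1 hsmall

/-- On a lower facet whose functional is not conserved, the functional strictly increases. -/
lemma dF_lower {ε R e0 : ℝ} {x : Fin d → ℝ} (he0 : 0 < e0) (he1 : e0 ≤ 1) (heε : e0 ≤ ε)
    (hεθ : ε * (1 + 1 / θ) ^ d ≤ θ) (h : InPoly θ ε R x) (I : Finset (Fin d))
    (hact : F I x = ε * (1 + 1 / θ) ^ I.card)
    (hnc : ∃ r ∈ N.reactions, height I r.1 ≠ height I r.2) :
    klo / 2 * e0 ^ N.size ≤ ∑ i ∈ I, N.field k x i := by
  have hε : 0 < ε := lt_of_lt_of_le he0 heε
  have hlow : ∀ i, e0 ≤ x i := fun i => heε.trans (h.lower_coord hθ0 hε.le i)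
  have hpos : ∀ i, 0 < x i := fun i => lt_of_lt_of_le he0 (hlow i)
  obtain ⟨h1, h2⟩ := facet_lower hθ0 hε hεθ h I hact
  rw [sum_field]
  apply flux_lower_bound N.reactions k (monomial x) (height I) hWR hklo hk
    (fun v => (monomial_pos hpos v).le) hθ0.le (Nat.cast_nonneg _)
  · intro r _ hlt
    exact height_gap I hlt
  · intro r hr
    have h3 := height_le_total I r.1
    have h4 := height_nonneg I r.2
    have h5 : ((∑ i, r.1 i : ℕ) : ℝ) ≤ (N.size : ℝ) := by
      have := N.total_le_size hr
      exact_mod_cast (Nat.le_add_right _ _).trans this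
    linarith
  · intro y z hreach hlt
    exact order_lower hpos hθ0 hθ1 I h1 h2 (hET y z (reach_sameClass N hreach)) hlt
  · exact hsmall
  · exact hnc
  · intro r hr
    exact monomial_lower he0 he1 hlow r.1 ((Nat.le_add_right _ _).trans (N.total_le_size hr))

/-- On an upper facet whose functional is not conserved, the functional strictly decreases. -/
lemma dF_upper {ε R e0 : ℝ} {x : Fin d → ℝ} (he0 : 0 < e0) (he1 : e0 ≤ 1) (heε : e0 ≤ ε)
    (hR0 : 0 < R) (hR : 1 ≤ R * θ ^ d) (h : InPoly θ ε R x) (I : Finset (Fin d))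
    (hact : F I x = R * Gam θ I.card)
    (hnc : ∃ r ∈ N.reactions, height I r.1 ≠ height I r.2) :
    ∑ i ∈ I, N.field k x i ≤ -(klo / 2 * e0 ^ N.size) := by
  have hε : 0 < ε := lt_of_lt_of_le he0 heε
  have hlow : ∀ i, e0 ≤ x i := fun i => heε.trans (h.lower_coord hθ0 hε.le i)
  have hpos : ∀ i, 0 < x i := fun i => lt_of_lt_of_le he0 (hlow i)
  obtain ⟨h1, h2⟩ := facet_upper hθ0 hθ1 hR0 hR h I hact
  rw [sum_field]
  have key : klo / 2 * e0 ^ N.size ≤ ∑ r ∈ N.reactions,
      k r * monomial x r.1 * ((fun y => -height I y) r.2 - (fun y => -height I y) r.1) := by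
    apply flux_lower_bound N.reactions k (monomial x) (fun y => -height I y) hWR hklo hk
      (fun v => (monomial_pos hpos v).le) hθ0.le (Nat.cast_nonneg _)
    · intro r _ hlt
      have := height_gap I (y := r.2) (z := r.1) (by simpa using hlt)
      linarith
    · intro r hr
      have h3 := height_le_total I r.2
      have h4 := height_nonneg I r.1
      have h5 : ((∑ i, r.2 i : ℕ) : ℝ) ≤ (N.size : ℝ) := by
        have := N.total_le_size hr
        exact_mod_cast (Nat.le_add_left _ _).trans this
      linarith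
    · intro y z hreach hlt
      exact order_upper hpos hθ0 hθ1 I h1 h2 (hET y z (reach_sameClass N hreach))
        (by simpa using hlt)
    · exact hsmall
    · obtain ⟨r, hr, hne⟩ := hnc
      exact ⟨r, hr, fun h => hne (by simpa using h)⟩
    · intro r hr
      exact monomial_lower he0 he1 hlow r.1 ((Nat.le_add_right _ _).trans (N.total_le_size hr))
  have heq : ∑ r ∈ N.reactions,
      k r * monomial x r.1 * ((fun y => -height I y) r.2 - (fun y => -height I y) r.1)
      = -∑ r ∈ N.reactions, k r * monomial x r.1 * (height I r.2 - height I r.1) := by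
    rw [← Finset.sum_neg_distrib]
    apply Finset.sum_congr rfl
    intro r _
    ring
  rw [heq] at key
  linarith

end

/-- A functional `F I` all of whose reaction increments vanish is constant on stoichiometric
classes. -/
lemma F_eq_of_conserved (N : Network d) (I : Finset (Fin d))
    (hcons : ∀ r ∈ N.reactions, height I r.1 = height I r.2) {x c : Fin d → ℝ}
    (hx : x - c ∈ N.stoich) : F I x = F I c := by
  let φ : (Fin d → ℝ) →ₗ[ℝ] ℝ := ∑ i ∈ I, LinearMap.proj i
  have hφ : ∀ v, φ v = F I v := fun v => by simp [φ, F]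
  have hle : N.stoich ≤ LinearMap.ker φ := by
    unfold Network.stoich
    rw [Submodule.span_le]
    rintro _ ⟨r, hr, rfl⟩
    simp only [SetLike.mem_coe, LinearMap.mem_ker, hφ]
    have := hcons r hr
    unfold height at this
    simp only [F, reactionVector, Finset.sum_sub_distrib]
    linarith
  have h0 : φ (x - c) = 0 := hle hx
  rw [map_sub, hφ, hφ] at h0
  linarith

end Vale.Agent.P072
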