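import Mathlib

/-!
# A flux inequality on weakly reversible weighted digraphs
-/

namespace Vale.Agent.P072

open Finset

section Flux
variable {V : Type*}

/-- Along a directed path on which the height increases overall, there is a first edge going up;
its source is not higher than the start of the path. -/
lemma exists_up_edge {R : V → V → Prop} {h : V → ℝ} {a b : V}
    (hab : Relation.ReflTransGen R a b) (hlt : h a < h b) :
    ∃ z z', R z z' ∧ Relation.ReflTransGen R a z ∧ h z ≤ h a ∧ h z < h z' := by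
  induction hab using Relation.ReflTransGen.head_induction_on with
  | refl => exact absurd hlt (lt_irrefl _)
  | @head a c hac hcb ih =>
    by_cases hc : h a < h c
    · exact ⟨a, c, hac, .refl, le_rfl, hc⟩
    · push Not at hc
      obtain ⟨z, z', hR, hreach, hle, hlt'⟩ := ih (lt_of_le_of_lt hc hlt)
      exact ⟨z, z', hR, .head hac hreach, hle.trans hc, hlt'⟩

/-- **Flux inequality.**  On a weakly reversible digraph with edge weights `k ≥ klo > 0`, vertex
weights `m ≥ 0` and a height function `h`, if `m y ≤ θ * m z` whenever `z` is reachable from `y`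
and strictly lower than `y`, and `θ` is small, then the net upward flux is at least
`klo / 2 * μ`, where `μ` bounds the vertex weights of sources from below. -/
lemma flux_lower_bound [DecidableEq V] (E : Finset (V × V)) (k : V × V → ℝ) (m h : V → ℝ)
    {klo θ Nn μ : ℝ}
    (hWR : ∀ r ∈ E, Relation.ReflTransGen (fun a b => (a, b) ∈ E) r.2 r.1)
    (hklo : 0 < klo) (hk : ∀ r ∈ E, klo ≤ k r) (hm : ∀ v, 0 ≤ m v)
    (hθ : 0 ≤ θ) (hNn : 0 ≤ Nn)
    (hgap : ∀ r ∈ E, h r.1 < h r.2 → 1 ≤ h r.2 - h r.1)
    (hbd : ∀ r ∈ E, h r.1 - h r.2 ≤ Nn)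
    (hH : ∀ y z, Relation.ReflTransGen (fun a b => (a, b) ∈ E) y z → h z < h y → m y ≤ θ * m z)
    (hsmall : θ * Nn * (∑ r ∈ E, k r) ≤ klo / 2)
    (hne : ∃ r ∈ E, h r.1 ≠ h r.2)
    (hμ : ∀ r ∈ E, μ ≤ m r.1) :
    klo / 2 * μ ≤ ∑ r ∈ E, k r * m r.1 * (h r.2 - h r.1) := by
  classical
  set Gd := E.filter (fun r => h r.1 < h r.2) with hGd
  -- every bad edge is dominated by a good one
  have hbad : ∀ r ∈ E, h r.2 < h r.1 → ∃ g ∈ Gd, m r.1 ≤ θ * m g.1 := by
    intro r hr hlt
    obtain ⟨z, z', hR, hreach, hle, hlt'⟩ := exists_up_edge (hWR r hr) hlt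
    refine ⟨(z, z'), ?_, ?_⟩
    · simp only [hGd, mem_filter]
      exact ⟨hR, hlt'⟩
    · apply hH r.1 z
      · exact Relation.ReflTransGen.head (by simpa using hr) hreach
      · exact lt_of_le_of_lt hle hlt
  have hGne : Gd.Nonempty := by
    obtain ⟨r, hr, hne⟩ := hne
    rcases lt_or_gt_of_ne hne with hlt | hlt
    · exact ⟨r, by simp only [hGd, mem_filter]; exact ⟨hr, hlt⟩⟩
    · obtain ⟨g, hg, -⟩ := hbad r hr hlt
      exact ⟨g, hg⟩
  obtain ⟨g, hg, hmax⟩ := Gd.exists_max_image (fun r => m r.1) hGne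
  have hgE : g ∈ E := (mem_filter.mp hg).1
  have hgup : h g.1 < h g.2 := (mem_filter.mp hg).2
  set M := m g.1 with hM
  have hM0 : 0 ≤ M := hm _
  have hterm : ∀ r ∈ E, (if r = g then klo * M else 0) - k r * (θ * M * Nn)
      ≤ k r * m r.1 * (h r.2 - h r.1) := by
    intro r hr
    have hkr : 0 < k r := lt_of_lt_of_le hklo (hk r hr)
    have hsub : 0 ≤ k r * (θ * M * Nn) := by positivity
    by_cases hrg : r = g
    · subst hrg
      simp only [if_true]
      have h1 : klo * M ≤ k r * m r.1 * (h r.2 - h r.1) := by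
        have := hgap r hr hgup
        calc klo * M ≤ k r * M := by
              apply mul_le_mul_of_nonneg_right (hk r hr) hM0
          _ = k r * M * 1 := by ring
          _ ≤ k r * M * (h r.2 - h r.1) := by
              apply mul_le_mul_of_nonneg_left this (by positivity)
      linarith
    · simp only [hrg, if_false, zero_sub]
      rcases le_or_gt (h r.1) (h r.2) with hle | hlt
      · have : 0 ≤ k r * m r.1 * (h r.2 - h r.1) := by
          apply mul_nonneg (mul_nonneg hkr.le (hm _)) (by linarith)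
        linarith
      · obtain ⟨g', hg', hle'⟩ := hbad r hr hlt
        have h2 : m r.1 ≤ θ * M := hle'.trans (mul_le_mul_of_nonneg_left (hmax g' hg') hθ)
        have h3 : m r.1 * (h r.1 - h r.2) ≤ θ * M * Nn := by
          apply mul_le_mul h2 (hbd r hr) (by linarith) (by positivity)
        have h4 : k r * (m r.1 * (h r.1 - h r.2)) ≤ k r * (θ * M * Nn) :=
          mul_le_mul_of_nonneg_left h3 hkr.le
        nlinarith [h4]
  have hsum := Finset.sum_le_sum hterm
  rw [Finset.sum_sub_distrib, Finset.sum_ite_eq' E g, if_pos hgE, ← Finset.sum_mul] at hsum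
  have h5 : (∑ r ∈ E, k r) * (θ * M * Nn) ≤ klo / 2 * M := by
    calc (∑ r ∈ E, k r) * (θ * M * Nn) = (θ * Nn * ∑ r ∈ E, k r) * M := by ring
      _ ≤ klo / 2 * M := mul_le_mul_of_nonneg_right hsmall hM0
  have h6 : klo / 2 * μ ≤ klo / 2 * M := by
    apply mul_le_mul_of_nonneg_left (hμ g hgE) (by positivity)
  linarith

end Flux

end Vale.Agent.P072
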