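import Mathlib

/-!
# Global solutions of bounded, globally Lipschitz ODEs on `[0, ∞)`
-/

namespace Vale.Agent.P072

open Set Filter Topology Metric
open scoped NNReal

variable {E : Type*} [NormedAddCommGroup E] [NormedSpace ℝ E] [CompleteSpace E]

/-- A solution on `[0, T]`. -/
lemma exists_solution_Icc (g : ℝ → E → E) (K M : ℝ≥0) (hg : ∀ t, LipschitzWith K (g t))
    (hc : ∀ x, Continuous (fun t => g t x)) (hM : ∀ t x, ‖g t x‖ ≤ M) (x₀ : E) (T : ℝ)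
    (hT : 0 ≤ T) :
    ∃ α : ℝ → E, α 0 = x₀ ∧ ∀ t ∈ Icc 0 T, HasDerivWithinAt α (g t (α t)) (Icc 0 T) t := by
  have h0 : (0 : ℝ) ∈ Icc 0 T := ⟨le_rfl, hT⟩
  have hPL : IsPicardLindelof g (tmin := 0) (tmax := T) ⟨0, h0⟩ x₀ (M * ⟨T, hT⟩) 0 M K := by
    refine ⟨fun t _ => (hg t).lipschitzOnWith, fun x _ => (hc x).continuousOn,
      fun t _ x _ => hM t x, ?_⟩
    simp only [sub_zero, sub_self, NNReal.coe_zero]
    rw [max_eq_left hT]
    exact le_of_eq rfl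
  obtain ⟨α, hα0, hα⟩ := hPL.exists_eq_forall_mem_Icc_hasDerivWithinAt₀
  exact ⟨α, hα0, hα⟩

/-- Global solution on `[0, ∞)` of a bounded, globally Lipschitz (in space), continuous (in time)
ODE. -/
theorem exists_global_solution (g : ℝ → E → E) (K M : ℝ≥0) (hg : ∀ t, LipschitzWith K (g t))
    (hc : ∀ x, Continuous (fun t => g t x)) (hM : ∀ t x, ‖g t x‖ ≤ M) (x₀ : E) :
    ∃ α : ℝ → E, α 0 = x₀ ∧ ∀ t, 0 ≤ t → HasDerivWithinAt α (g t (α t)) (Ici 0) t := by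
  have hex : ∀ n : ℕ, ∃ α : ℝ → E, α 0 = x₀ ∧
      ∀ t ∈ Icc (0 : ℝ) (n + 1), HasDerivWithinAt α (g t (α t)) (Icc 0 (n + 1)) t :=
    fun n => exists_solution_Icc g K M hg hc hM x₀ (n + 1) (by positivity)
  choose α hα0 hα using hex
  -- uniqueness
  have huniq : ∀ n m : ℕ, n ≤ m → EqOn (α n) (α m) (Icc 0 (n + 1)) := by
    intro n m hnm
    have hnm' : (n : ℝ) + 1 ≤ m + 1 := by
      have : (n : ℝ) ≤ m := by exact_mod_cast hnm
      linarith
    apply ODE_solution_unique (v := g) (K := K) hg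
    · exact fun t ht => (hα n t ht).continuousWithinAt
    · intro t ht
      have := hα n t ⟨ht.1, ht.2.le⟩
      exact this.mono_of_mem_nhdsWithin (Icc_mem_nhdsGE_of_mem ht)
    · intro t ht
      have ht' : t ∈ Icc (0 : ℝ) (m + 1) := ⟨ht.1, ht.2.trans hnm'⟩
      exact ((hα m t ht').continuousWithinAt).mono (Icc_subset_Icc_right hnm')
    · intro t ht
      have ht' : t ∈ Ico (0 : ℝ) (m + 1) := ⟨ht.1, lt_of_lt_of_le ht.2 hnm'⟩
      have := hα m t ⟨ht'.1, ht'.2.le⟩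
      exact this.mono_of_mem_nhdsWithin (Icc_mem_nhdsGE_of_mem ht')
    · rw [hα0, hα0]
  refine ⟨fun t => α ⌊t⌋₊ t, by simp [hα0], fun t ht => ?_⟩
  set n := ⌊t⌋₊ with hn
  have htn : t < n + 1 := Nat.lt_floor_add_one t
  -- the glued function agrees with `α (n+1)` on `[0, n+2)`
  have hEq : ∀ s ∈ Ico (0 : ℝ) (n + 1), α ⌊s⌋₊ s = α n s := by
    intro s hs
    have hfl : ⌊s⌋₊ ≤ n := by
      have : ⌊s⌋₊ < n + 1 := by
        rw [Nat.floor_lt hs.1]
        exact_mod_cast hs.2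
      omega
    exact huniq _ _ hfl ⟨hs.1, (Nat.lt_floor_add_one s).le⟩
  have hmem : Ico (0 : ℝ) (n + 1) ∈ 𝓝[Ici 0] t := by
    have : Ico (0 : ℝ) (n + 1) = Ici (0 : ℝ) ∩ Iio ((n : ℝ) + 1) := by
      ext s; simp
    rw [this]
    exact inter_mem_nhdsWithin _ (Iio_mem_nhds htn)
  have hder : HasDerivWithinAt (α n) (g t (α n t)) (Ici 0) t := by
    apply (hα n t ⟨ht, htn.le⟩).mono_of_mem_nhdsWithin
    exact mem_of_superset hmem Ico_subset_Icc_self
  have hev : (fun s => α ⌊s⌋₊ s) =ᶠ[𝓝[Ici 0] t] α n :=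
    eventually_of_mem hmem hEq
  exact hder.congr_of_eventuallyEq hev rfl

end Vale.Agent.P072
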