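import Vale.Agent.P072.PolyBarrier
import Vale.Agent.P072.GlobalODE

/-!
# Permanence of exchange-type weakly reversible mass-action systems
-/

namespace Vale.Agent.P072

open Finset
open scoped NNReal

variable {d : ℕ}

lemma exists_pos_lower_bound {α : Type*} (E : Finset α) (k : α → ℝ) (hk : ∀ r ∈ E, 0 < k r) :
    ∃ klo, 0 < klo ∧ ∀ r ∈ E, klo ≤ k r := by
  rcases E.eq_empty_or_nonempty with rfl | hne
  · exact ⟨1, one_pos, by simp⟩
  · obtain ⟨r, hr, hmin⟩ := E.exists_min_image k hne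
    exact ⟨k r, hk r hr, hmin⟩

lemma field_mem_stoich (N : Network d) (k : (Fin d → ℕ) × (Fin d → ℕ) → ℝ) (x : Fin d → ℝ) :
    N.field k x ∈ N.stoich := by
  unfold Network.field
  apply Submodule.sum_mem
  intro r hr
  apply Submodule.smul_mem
  exact Submodule.subset_span ⟨r, hr, rfl⟩

/-- A curve whose velocity lies in the stoichiometric subspace stays in its class. -/
lemma stays_in_class (N : Network d) {x v : ℝ → Fin d → ℝ} {c : Fin d → ℝ}
    (hder : ∀ t, 0 ≤ t → HasDerivWithinAt x (v t) (Set.Ici 0) t)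
    (hv : ∀ t, 0 ≤ t → v t ∈ N.stoich) (h0 : x 0 - c ∈ N.stoich) :
    ∀ t, 0 ≤ t → x t - c ∈ N.stoich := by
  intro t ht
  have key : x t - x 0 ∈ N.stoich := by
    rw [← Subspace.dualAnnihilator_dualCoannihilator_eq (W := N.stoich),
      Submodule.mem_dualCoannihilator]
    intro φ hφ
    rw [Submodule.mem_dualAnnihilator] at hφ
    let φc : (Fin d → ℝ) →L[ℝ] ℝ := LinearMap.toContinuousLinearMap φ
    have hφc : ∀ w, φc w = φ w := fun w => rfl
    have hd : ∀ s ∈ Set.Ico 0 t, HasDerivWithinAt (φc ∘ x) 0 (Set.Ici s) s := by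
      intro s hs
      have h1 := φc.hasFDerivAt.comp_hasDerivWithinAt s (hder s hs.1)
      rw [hφc, hφ _ (hv s hs.1)] at h1
      exact h1.mono (Set.Ici_subset_Ici.mpr hs.1)
    have hc : ContinuousOn (φc ∘ x) (Set.Icc 0 t) := by
      apply φc.continuous.comp_continuousOn
      intro s hs
      exact ((hder s hs.1).continuousWithinAt).mono Set.Icc_subset_Ici_self
    have := constant_of_has_deriv_right_zero hc hd t ⟨ht, le_rfl⟩
    simp only [Function.comp_apply, hφc] at this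
    rw [map_sub, this, sub_self]
  have : x t - c = (x t - x 0) + (x 0 - c) := by abel
  rw [this]
  exact N.stoich.add_mem key h0

lemma contDiff_field (N : Network d) (k : (Fin d → ℕ) × (Fin d → ℕ) → ℝ) :
    ContDiff ℝ 1 (N.field k) := by
  unfold Network.field monomial
  fun_prop

lemma isClosed_inPoly (θ ε R : ℝ) : IsClosed {x : Fin d → ℝ | InPoly θ ε R x} := by
  have : {x : Fin d → ℝ | InPoly θ ε R x} = ⋂ I : Finset (Fin d), ⋂ (_ : I.Nonempty),
      {x | ε * (1 + 1 / θ) ^ I.card ≤ F I x ∧ F I x ≤ R * Gam θ I.card} := by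
    ext x
    simp [InPoly]
  rw [this]
  have hF : ∀ I : Finset (Fin d), Continuous (F I) := fun I => by
    unfold F
    fun_prop
  exact isClosed_iInter fun I => isClosed_iInter fun _ =>
    (isClosed_le continuous_const (hF I)).inter (isClosed_le (hF I) continuous_const)

/-- Any positive point lies in one of the polytopes. -/
lemma exists_levels {θ ε2 R2 : ℝ} (hθ0 : 0 < θ) (hε2 : 0 < ε2) {x₀ : Fin d → ℝ}
    (hx : ∀ i, 0 < x₀ i) :
    ∃ ε0 R0, 0 < ε0 ∧ ε0 ≤ ε2 ∧ R2 ≤ R0 ∧ InPoly θ ε0 R0 x₀ := by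
  obtain ⟨xmin, hxmin, hmin⟩ := exists_pos_lower_bound Finset.univ x₀ (fun i _ => hx i)
  have hΛ : 1 ≤ 1 + 1 / θ := by
    have : 0 ≤ 1 / θ := by positivity
    linarith
  have hLd : 0 < (1 + 1 / θ) ^ d := by positivity
  refine ⟨min ε2 (xmin / (1 + 1 / θ) ^ d), max (max R2 0) (∑ i, x₀ i), by positivity,
    min_le_left _ _, (le_max_left _ _).trans (le_max_left _ _), ?_⟩
  intro I hI
  have hcard : I.card ≤ d := by simpa using Finset.card_le_univ I
  constructor
  · obtain ⟨i, hi⟩ := hI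
    calc min ε2 (xmin / (1 + 1 / θ) ^ d) * (1 + 1 / θ) ^ I.card
        ≤ (xmin / (1 + 1 / θ) ^ d) * (1 + 1 / θ) ^ d := by
          apply mul_le_mul (min_le_right _ _) (pow_le_pow_right₀ hΛ hcard) (by positivity)
            (by positivity)
      _ = xmin := by field_simp
      _ ≤ x₀ i := hmin i (Finset.mem_univ i)
      _ ≤ F I x₀ := Finset.single_le_sum (f := x₀) (fun j _ => (hx j).le) hi
  · have h1 : F I x₀ ≤ ∑ i, x₀ i :=
      Finset.sum_le_sum_of_subset_of_nonneg (Finset.subset_univ _) fun i _ _ => (hx i).le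
    have h2 : 1 ≤ Gam θ I.card := one_le_Gam hθ0.le (Finset.card_pos.mpr hI)
    have h3 : ∑ i, x₀ i ≤ max (max R2 0) (∑ i, x₀ i) := le_max_right _ _
    have h4 : 0 ≤ max (max R2 0) (∑ i, x₀ i) := (le_max_right R2 0).trans (le_max_left _ _)
    nlinarith

section
variable (N : Network d) (k : (Fin d → ℕ) × (Fin d → ℕ) → ℝ)
  (hWR : N.WeaklyReversible) (hET : N.ExchangeType) {klo θ : ℝ}
  (hklo : 0 < klo) (hk : ∀ r ∈ N.reactions, klo ≤ k r) (hθ0 : 0 < θ) (hθ1 : θ ≤ 1)
  (hsmall : θ * (N.size : ℝ) * (∑ r ∈ N.reactions, k r) ≤ klo / 2)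

include hWR hET hklo hk hθ0 hθ1 hsmall

/-- Static version of `poly_barrier`. -/
lemma poly_barrier_static {c : Fin d → ℝ} {cmin ctot : ℝ} (hcmin : ∀ i, cmin ≤ c i)
    (hctot : ∑ i, c i ≤ ctot)
    (x v : ℝ → Fin d → ℝ) {a b : ℝ}
    (hcont : ContinuousOn x (Set.Icc a b))
    (hder : ∀ t ∈ Set.Ico a b, HasDerivWithinAt x (v t) (Set.Ici t) t)
    (hS : ∀ t ∈ Set.Icc a b, x t - c ∈ N.stoich)
    {ε R : ℝ} (hε0 : 0 < ε) (hε1 : ε ≤ 1)
    (hε : ε * (1 + 1 / θ) ^ d ≤ θ ∧ ε * (1 + 1 / θ) ^ d < cmin)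
    (hR : 1 ≤ R * θ ^ d ∧ ctot < R)
    (hv : ∀ t ∈ Set.Ico a b, InPoly θ ε R (x t) → v t = N.field k (x t))
    (h0 : InPoly θ ε R (x a)) :
    ∀ t ∈ Set.Icc a b, InPoly θ ε R (x t) := by
  have hς : 0 < klo / 2 * ε ^ N.size := by positivity
  have := poly_barrier N k hWR hET hklo hk hθ0 hθ1 hsmall hcmin hctot x v hcont hder hS
    (εa := ε) (r1 := 0) (Ra := R) (r2 := 0) (e0 := ε) hε0 hε1
    (by intro t _; simpa using hε) (by intro t _; simpa using hR)
    (by simpa using hς) le_rfl (by simpa using hς) le_rfl (by simpa using hv) h0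
  simpa using this

/-- Global existence of a positive solution from any point of a good polytope. -/
lemma exists_posSolution {c : Fin d → ℝ} {cmin ctot : ℝ} (hcmin : ∀ i, cmin ≤ c i)
    (hctot : ∑ i, c i ≤ ctot) {ε R : ℝ} (hε0 : 0 < ε) (hε1 : ε ≤ 1)
    (hε : ε * (1 + 1 / θ) ^ d ≤ θ ∧ ε * (1 + 1 / θ) ^ d < cmin)
    (hR : 1 ≤ R * θ ^ d ∧ ctot < R) {x₀ : Fin d → ℝ} (hx0 : InPoly θ ε R x₀)
    (hx0S : x₀ - c ∈ N.stoich) :
    ∃ x : ℝ → Fin d → ℝ, N.IsPosSolution k x ∧ x 0 = x₀ := by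
  have hRpos : 0 < R := by
    by_contra hcon
    push Not at hcon
    have : R * θ ^ d ≤ 0 := mul_nonpos_of_nonpos_of_nonneg hcon (by positivity)
    linarith [hR.1]
  let χ : ContDiffBump (0 : Fin d → ℝ) := ⟨R + 1, R + 2, by linarith, by linarith⟩
  let g : (Fin d → ℝ) → (Fin d → ℝ) := fun x => χ x • N.field k x
  have hsupp : HasCompactSupport g := χ.hasCompactSupport.smul_right
  have hcd : ContDiff ℝ 1 g := (χ.contDiff (n := 1)).smul (contDiff_field N k)
  obtain ⟨K, hK⟩ := hcd.lipschitzWith_of_hasCompactSupport hsupp one_ne_zero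
  obtain ⟨M, hM⟩ := hsupp.exists_bound_of_continuous hcd.continuous
  obtain ⟨α, hα0, hα⟩ := exists_global_solution (fun _ => g) K (Real.toNNReal M) (fun _ => hK)
    (fun _ => continuous_const) (fun _ x => (hM x).trans (Real.le_coe_toNNReal M)) x₀
  have hS : ∀ t, 0 ≤ t → α t - c ∈ N.stoich :=
    stays_in_class N hα (fun t _ => N.stoich.smul_mem _ (field_mem_stoich N k _))
      (by rw [hα0]; exact hx0S)
  have hg : ∀ y, InPoly θ ε R y → g y = N.field k y := by
    intro y hy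
    have : χ y = 1 := by
      apply χ.one_of_mem_closedBall
      rw [mem_closedBall_zero_iff, pi_norm_le_iff_of_nonneg (by positivity)]
      intro i
      have h1 := hy.lower_coord hθ0 hε0.le i
      have h2 := hy.upper_coord i
      rw [Real.norm_eq_abs, abs_of_nonneg (by linarith)]
      show y i ≤ R + 1
      linarith
    simp only [g, this, one_smul]
  have hin : ∀ t, 0 ≤ t → InPoly θ ε R (α t) := by
    intro t ht
    apply poly_barrier_static N k hWR hET hklo hk hθ0 hθ1 hsmall hcmin hctot α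
      (fun t => g (α t)) (a := 0) (b := t) _ _ _ hε0 hε1 hε hR _ _ t ⟨ht, le_rfl⟩
    · intro s hs
      exact ((hα s hs.1).continuousWithinAt).mono Set.Icc_subset_Ici_self
    · intro s hs
      exact (hα s hs.1).mono (Set.Ici_subset_Ici.mpr hs.1)
    · intro s hs
      exact hS s hs.1
    · intro s _ hs
      exact hg _ hs
    · rw [hα0]; exact hx0
  refine ⟨α, fun t ht => ⟨fun i => ?_, ?_⟩, hα0⟩
  · exact lt_of_lt_of_le hε0 ((hin t ht).lower_coord hθ0 hε0.le i)
  · rw [← hg _ (hin t ht)]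
    exact hα t ht

/-- Every positive solution in the class eventually enters the fixed polytope. -/
lemma eventually_inPoly {c : Fin d → ℝ} {cmin ctot : ℝ} (hcmin : ∀ i, cmin ≤ c i)
    (hctot : ∑ i, c i ≤ ctot) {ε2 R2 : ℝ} (hε0 : 0 < ε2) (hε1 : ε2 ≤ 1)
    (hε : ε2 * (1 + 1 / θ) ^ d ≤ θ ∧ ε2 * (1 + 1 / θ) ^ d < cmin)
    (hR : 1 ≤ R2 * θ ^ d ∧ ctot < R2) {x : ℝ → Fin d → ℝ} (hx : N.IsPosSolution k x)
    (hx0S : x 0 - c ∈ N.stoich) :
    ∃ T, ∀ t, T ≤ t → InPoly θ ε2 R2 (x t) := by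
  obtain ⟨ε0, R0, hε00, hε02, hR02, hin0⟩ := exists_levels (R2 := R2) hθ0 hε0 (hx 0 le_rfl).1
  have hder : ∀ t, 0 ≤ t → HasDerivWithinAt x (N.field k (x t)) (Set.Ici 0) t :=
    fun t ht => (hx t ht).2
  have hS : ∀ t, 0 ≤ t → x t - c ∈ N.stoich :=
    stays_in_class N hder (fun t _ => field_mem_stoich N k _) hx0S
  have hLd : 0 < (1 + 1 / θ) ^ d := by positivity
  have hθd : 0 < θ ^ d := by positivity
  set ς := klo / 2 * ε0 ^ N.size with hς
  have hςpos : 0 < ς := by positivity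
  set T := ((ε2 - ε0) * (1 + 1 / θ) ^ d + (R0 - R2) * d) / ς + 1 with hT
  have hA : 0 ≤ (ε2 - ε0) * (1 + 1 / θ) ^ d := mul_nonneg (by linarith) hLd.le
  have hB : 0 ≤ (R0 - R2) * d := mul_nonneg (by linarith) (Nat.cast_nonneg d)
  have hTpos : 0 < T := by positivity
  have hTς : (ε2 - ε0) * (1 + 1 / θ) ^ d + (R0 - R2) * d < ς * T := by
    rw [hT, mul_add, mul_div_cancel₀ _ hςpos.ne']
    linarith
  have hcontx : ∀ a b, 0 ≤ a → ContinuousOn x (Set.Icc a b) := by
    intro a b ha s hs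
    exact ((hder s (ha.trans hs.1)).continuousWithinAt).mono
      (fun r hr => ha.trans hr.1)
  have hderx : ∀ a b, 0 ≤ a → ∀ t ∈ Set.Ico a b,
      HasDerivWithinAt x (N.field k (x t)) (Set.Ici t) t := by
    intro a b ha t ht
    exact (hder t (ha.trans ht.1)).mono (Set.Ici_subset_Ici.mpr (ha.trans ht.1))
  -- phase one: shrink the polytope
  have phase1 := poly_barrier N k hWR hET hklo hk hθ0 hθ1 hsmall hcmin hctot x
    (fun t => N.field k (x t)) (a := 0) (b := T) (hcontx 0 T le_rfl) (hderx 0 T le_rfl)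
    (fun t ht => hS t ht.1)
    (εa := ε0) (r1 := (ε2 - ε0) / T) (Ra := R0) (r2 := (R0 - R2) / T) (e0 := ε0) hε00
    (hε02.trans hε1)
    (by
      intro t ht
      have h1 : 0 ≤ (ε2 - ε0) / T * (t - 0) :=
        mul_nonneg (div_nonneg (by linarith) hTpos.le) (by linarith [ht.1])
      have h2 : (ε2 - ε0) / T * (t - 0) ≤ ε2 - ε0 := by
        rw [div_mul_eq_mul_div, div_le_iff₀ hTpos]
        apply mul_le_mul_of_nonneg_left _ (by linarith)
        linarith [ht.2]
      have h3 : (ε0 + (ε2 - ε0) / T * (t - 0)) * (1 + 1 / θ) ^ d ≤ ε2 * (1 + 1 / θ) ^ d :=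
        mul_le_mul_of_nonneg_right (by linarith) hLd.le
      exact ⟨by linarith, h3.trans hε.1, lt_of_le_of_lt h3 hε.2⟩)
    (by
      intro t ht
      have h2 : (R0 - R2) / T * (t - 0) ≤ R0 - R2 := by
        rw [div_mul_eq_mul_div, div_le_iff₀ hTpos]
        apply mul_le_mul_of_nonneg_left _ (by linarith)
        linarith [ht.2]
      have h3 : R2 * θ ^ d ≤ (R0 - (R0 - R2) / T * (t - 0)) * θ ^ d :=
        mul_le_mul_of_nonneg_right (by linarith) hθd.le
      exact ⟨hR.1.trans h3, by linarith [hR.2]⟩)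
    (by
      rw [div_mul_eq_mul_div, div_lt_iff₀ hTpos, ← hς]
      linarith)
    (div_nonneg (by linarith) hTpos.le)
    (by
      rw [div_mul_eq_mul_div, div_lt_iff₀ hTpos, ← hς]
      linarith)
    (div_nonneg (by linarith) hTpos.le)
    (fun _ _ _ => rfl) hin0
  have hinT : InPoly θ ε2 R2 (x T) := by
    have := phase1 T ⟨hTpos.le, le_rfl⟩
    have e1 : ε0 + (ε2 - ε0) / T * (T - 0) = ε2 := by
      field_simp
      ring
    have e2 : R0 - (R0 - R2) / T * (T - 0) = R2 := by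
      field_simp
      ring
    rwa [e1, e2] at this
  -- phase two: stay in the final polytope
  refine ⟨T, fun t ht => ?_⟩
  exact poly_barrier_static N k hWR hET hklo hk hθ0 hθ1 hsmall hcmin hctot x
    (fun t => N.field k (x t)) (a := T) (b := t) (hcontx T t hTpos.le) (hderx T t hTpos.le)
    (fun s hs => hS s (hTpos.le.trans hs.1)) hε0 hε1 hε hR (fun _ _ _ => rfl) hinT t ⟨ht, le_rfl⟩

end

/-- **Permanence of exchange-type weakly reversible mass-action systems.** -/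
theorem permanent_of_exchangeType (N : Network d) (hWR : N.WeaklyReversible)
    (hET : N.ExchangeType) (k : (Fin d → ℕ) × (Fin d → ℕ) → ℝ)
    (hk : ∀ r ∈ N.reactions, 0 < k r) (c : Fin d → ℝ) (hc : ∀ i, 0 < c i) :
    N.PermanentOn k (N.posClass c) := by
  classical
  obtain ⟨klo, hklo, hklo'⟩ := exists_pos_lower_bound N.reactions k hk
  obtain ⟨cmin, hcmin0, hcmin'⟩ := exists_pos_lower_bound Finset.univ c (fun i _ => hc i)
  have hcmin : ∀ i, cmin ≤ c i := fun i => hcmin' i (Finset.mem_univ i)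
  set Ksum := ∑ r ∈ N.reactions, k r with hKsum
  have hKsum0 : 0 ≤ Ksum := Finset.sum_nonneg fun r hr => (hk r hr).le
  have hden : 0 < (N.size : ℝ) * Ksum + 1 := by positivity
  set θ := min 1 (klo / 2 / ((N.size : ℝ) * Ksum + 1)) with hθ
  have hθ0 : 0 < θ := by positivity
  have hθ1 : θ ≤ 1 := min_le_left _ _
  have hsmall : θ * (N.size : ℝ) * Ksum ≤ klo / 2 := by
    have h1 : θ ≤ klo / 2 / ((N.size : ℝ) * Ksum + 1) := min_le_right _ _
    rw [le_div_iff₀ hden] at h1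
    nlinarith
  have hΛ : 1 ≤ 1 + 1 / θ := by
    have : 0 ≤ 1 / θ := by positivity
    linarith
  have hLd : 0 < (1 + 1 / θ) ^ d := by positivity
  have hLd1 : 1 ≤ (1 + 1 / θ) ^ d := one_le_pow₀ hΛ
  have hθd : 0 < θ ^ d := by positivity
  set ε2 := min θ (cmin / 2) / (1 + 1 / θ) ^ d with hε2
  have hε20 : 0 < ε2 := by positivity
  have hε2L : ε2 * (1 + 1 / θ) ^ d = min θ (cmin / 2) := by
    rw [hε2]; field_simp
  have hε2a : ε2 * (1 + 1 / θ) ^ d ≤ θ := by rw [hε2L]; exact min_le_left _ _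
  have hε2b : ε2 * (1 + 1 / θ) ^ d < cmin := by
    rw [hε2L]
    exact lt_of_le_of_lt (min_le_right _ _) (by linarith)
  have hε21 : ε2 ≤ 1 := by nlinarith
  set ctot := ∑ i, c i with hctot
  set R2 := max (1 / θ ^ d) (ctot + 1) with hR2
  have hR2a : 1 ≤ R2 * θ ^ d := by
    have : 1 / θ ^ d ≤ R2 := le_max_left _ _
    rwa [div_le_iff₀ hθd] at this
  have hR2b : ctot < R2 := lt_of_lt_of_le (by linarith) (le_max_right _ _)
  constructor
  · -- global existence
    intro x₀ hx₀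
    obtain ⟨ε0, R0, hε00, hε02, hR02, hin0⟩ := exists_levels (R2 := R2) hθ0 hε20 hx₀.1
    have h3 : ε0 * (1 + 1 / θ) ^ d ≤ ε2 * (1 + 1 / θ) ^ d :=
      mul_le_mul_of_nonneg_right hε02 hLd.le
    have h4 : R2 * θ ^ d ≤ R0 * θ ^ d := mul_le_mul_of_nonneg_right hR02 hθd.le
    exact exists_posSolution N k hWR hET hklo hklo' hθ0 hθ1 hsmall hcmin le_rfl hε00
      (hε02.trans hε21) ⟨h3.trans hε2a, lt_of_le_of_lt h3 hε2b⟩
      ⟨hR2a.trans h4, lt_of_lt_of_le hR2b hR02⟩ hin0 hx₀.2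
  · -- the absorbing compact set
    refine ⟨{x | InPoly θ ε2 R2 x} ∩ {x | x - c ∈ N.stoich}, ?_, ?_, ?_⟩
    · apply IsCompact.of_isClosed_subset (isCompact_Icc (a := fun _ : Fin d => (0 : ℝ))
        (b := fun _ => R2))
      · apply (isClosed_inPoly θ ε2 R2).inter
        have : IsClosed (N.stoich : Set (Fin d → ℝ)) := Submodule.closed_of_finiteDimensional _
        exact this.preimage (continuous_id.sub continuous_const)
      · rintro x ⟨hx, -⟩
        exact ⟨fun i => hε20.le.trans (hx.lower_coord hθ0 hε20.le i), fun i => hx.upper_coord i⟩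
    · rintro x ⟨hx, hxS⟩
      exact ⟨fun i => lt_of_lt_of_le hε20 (hx.lower_coord hθ0 hε20.le i), hxS⟩
    · intro x hx hx0
      obtain ⟨T, hT⟩ := eventually_inPoly N k hWR hET hklo hklo' hθ0 hθ1 hsmall hcmin le_rfl
        hε20 hε21 ⟨hε2a, hε2b⟩ ⟨hR2a, hR2b⟩ hx hx0.2
      have hS : ∀ t, 0 ≤ t → x t - c ∈ N.stoich :=
        stays_in_class N (fun t ht => (hx t ht).2) (fun t _ => field_mem_stoich N k _) hx0.2
      refine ⟨max T 0, fun t ht => ⟨hT t ((le_max_left _ _).trans ht), hS t ((le_max_right _ _).trans ht)⟩⟩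

end Vale.Agent.P072
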