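import Mathlib

/-!
# Two-dimensional subspaces of `ℝ^d` through `2 × 2` minors
-/

namespace Vale.Agent.P072

open Finset

variable {d : ℕ}

/-- The `(i, j)` minor of two vectors. -/
def om (i j : Fin d) (u v : Fin d → ℝ) : ℝ := u i * v j - u j * v i

/-- The coordinates `i, j` separate the points of `S`. -/
def Inj2 (S : Submodule ℝ (Fin d → ℝ)) (i j : Fin d) : Prop :=
  ∀ u ∈ S, u i = 0 → u j = 0 → u = 0

/-- The vector representing `om i j z ·`. -/
def rho (i j : Fin d) (z : Fin d → ℝ) : Fin d → ℝ := fun k =>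
  (if k = j then z i else 0) - (if k = i then z j else 0)

lemma dot_rho (i j : Fin d) (z w : Fin d → ℝ) : w ⬝ᵥ rho i j z = om i j z w := by
  unfold dotProduct rho om
  simp only [mul_sub, Finset.sum_sub_distrib, mul_ite, mul_zero, Finset.sum_ite_eq',
    Finset.mem_univ, if_true]
  ring

lemma om_self (i j : Fin d) (z : Fin d → ℝ) : om i j z z = 0 := by unfold om; ring

lemma om_swap (i j : Fin d) (u v : Fin d → ℝ) : om i j u v = -om i j v u := by unfold om; ring

lemma om_sub_right (i j : Fin d) (u v w : Fin d → ℝ) :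
    om i j u (v - w) = om i j u v - om i j u w := by
  unfold om; simp only [Pi.sub_apply]; ring

lemma om_neg_right (i j : Fin d) (u v : Fin d → ℝ) : om i j u (-v) = -om i j u v := by
  unfold om; simp only [Pi.neg_apply]; ring

lemma abs_om_le {i j : Fin d} {u v : Fin d → ℝ} {A B : ℝ} (hu : ∀ k, |u k| ≤ A)
    (hv : ∀ k, |v k| ≤ B) : |om i j u v| ≤ 2 * A * B := by
  unfold om
  have hA : 0 ≤ A := (abs_nonneg _).trans (hu i)
  have h1 : |u i * v j| ≤ A * B := by
    rw [abs_mul]; exact mul_le_mul (hu i) (hv j) (abs_nonneg _) hA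
  have h2 : |u j * v i| ≤ A * B := by
    rw [abs_mul]; exact mul_le_mul (hu j) (hv i) (abs_nonneg _) hA
  calc |u i * v j - u j * v i| ≤ |u i * v j| + |u j * v i| := abs_sub _ _
    _ ≤ 2 * A * B := by linarith

lemma one_le_abs_om {i j : Fin d} {u v : Fin d → ℝ} (hu : ∀ k, ∃ n : ℤ, u k = n)
    (hv : ∀ k, ∃ n : ℤ, v k = n) (hne : om i j u v ≠ 0) : 1 ≤ |om i j u v| := by
  obtain ⟨a, ha⟩ := hu i
  obtain ⟨b, hb⟩ := hu j
  obtain ⟨a', ha'⟩ := hv i
  obtain ⟨b', hb'⟩ := hv j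
  have h : om i j u v = ((a * b' - b * a' : ℤ) : ℝ) := by
    unfold om; rw [ha, hb, ha', hb']; push_cast; ring
  rw [h] at hne ⊢
  have hne' : (a * b' - b * a' : ℤ) ≠ 0 := by
    intro h0; apply hne; rw [h0]; simp
  have := Int.one_le_abs hne'
  exact_mod_cast this

lemma plucker {S : Submodule ℝ (Fin d → ℝ)} {i j : Fin d} (h : Inj2 S i j) {u v w : Fin d → ℝ}
    (hu : u ∈ S) (hv : v ∈ S) (hw : w ∈ S) :
    om i j v w • u + om i j w u • v + om i j u v • w = 0 := by
  apply h _ (S.add_mem (S.add_mem (S.smul_mem _ hu) (S.smul_mem _ hv)) (S.smul_mem _ hw))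
  · simp only [om, Pi.add_apply, Pi.smul_apply, smul_eq_mul]; ring
  · simp only [om, Pi.add_apply, Pi.smul_apply, smul_eq_mul]; ring

/-- Coordinatewise form of `plucker`. -/
lemma plucker_apply {S : Submodule ℝ (Fin d → ℝ)} {i j : Fin d} (h : Inj2 S i j)
    {u v w : Fin d → ℝ} (hu : u ∈ S) (hv : v ∈ S) (hw : w ∈ S) (k : Fin d) :
    om i j v w * u k = om i j u w * v k + om i j v u * w k := by
  have := congrFun (plucker h hu hv hw) k
  simp only [Pi.add_apply, Pi.smul_apply, smul_eq_mul, Pi.zero_apply] at this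
  rw [om_swap i j u w, om_swap i j v u]
  linarith

lemma dot_plucker {S : Submodule ℝ (Fin d → ℝ)} {i j : Fin d} (h : Inj2 S i j)
    {u z0 z1 : Fin d → ℝ} (hu : u ∈ S) (h0 : z0 ∈ S) (h1 : z1 ∈ S) {p : Fin d → ℝ}
    (hp : z0 ⬝ᵥ p = 0) : (u ⬝ᵥ p) * om i j z0 z1 = (z1 ⬝ᵥ p) * om i j z0 u := by
  have := congrArg (fun v => v ⬝ᵥ p) (plucker h hu h0 h1)
  simp only [add_dotProduct, smul_dotProduct, smul_eq_mul, zero_dotProduct, hp, mul_zero,
    add_zero] at this
  rw [om_swap i j z0 u]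
  linarith

/-- A nonzero vector of `S` is not parallel to all generators. -/
lemma exists_nonparallel {S : Submodule ℝ (Fin d → ℝ)} {i j : Fin d} (h : Inj2 S i j)
    {v1 v2 : Fin d → ℝ} (h1 : v1 ∈ S) (h2 : v2 ∈ S) (hv : om i j v1 v2 ≠ 0)
    {G : Set (Fin d → ℝ)} (hG : S = Submodule.span ℝ G) {z0 : Fin d → ℝ} (hz : z0 ∈ S)
    (hz0 : z0 ≠ 0) : ∃ g ∈ G, om i j z0 g ≠ 0 := by
  by_contra hcon
  push Not at hcon
  let φ : (Fin d → ℝ) →ₗ[ℝ] ℝ :=
    z0 i • LinearMap.proj j - z0 j • LinearMap.proj i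
  have hφ : ∀ v, φ v = om i j z0 v := fun v => by simp [φ, om]
  have hle : S ≤ LinearMap.ker φ := by
    rw [hG, Submodule.span_le]
    intro g hg
    simp only [SetLike.mem_coe, LinearMap.mem_ker, hφ]
    exact hcon g hg
  have e1 : om i j z0 v1 = 0 := by rw [← hφ]; exact hle h1
  have e2 : om i j z0 v2 = 0 := by rw [← hφ]; exact hle h2
  have := plucker h hz h1 h2
  rw [om_swap i j v2 z0, e1, e2] at this
  simp only [neg_zero, zero_smul, add_zero] at this
  rcases smul_eq_zero.mp this with h0 | h0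
  · exact hv h0
  · exact hz0 h0

end Vale.Agent.P072
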