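import Vale.Agent.P072.Defs

/-!
# Monomials and the order lemmas
-/

namespace Vale.Agent.P072

open Finset

variable {d : ℕ}

lemma monomial_add (x : Fin d → ℝ) (y z : Fin d → ℕ) :
    monomial x (y + z) = monomial x y * monomial x z := by
  simp only [monomial, Pi.add_apply, pow_add, Finset.prod_mul_distrib]

lemma monomial_smul_single (x : Fin d → ℝ) (p : ℕ) (a : Fin d) :
    monomial x (p • Pi.single a 1) = x a ^ p := by
  unfold monomial
  rw [Finset.prod_eq_single a]
  · simp
  · intro b _ hb
    simp [Pi.single_eq_of_ne hb]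
  · intro h; exact absurd (Finset.mem_univ a) h

lemma monomial_pos {x : Fin d → ℝ} (hx : ∀ i, 0 < x i) (y : Fin d → ℕ) : 0 < monomial x y :=
  Finset.prod_pos fun i _ => pow_pos (hx i) _

lemma monomial_lower {x : Fin d → ℝ} {e0 : ℝ} (he0 : 0 < e0) (he1 : e0 ≤ 1)
    (hx : ∀ i, e0 ≤ x i) (y : Fin d → ℕ) {n : ℕ} (hn : ∑ i, y i ≤ n) :
    e0 ^ n ≤ monomial x y := by
  calc e0 ^ n ≤ e0 ^ (∑ i, y i) := pow_le_pow_of_le_one he0.le he1 hn
    _ = ∏ i, e0 ^ y i := (Finset.prod_pow_eq_pow_sum _ _ _).symm
    _ ≤ monomial x y := by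
        apply Finset.prod_le_prod
        · intro i _; positivity
        · intro i _; exact pow_le_pow_left₀ he0.le (hx i) _

/-- The number of molecules of species in `I` in the complex `y`. -/
def height (I : Finset (Fin d)) (y : Fin d → ℕ) : ℝ := ∑ i ∈ I, (y i : ℝ)

lemma height_add (I : Finset (Fin d)) (y z : Fin d → ℕ) :
    height I (y + z) = height I y + height I z := by
  simp [height, Finset.sum_add_distrib]

lemma height_smul_single (I : Finset (Fin d)) (p : ℕ) (a : Fin d) :
    height I (p • Pi.single a 1) = if a ∈ I then (p : ℝ) else 0 := by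
  unfold height
  split_ifs with ha
  · rw [Finset.sum_eq_single a]
    · simp
    · intro b _ hb
      simp [Pi.single_eq_of_ne hb]
    · intro h; exact absurd ha h
  · apply Finset.sum_eq_zero
    intro b hb
    have : b ≠ a := fun h => ha (h ▸ hb)
    simp [Pi.single_eq_of_ne this]

lemma height_nonneg (I : Finset (Fin d)) (y : Fin d → ℕ) : 0 ≤ height I y :=
  Finset.sum_nonneg fun _ _ => Nat.cast_nonneg _

lemma height_le_total (I : Finset (Fin d)) (y : Fin d → ℕ) :
    height I y ≤ ((∑ i, y i : ℕ) : ℝ) := by
  unfold height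
  push_cast
  exact Finset.sum_le_sum_of_subset_of_nonneg (Finset.subset_univ _) fun _ _ _ => Nat.cast_nonneg _

lemma height_gap (I : Finset (Fin d)) {y z : Fin d → ℕ} (h : height I y < height I z) :
    1 ≤ height I z - height I y := by
  unfold height at *
  have h1 : ((∑ i ∈ I, y i : ℕ) : ℝ) < ((∑ i ∈ I, z i : ℕ) : ℝ) := by push_cast; exact h
  have h2 : (∑ i ∈ I, y i : ℕ) + 1 ≤ (∑ i ∈ I, z i : ℕ) := by exact_mod_cast h1
  have h3 : ((∑ i ∈ I, y i : ℕ) : ℝ) + 1 ≤ ((∑ i ∈ I, z i : ℕ) : ℝ) := by exact_mod_cast h2
  push_cast at h3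
  linarith

/-- Normal form of the root-multiple relation between two complexes. -/
lemma rootMultiple_normal_form {y z : Fin d → ℕ}
    (h : IsRootMultiple (fun i => (z i : ℤ) - (y i : ℤ))) :
    ∃ (p : ℕ) (a b : Fin d), z = y + p • Pi.single a 1 ∨ y = z + p • Pi.single a 1 ∨
      z + p • Pi.single b 1 = y + p • Pi.single a 1 := by
  obtain ⟨n, a, b, h | h⟩ := h
  · obtain ⟨p, rfl | rfl⟩ := n.eq_nat_or_neg
    · refine ⟨p, a, b, Or.inl ?_⟩
      funext i
      have := congrFun h i
      simp only [Pi.smul_apply, Pi.add_apply, smul_eq_mul] at this ⊢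
      by_cases hi : i = a
      · subst hi; simp at this ⊢; omega
      · simp [Pi.single_eq_of_ne hi] at this ⊢; omega
    · refine ⟨p, a, b, Or.inr (Or.inl ?_)⟩
      funext i
      have := congrFun h i
      simp only [Pi.smul_apply, Pi.add_apply, smul_eq_mul] at this ⊢
      by_cases hi : i = a
      · subst hi; simp at this ⊢; omega
      · simp [Pi.single_eq_of_ne hi] at this ⊢; omega
  · obtain ⟨p, rfl | rfl⟩ := n.eq_nat_or_neg
    · refine ⟨p, a, b, Or.inr (Or.inr ?_)⟩
      funext i
      have := congrFun h i
      simp only [Pi.smul_apply, Pi.add_apply, Pi.sub_apply, smul_eq_mul] at this ⊢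
      by_cases hi : i = a <;> by_cases hj : i = b
      · subst hi; subst hj; simp at this ⊢; omega
      · subst hi; simp [Pi.single_eq_of_ne hj] at this ⊢; omega
      · subst hj; simp [Pi.single_eq_of_ne hi] at this ⊢; omega
      · simp [Pi.single_eq_of_ne hi, Pi.single_eq_of_ne hj] at this ⊢; omega
    · refine ⟨p, b, a, Or.inr (Or.inr ?_)⟩
      funext i
      have := congrFun h i
      simp only [Pi.smul_apply, Pi.add_apply, Pi.sub_apply, smul_eq_mul] at this ⊢
      by_cases hi : i = a <;> by_cases hj : i = b
      · subst hi; subst hj; simp at this ⊢; omega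
      · subst hi; simp [Pi.single_eq_of_ne hj] at this ⊢; omega
      · subst hj; simp [Pi.single_eq_of_ne hi] at this ⊢; omega
      · simp [Pi.single_eq_of_ne hi, Pi.single_eq_of_ne hj] at this ⊢; omega

/-- **Order lemma, lower version.** If the species in `I` are small compared with `1` and with
all species outside `I`, then among two complexes differing by a root multiple, the one with more
`I`-molecules has the much smaller monomial. -/
lemma order_lower {x : Fin d → ℝ} (hx : ∀ i, 0 < x i) {θ : ℝ} (hθ0 : 0 < θ) (hθ1 : θ ≤ 1)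
    (I : Finset (Fin d)) (h1 : ∀ i ∈ I, x i ≤ θ) (h2 : ∀ i ∈ I, ∀ j ∉ I, x i ≤ θ * x j)
    {y z : Fin d → ℕ} (hroot : IsRootMultiple (fun i => (z i : ℤ) - (y i : ℤ)))
    (hlt : height I z < height I y) : monomial x y ≤ θ * monomial x z := by
  have hpow : ∀ p : ℕ, 1 ≤ p → θ ^ p ≤ θ := fun p hp => by
    calc θ ^ p ≤ θ ^ 1 := pow_le_pow_of_le_one hθ0.le hθ1 hp
      _ = θ := pow_one θ
  obtain ⟨p, a, b, h | h | h⟩ := rootMultiple_normal_form hroot
  · exfalso
    rw [h, height_add, height_smul_single] at hlt
    split_ifs at hlt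
    · have : (0 : ℝ) ≤ p := Nat.cast_nonneg p
      linarith
    · linarith
  · rw [h, height_add, height_smul_single] at hlt
    split_ifs at hlt with ha
    · have hp : 1 ≤ p := by
        rcases Nat.eq_zero_or_pos p with rfl | hp
        · simp at hlt
        · exact hp
      rw [h, monomial_add, monomial_smul_single]
      have hz := monomial_pos hx z
      have : x a ^ p ≤ θ := (pow_le_pow_left₀ (hx a).le (h1 a ha) p).trans (hpow p hp)
      calc monomial x z * x a ^ p ≤ monomial x z * θ := mul_le_mul_of_nonneg_left this hz.le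
        _ = θ * monomial x z := mul_comm _ _
    · linarith
  · have hh := congrArg (height I) h
    rw [height_add, height_add, height_smul_single, height_smul_single] at hh
    have hm := congrArg (monomial x) h
    rw [monomial_add, monomial_add, monomial_smul_single, monomial_smul_single] at hm
    have hp0 : (0 : ℝ) ≤ p := Nat.cast_nonneg p
    by_cases ha : a ∈ I
    · exfalso
      rw [if_pos ha] at hh
      split_ifs at hh <;> linarith
    · rw [if_neg ha] at hh
      by_cases hb : b ∈ I
      · rw [if_pos hb] at hh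
        have hp : 1 ≤ p := by
          rcases Nat.eq_zero_or_pos p with rfl | hp
          · simp at hh; linarith
          · exact hp
        have hz := monomial_pos hx z
        have hxa : 0 < x a ^ p := pow_pos (hx a) p
        have h3 : x b ^ p ≤ θ * x a ^ p := by
          calc x b ^ p ≤ (θ * x a) ^ p := pow_le_pow_left₀ (hx b).le (h2 b hb a ha) p
            _ = θ ^ p * x a ^ p := mul_pow _ _ _
            _ ≤ θ * x a ^ p := mul_le_mul_of_nonneg_right (hpow p hp) hxa.le
        have h4 : monomial x y * x a ^ p ≤ (θ * monomial x z) * x a ^ p := by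
          rw [← hm]
          calc monomial x z * x b ^ p ≤ monomial x z * (θ * x a ^ p) :=
                mul_le_mul_of_nonneg_left h3 hz.le
            _ = (θ * monomial x z) * x a ^ p := by ring
        exact le_of_mul_le_mul_right h4 hxa
      · exfalso
        rw [if_neg hb] at hh
        linarith

/-- **Order lemma, upper version.** If the species in `I` are large compared with `1` and with
all species outside `I`, then among two complexes differing by a root multiple, the one with fewer
`I`-molecules has the much smaller monomial. -/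
lemma order_upper {x : Fin d → ℝ} (hx : ∀ i, 0 < x i) {θ : ℝ} (hθ0 : 0 < θ) (hθ1 : θ ≤ 1)
    (I : Finset (Fin d)) (h1 : ∀ i ∈ I, 1 ≤ θ * x i) (h2 : ∀ i ∈ I, ∀ j ∉ I, x j ≤ θ * x i)
    {y z : Fin d → ℕ} (hroot : IsRootMultiple (fun i => (z i : ℤ) - (y i : ℤ)))
    (hlt : height I y < height I z) : monomial x y ≤ θ * monomial x z := by
  have hpow : ∀ p : ℕ, 1 ≤ p → θ ^ p ≤ θ := fun p hp => by
    calc θ ^ p ≤ θ ^ 1 := pow_le_pow_of_le_one hθ0.le hθ1 hp
      _ = θ := pow_one θ
  obtain ⟨p, a, b, h | h | h⟩ := rootMultiple_normal_form hroot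
  · rw [h, height_add, height_smul_single] at hlt
    split_ifs at hlt with ha
    · have hp : 1 ≤ p := by
        rcases Nat.eq_zero_or_pos p with rfl | hp
        · simp at hlt
        · exact hp
      rw [h, monomial_add, monomial_smul_single]
      have hy := monomial_pos hx y
      have hxa : 0 < x a ^ p := pow_pos (hx a) p
      have h3 : 1 ≤ θ * x a ^ p := by
        calc (1 : ℝ) ≤ (θ * x a) ^ p := one_le_pow₀ (h1 a ha)
          _ = θ ^ p * x a ^ p := mul_pow _ _ _
          _ ≤ θ * x a ^ p := mul_le_mul_of_nonneg_right (hpow p hp) hxa.le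
      calc monomial x y = monomial x y * 1 := (mul_one _).symm
        _ ≤ monomial x y * (θ * x a ^ p) := mul_le_mul_of_nonneg_left h3 hy.le
        _ = θ * (monomial x y * x a ^ p) := by ring
    · linarith
  · exfalso
    rw [h, height_add, height_smul_single] at hlt
    split_ifs at hlt
    · have : (0 : ℝ) ≤ p := Nat.cast_nonneg p
      linarith
    · linarith
  · have hh := congrArg (height I) h
    rw [height_add, height_add, height_smul_single, height_smul_single] at hh
    have hm := congrArg (monomial x) h
    rw [monomial_add, monomial_add, monomial_smul_single, monomial_smul_single] at hm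
    have hp0 : (0 : ℝ) ≤ p := Nat.cast_nonneg p
    by_cases hb : b ∈ I
    · exfalso
      rw [if_pos hb] at hh
      split_ifs at hh <;> linarith
    · rw [if_neg hb] at hh
      by_cases ha : a ∈ I
      · rw [if_pos ha] at hh
        have hp : 1 ≤ p := by
          rcases Nat.eq_zero_or_pos p with rfl | hp
          · simp at hh; linarith
          · exact hp
        have hz := monomial_pos hx z
        have hxa : 0 < x a ^ p := pow_pos (hx a) p
        have h3 : x b ^ p ≤ θ * x a ^ p := by
          calc x b ^ p ≤ (θ * x a) ^ p := pow_le_pow_left₀ (hx b).le (h2 a ha b hb) p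
            _ = θ ^ p * x a ^ p := mul_pow _ _ _
            _ ≤ θ * x a ^ p := mul_le_mul_of_nonneg_right (hpow p hp) hxa.le
        have h4 : monomial x y * x a ^ p ≤ (θ * monomial x z) * x a ^ p := by
          rw [← hm]
          calc monomial x z * x b ^ p ≤ monomial x z * (θ * x a ^ p) :=
                mul_le_mul_of_nonneg_left h3 hz.le
            _ = (θ * monomial x z) * x a ^ p := by ring
        exact le_of_mul_le_mul_right h4 hxa
      · exfalso
        rw [if_neg ha] at hh
        linarith

end Vale.Agent.P072
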