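import Vale.Agent.P072.Order
import Vale.Agent.P072.Flux
import Vale.Agent.P072.Barrier

/-!
# The invariant polytopes
-/

namespace Vale.Agent.P072

open Finset

variable {d : ℕ}

/-- Total concentration of the species in `I`. -/
def F (I : Finset (Fin d)) (x : Fin d → ℝ) : ℝ := ∑ i ∈ I, x i

/-- The geometric sums `1 + θ + ... + θ^(n-1)`. -/
def Gam (θ : ℝ) (n : ℕ) : ℝ := ∑ m ∈ range n, θ ^ m

/-- The polytope `ε Λ^|I| ≤ ∑_{i ∈ I} x_i ≤ R Γ_|I|`, `Λ = 1 + 1/θ`. -/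
def InPoly (θ ε R : ℝ) (x : Fin d → ℝ) : Prop :=
  ∀ I : Finset (Fin d), I.Nonempty →
    ε * (1 + 1 / θ) ^ I.card ≤ F I x ∧ F I x ≤ R * Gam θ I.card

lemma Gam_succ (θ : ℝ) (n : ℕ) : Gam θ (n + 1) = Gam θ n + θ ^ n := by
  simp [Gam, Finset.sum_range_succ]

lemma Gam_zero (θ : ℝ) : Gam θ 0 = 0 := by simp [Gam]

lemma one_le_Gam {θ : ℝ} (hθ : 0 ≤ θ) {n : ℕ} (hn : 1 ≤ n) : 1 ≤ Gam θ n := by
  obtain ⟨m, rfl⟩ : ∃ m, n = m + 1 := ⟨n - 1, by omega⟩
  unfold Gam
  rw [Finset.sum_range_succ']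
  have : 0 ≤ ∑ k ∈ range m, θ ^ (k + 1) := Finset.sum_nonneg fun _ _ => by positivity
  simp only [pow_zero]
  linarith

lemma Gam_le {θ : ℝ} (hθ0 : 0 ≤ θ) (hθ1 : θ ≤ 1) (n : ℕ) : Gam θ n ≤ n := by
  unfold Gam
  calc ∑ m ∈ range n, θ ^ m ≤ ∑ m ∈ range n, (1 : ℝ) :=
        Finset.sum_le_sum fun m _ => pow_le_one₀ hθ0 hθ1
    _ = n := by simp

lemma F_singleton (i : Fin d) (x : Fin d → ℝ) : F {i} x = x i := by simp [F]

lemma InPoly.lower_coord {θ ε R : ℝ} {x : Fin d → ℝ} (hθ : 0 < θ) (hε : 0 ≤ ε)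
    (h : InPoly θ ε R x) (i : Fin d) : ε ≤ x i := by
  have := (h {i} (Finset.singleton_nonempty i)).1
  rw [F_singleton, Finset.card_singleton, pow_one] at this
  have h1 : 0 ≤ 1 / θ := by positivity
  nlinarith

lemma InPoly.upper_coord {θ ε R : ℝ} {x : Fin d → ℝ}
    (h : InPoly θ ε R x) (i : Fin d) : x i ≤ R := by
  have := (h {i} (Finset.singleton_nonempty i)).2
  rw [F_singleton, Finset.card_singleton] at this
  simpa [Gam] using this

/-- On a lower facet the species in `I` are small. -/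
lemma facet_lower {θ ε R : ℝ} {x : Fin d → ℝ} (hθ : 0 < θ) (hε : 0 < ε)
    (hεθ : ε * (1 + 1 / θ) ^ d ≤ θ) (h : InPoly θ ε R x) (I : Finset (Fin d))
    (hact : F I x = ε * (1 + 1 / θ) ^ I.card) :
    (∀ i ∈ I, x i ≤ θ) ∧ (∀ i ∈ I, ∀ j ∉ I, x i ≤ θ * x j) := by
  have hpos : ∀ i, 0 < x i := fun i => lt_of_lt_of_le hε (h.lower_coord hθ hε.le i)
  have hΛ : 1 ≤ 1 + 1 / θ := by
    have : 0 ≤ 1 / θ := by positivity
    linarith
  have hle : ∀ i ∈ I, x i ≤ F I x := fun i hi =>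
    Finset.single_le_sum (f := x) (fun j _ => (hpos j).le) hi
  have hcard : I.card ≤ d := by
    simpa using Finset.card_le_univ I
  refine ⟨fun i hi => ?_, fun i hi j hj => ?_⟩
  · calc x i ≤ F I x := hle i hi
      _ = ε * (1 + 1 / θ) ^ I.card := hact
      _ ≤ ε * (1 + 1 / θ) ^ d :=
          mul_le_mul_of_nonneg_left (pow_le_pow_right₀ hΛ hcard) hε.le
      _ ≤ θ := hεθ
  · have h1 := (h (insert j I) (Finset.insert_nonempty j I)).1
    rw [Finset.card_insert_of_notMem hj] at h1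
    have h2 : F (insert j I) x = x j + F I x := by
      unfold F; exact Finset.sum_insert hj
    rw [h2, hact, pow_succ] at h1
    have h3 : θ * (ε * ((1 + 1 / θ) ^ I.card * (1 + 1 / θ)))
        = θ * (ε * (1 + 1 / θ) ^ I.card) + ε * (1 + 1 / θ) ^ I.card := by
      field_simp
    have h4 : θ * (ε * ((1 + 1 / θ) ^ I.card * (1 + 1 / θ)))
        ≤ θ * (x j + ε * (1 + 1 / θ) ^ I.card) := mul_le_mul_of_nonneg_left h1 hθ.le
    have h5 := hle i hi
    rw [hact] at h5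
    nlinarith

/-- On an upper facet the species in `I` are large. -/
lemma facet_upper {θ ε R : ℝ} {x : Fin d → ℝ} (hθ : 0 < θ) (hθ1 : θ ≤ 1) (hR0 : 0 < R)
    (hR : 1 ≤ R * θ ^ d) (h : InPoly θ ε R x) (I : Finset (Fin d))
    (hact : F I x = R * Gam θ I.card) :
    (∀ i ∈ I, 1 ≤ θ * x i) ∧ (∀ i ∈ I, ∀ j ∉ I, x j ≤ θ * x i) := by
  have hcard : I.card ≤ d := by
    simpa using Finset.card_le_univ I
  -- lower bound for the coordinates in `I`
  have hlow : ∀ i ∈ I, R * θ ^ I.card ≤ θ * x i := by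
    intro i hi
    have h1 : x i + F (I.erase i) x = F I x := by
      unfold F; exact Finset.add_sum_erase I x hi
    have h2 : F (I.erase i) x ≤ R * Gam θ (I.erase i).card := by
      rcases (I.erase i).eq_empty_or_nonempty with he | hne
      · rw [he]; simp [F, Gam]
      · exact (h _ hne).2
    have h3 : (I.erase i).card + 1 = I.card := Finset.card_erase_add_one hi
    rw [hact, ← h3, Gam_succ] at h1
    rw [← h3, pow_succ]
    nlinarith
  refine ⟨fun i hi => ?_, fun i hi j hj => ?_⟩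
  · calc (1 : ℝ) ≤ R * θ ^ d := hR
      _ ≤ R * θ ^ I.card :=
          mul_le_mul_of_nonneg_left (pow_le_pow_of_le_one hθ.le hθ1 hcard) hR0.le
      _ ≤ θ * x i := hlow i hi
  · have h1 := (h (insert j I) (Finset.insert_nonempty j I)).2
    rw [Finset.card_insert_of_notMem hj, Gam_succ] at h1
    have h2 : F (insert j I) x = x j + F I x := by
      unfold F; exact Finset.sum_insert hj
    rw [h2, hact] at h1
    have := hlow i hi
    linarith

end Vale.Agent.P072
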