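import Vale.Agent.P072.Estimate

/-!
# Moving polytopes are barriers for the mass-action flow
-/

namespace Vale.Agent.P072

open Finset

variable {d : ℕ}

lemma continuousOn_F {x : ℝ → Fin d → ℝ} {s : Set ℝ} (hcont : ContinuousOn x s)
    (I : Finset (Fin d)) : ContinuousOn (fun t => F I (x t)) s := by
  unfold F
  apply continuousOn_finsetSum
  intro i _
  exact (continuous_apply i).comp_continuousOn hcont

lemma hasDerivWithinAt_F {x : ℝ → Fin d → ℝ} {v : Fin d → ℝ} {s : Set ℝ} {t : ℝ}
    (h : HasDerivWithinAt x v s t) (I : Finset (Fin d)) :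
    HasDerivWithinAt (fun t => F I (x t)) (∑ i ∈ I, v i) s t := by
  unfold F
  apply HasDerivWithinAt.fun_sum
  intro i _
  exact hasDerivWithinAt_pi.mp h i

section
variable (N : Network d) (k : (Fin d → ℕ) × (Fin d → ℕ) → ℝ)
  (hWR : N.WeaklyReversible) (hET : N.ExchangeType) {klo θ : ℝ}
  (hklo : 0 < klo) (hk : ∀ r ∈ N.reactions, klo ≤ k r) (hθ0 : 0 < θ) (hθ1 : θ ≤ 1)
  (hsmall : θ * (N.size : ℝ) * (∑ r ∈ N.reactions, k r) ≤ klo / 2)

include hWR hET hklo hk hθ0 hθ1 hsmall

/-- A curve that follows the mass-action field while it is inside the (slowly shrinking) polytope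
never leaves it. -/
lemma poly_barrier {c : Fin d → ℝ} {cmin ctot : ℝ} (hcmin : ∀ i, cmin ≤ c i)
    (hctot : ∑ i, c i ≤ ctot)
    (x v : ℝ → Fin d → ℝ) {a b : ℝ}
    (hcont : ContinuousOn x (Set.Icc a b))
    (hder : ∀ t ∈ Set.Ico a b, HasDerivWithinAt x (v t) (Set.Ici t) t)
    (hS : ∀ t ∈ Set.Icc a b, x t - c ∈ N.stoich)
    {εa r1 Ra r2 e0 : ℝ} (he0 : 0 < e0) (he1 : e0 ≤ 1)
    (hε : ∀ t ∈ Set.Icc a b, e0 ≤ εa + r1 * (t - a) ∧
      (εa + r1 * (t - a)) * (1 + 1 / θ) ^ d ≤ θ ∧ (εa + r1 * (t - a)) * (1 + 1 / θ) ^ d < cmin)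
    (hR : ∀ t ∈ Set.Icc a b, 1 ≤ (Ra - r2 * (t - a)) * θ ^ d ∧ ctot < Ra - r2 * (t - a))
    (hr1 : r1 * (1 + 1 / θ) ^ d < klo / 2 * e0 ^ N.size) (hr1' : 0 ≤ r1)
    (hr2 : r2 * d < klo / 2 * e0 ^ N.size) (hr2' : 0 ≤ r2)
    (hv : ∀ t ∈ Set.Ico a b, InPoly θ (εa + r1 * (t - a)) (Ra - r2 * (t - a)) (x t) →
      v t = N.field k (x t))
    (h0 : InPoly θ εa Ra (x a)) :
    ∀ t ∈ Set.Icc a b, InPoly θ (εa + r1 * (t - a)) (Ra - r2 * (t - a)) (x t) := by
  classical
  have hΛ : 1 ≤ 1 + 1 / θ := by
    have : 0 ≤ 1 / θ := by positivity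
    linarith
  let u : ({I : Finset (Fin d) // I.Nonempty} × Bool) → ℝ → ℝ := fun α t =>
    bif α.2 then (εa + r1 * (t - a)) * (1 + 1 / θ) ^ α.1.1.card - F α.1.1 (x t)
    else F α.1.1 (x t) - (Ra - r2 * (t - a)) * Gam θ α.1.1.card
  have hpoly : ∀ t, (∀ β, u β t ≤ 0) →
      InPoly θ (εa + r1 * (t - a)) (Ra - r2 * (t - a)) (x t) := by
    intro t ht I hI
    have h1 := ht (⟨I, hI⟩, true)
    have h2 := ht (⟨I, hI⟩, false)
    simp only [u, cond_true, cond_false] at h1 h2
    exact ⟨by linarith, by linarith⟩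
  have main : ∀ t ∈ Set.Icc a b, ∀ α, u α t ≤ 0 := by
    apply barrier u
    · rintro ⟨⟨I, hI⟩, b⟩
      cases b
      · simp only [u, cond_false]
        apply (continuousOn_F hcont I).sub
        fun_prop
      · simp only [u, cond_true]
        apply ContinuousOn.sub _ (continuousOn_F hcont I)
        fun_prop
    · rintro ⟨⟨I, hI⟩, b⟩
      cases b
      · simp only [u, cond_false, sub_self, mul_zero, sub_zero]
        linarith [(h0 I hI).2]
      · simp only [u, cond_true, sub_self, mul_zero, add_zero]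
        linarith [(h0 I hI).1]
    · intro t ht hall α hα
      have htc : t ∈ Set.Icc a b := ⟨ht.1, ht.2.le⟩
      have hP := hpoly t hall
      have hvt := hv t ht hP
      obtain ⟨hε1, hε2, hε3⟩ := hε t htc
      obtain ⟨hR1, hR2⟩ := hR t htc
      have hεpos : 0 < εa + r1 * (t - a) := lt_of_lt_of_le he0 hε1
      have hcminpos : 0 < cmin := by
        have : 0 < (εa + r1 * (t - a)) * (1 + 1 / θ) ^ d := by positivity
        linarith
      have hcpos : ∀ i, 0 ≤ c i := fun i => hcminpos.le.trans (hcmin i)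
      have hRpos : 0 < Ra - r2 * (t - a) := by
        by_contra hcon
        push Not at hcon
        have : (Ra - r2 * (t - a)) * θ ^ d ≤ 0 :=
          mul_nonpos_of_nonpos_of_nonneg hcon (by positivity)
        linarith
      obtain ⟨⟨I, hI⟩, b⟩ := α
      have hcard : I.card ≤ d := by simpa using Finset.card_le_univ I
      have hdF := hasDerivWithinAt_F (hder t ht) I
      cases b
      · -- upper facet
        simp only [u, cond_false] at hα ⊢
        have hact : F I (x t) = (Ra - r2 * (t - a)) * Gam θ I.card := by linarith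
        have hnc : ∃ r ∈ N.reactions, height I r.1 ≠ height I r.2 := by
          by_contra hcon
          push Not at hcon
          have h1 := F_eq_of_conserved N I hcon (hS t htc)
          have h2 : F I c ≤ ∑ i, c i :=
            Finset.sum_le_sum_of_subset_of_nonneg (Finset.subset_univ _) fun i _ _ => hcpos i
          have h3 : 1 ≤ Gam θ I.card := one_le_Gam hθ0.le (Finset.card_pos.mpr hI)
          nlinarith
        have hest := dF_upper N k hWR hET hklo hk hθ0 hθ1 hsmall he0 he1 hε1 hRpos hR1 hP I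
          hact hnc
        refine ⟨(∑ i ∈ I, v t i) - (-(r2 * 1)) * Gam θ I.card, ?_, ?_⟩
        · apply hdF.sub
          apply HasDerivWithinAt.mul_const
          apply HasDerivWithinAt.const_sub
          apply HasDerivWithinAt.const_mul
          exact ((hasDerivWithinAt_id t _).sub_const a)
        · rw [hvt]
          have h4 : Gam θ I.card ≤ d :=
            (Gam_le hθ0.le hθ1 _).trans (by exact_mod_cast hcard)
          have h5 : r2 * Gam θ I.card ≤ r2 * d := mul_le_mul_of_nonneg_left h4 hr2'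
          linarith
      · -- lower facet
        simp only [u, cond_true] at hα ⊢
        have hact : F I (x t) = (εa + r1 * (t - a)) * (1 + 1 / θ) ^ I.card := by linarith
        have hpowle : (1 + 1 / θ) ^ I.card ≤ (1 + 1 / θ) ^ d := pow_le_pow_right₀ hΛ hcard
        have hnc : ∃ r ∈ N.reactions, height I r.1 ≠ height I r.2 := by
          by_contra hcon
          push Not at hcon
          have h1 := F_eq_of_conserved N I hcon (hS t htc)
          obtain ⟨i, hi⟩ := hI
          have h2 : c i ≤ F I c := Finset.single_le_sum (f := c) (fun j _ => hcpos j) hi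
          have h3 := hcmin i
          have h4 : (εa + r1 * (t - a)) * (1 + 1 / θ) ^ I.card
              ≤ (εa + r1 * (t - a)) * (1 + 1 / θ) ^ d :=
            mul_le_mul_of_nonneg_left hpowle hεpos.le
          linarith
        have hest := dF_lower N k hWR hET hklo hk hθ0 hθ1 hsmall he0 he1 hε1 hε2 hP I hact hnc
        refine ⟨(r1 * 1) * (1 + 1 / θ) ^ I.card - (∑ i ∈ I, v t i), ?_, ?_⟩
        · apply HasDerivWithinAt.sub _ hdF
          apply HasDerivWithinAt.mul_const
          apply HasDerivWithinAt.const_add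
          apply HasDerivWithinAt.const_mul
          exact ((hasDerivWithinAt_id t _).sub_const a)
        · rw [hvt]
          have h5 : r1 * (1 + 1 / θ) ^ I.card ≤ r1 * (1 + 1 / θ) ^ d :=
            mul_le_mul_of_nonneg_left hpowle hr1'
          linarith
  exact fun t ht => hpoly t (main t ht)

end

end Vale.Agent.P072
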