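import Vale.Agent.P072.Step
import Vale.Agent.P072.Core
import Vale.Agent.P072.Edge

/-!
# The trapping regions and the moving barrier lemma
-/

namespace Vale.Agent.P072

open Finset Set Filter Topology

namespace Setup

variable {d : ℕ} (A : Setup d)

/-- The trapping region with parameters `M` (outer level), `m` (drop at the vertices) and `δ`
(distance from the coordinate hyperplanes). -/
structure InRegion (ε M m δ : ℝ) (x : Fin d → ℝ) : Prop where
  U : InG A.Z M x
  W : ∀ i j w, A.Corner i j → A.IsVertex w i j → x i + x j < ε → InG A.Z (ent w - m) x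
  D : ∀ i, δ ≤ x i

lemma isClosed_InG {Mf : ℝ → ℝ} (hMf : Continuous Mf) :
    IsClosed {q : (Fin d → ℝ) × ℝ | InG A.Z (Mf q.2) q.1} := by
  simp only [InG, Set.ofPred_forall]
  refine isClosed_iInter fun z => isClosed_iInter fun _ => isClosed_iInter fun p =>
    isClosed_iInter fun _ => ?_
  exact isClosed_le ((continuous_dualT p).comp continuous_fst) (hMf.comp continuous_snd)

lemma isClosed_region (ε : ℝ) {Mf mf δf : ℝ → ℝ} (hMf : Continuous Mf) (hmf : Continuous mf)
    (hδf : Continuous δf) :
    IsClosed {q : (Fin d → ℝ) × ℝ | A.InRegion ε (Mf q.2) (mf q.2) (δf q.2) q.1} := by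
  have : {q : (Fin d → ℝ) × ℝ | A.InRegion ε (Mf q.2) (mf q.2) (δf q.2) q.1}
      = {q | InG A.Z (Mf q.2) q.1} ∩
        ({q | ∀ i j w, A.Corner i j → A.IsVertex w i j → q.1 i + q.1 j < ε →
          InG A.Z (ent w - mf q.2) q.1} ∩ {q | ∀ i, δf q.2 ≤ q.1 i}) := by
    ext q
    constructor
    · intro h; exact ⟨h.U, h.W, h.D⟩
    · rintro ⟨h1, h2, h3⟩; exact ⟨h1, h2, h3⟩
  rw [this]
  refine (A.isClosed_InG hMf).inter (IsClosed.inter ?_ ?_)
  · simp only [Set.ofPred_forall]
    refine isClosed_iInter fun i => isClosed_iInter fun j => isClosed_iInter fun w =>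
      isClosed_iInter fun _ => isClosed_iInter fun _ => ?_
    apply isClosed_imp
    · exact isOpen_lt (((continuous_apply i).comp continuous_fst).add
        ((continuous_apply j).comp continuous_fst)) continuous_const
    · exact A.isClosed_InG (continuous_const.sub hmf)
  · simp only [Set.ofPred_forall]
    refine isClosed_iInter fun i => ?_
    exact isClosed_le (hδf.comp continuous_snd) ((continuous_apply i).comp continuous_fst)

/-- The constants used by the barrier argument. -/
structure Consts (βlo βhi M1 ε cmin : ℝ) : Prop where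
  hβlo : 0 < βlo
  hβhi : 1 ≤ βhi
  hcore : ∀ b z0 z : Fin d → ℝ, (∀ i, 0 < b i) →
    b - A.c ∈ A.N.stoich → z0 ∈ A.Z → z ∈ A.Z → om A.i0 A.j0 z0 z ≠ 0 → z0 ⬝ᵥ lg b = 0 →
    |z ⬝ᵥ lg b| ≤ A.T2 → ∀ i, βlo ≤ b i ∧ b i ≤ βhi
  hM1 : d * (βhi * Real.log βhi) < M1
  hε : 0 < ε
  hεβ : ε ≤ βlo
  hdrop : ∀ (i j : Fin d) (w : Fin d → ℝ), A.Corner i j →
    A.IsVertex w i j → ∀ x : Fin d → ℝ, (∀ k, 0 < x k) → x - A.c ∈ A.N.stoich → x i + x j ≤ ε →
      ent x ≤ ent w - (x i + x j)
  hcmin : ∀ i, cmin ≤ A.c i

variable {A}
variable {βlo βhi M1 ε cmin : ℝ}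

/-- **Moving barrier lemma.** -/
lemma region_barrier (hC : A.Consts βlo βhi M1 ε cmin)
    (x v : ℝ → Fin d → ℝ) {a b : ℝ}
    (hcont : ContinuousOn x (Icc a b))
    (hder : ∀ t ∈ Ico a b, HasDerivWithinAt x (v t) (Ici t) t)
    (hS : ∀ t ∈ Icc a b, x t - A.c ∈ A.N.stoich)
    {Ma r1 ma r2 δa r3 e0 : ℝ} (he0 : 0 < e0) (he1 : e0 ≤ 1)
    (hM : ∀ t ∈ Icc a b, M1 ≤ Ma - r1 * (t - a))
    (hm : ∀ t ∈ Icc a b, ma + r2 * (t - a) ≤ ε / 2)
    (hδ : ∀ t ∈ Icc a b, e0 ≤ δa + r3 * (t - a) ∧ δa + r3 * (t - a) < cmin)
    (hr1 : r1 < A.κ * e0 ^ A.N.size) (hr2 : r2 < A.κ * e0 ^ A.N.size)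
    (hr3 : r3 < A.klo / 2 * e0 ^ A.N.size)
    (hedge : ∀ t ∈ Icc a b, ∀ y : Fin d → ℝ,
      A.InRegion ε (Ma - r1 * (t - a)) (ma + r2 * (t - a)) (δa + r3 * (t - a)) y →
      y - A.c ∈ A.N.stoich → ∀ i, y i = δa + r3 * (t - a) → A.Good i y)
    (hv : ∀ t ∈ Ico a b,
      A.InRegion ε (Ma - r1 * (t - a)) (ma + r2 * (t - a)) (δa + r3 * (t - a)) (x t) →
      v t = A.N.field A.k (x t))
    (h0 : A.InRegion ε Ma ma δa (x a)) :
    ∀ t ∈ Icc a b,
      A.InRegion ε (Ma - r1 * (t - a)) (ma + r2 * (t - a)) (δa + r3 * (t - a)) (x t) := by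
  set s : Set ℝ :=
    {t | A.InRegion ε (Ma - r1 * (t - a)) (ma + r2 * (t - a)) (δa + r3 * (t - a)) (x t)} with hs
  suffices Icc a b ⊆ s from fun t ht => this ht
  apply IsClosed.Icc_subset_of_forall_mem_nhdsWithin
  · have hcl := A.isClosed_region ε (Mf := fun t => Ma - r1 * (t - a))
      (mf := fun t => ma + r2 * (t - a)) (δf := fun t => δa + r3 * (t - a))
      (by fun_prop) (by fun_prop) (by fun_prop)
    have hc2 : ContinuousOn (fun t => (x t, t)) (Icc a b) := hcont.prodMk continuousOn_id
    have := hc2.preimage_isClosed_of_isClosed isClosed_Icc hcl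
    rw [inter_comm]
    exact this
  · show A.InRegion ε (Ma - r1 * (a - a)) (ma + r2 * (a - a)) (δa + r3 * (a - a)) (x a)
    simpa using h0
  · intro t ht
    have hreg : A.InRegion ε (Ma - r1 * (t - a)) (ma + r2 * (t - a)) (δa + r3 * (t - a)) (x t) :=
      ht.1
    have htI : t ∈ Ico a b := ht.2
    have htI' : t ∈ Icc a b := ⟨htI.1, htI.2.le⟩
    have hvt : v t = A.N.field A.k (x t) := hv t htI hreg
    have hdt : HasDerivWithinAt x (A.N.field A.k (x t)) (Ici t) t := hvt ▸ hder t htI
    have hlow : ∀ i, e0 ≤ x t i := fun i => (hδ t htI').1.trans (hreg.D i)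
    have hpos : ∀ i, 0 < x t i := fun i => lt_of_lt_of_le he0 (hlow i)
    have hSt := hS t htI'
    have hmono : 𝓝[>] t ≤ 𝓝[≥] t := nhdsWithin_mono _ Ioi_subset_Ici_self
    have hevI : ∀ᶠ r in 𝓝[>] t, r ∈ Icc a b :=
      mem_of_superset (Ioo_mem_nhdsGT htI.2) (fun r hr => ⟨htI.1.trans hr.1.le, hr.2.le⟩)
    have hevpos : ∀ᶠ r in 𝓝[>] t, ∀ i, 0 < x r i :=
      (eventually_pos_of_continuousWithinAt hdt.continuousWithinAt hpos).filter_mono hmono
    have hbS : ∀ z ∈ A.Z, ∀ σ : ℝ, x t + σ • z - A.c ∈ A.N.stoich := by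
      intro z hz σ
      have : x t + σ • z - A.c = (x t - A.c) + σ • z := by abel
      rw [this]
      exact A.N.stoich.add_mem hSt (A.N.stoich.smul_mem _ (A.hZS z hz))
    -- the outer polygon
    have hU : ∀ᶠ r in 𝓝[>] t, InG A.Z (Ma - r1 * (r - a)) (x r) := by
      apply InG_step A.hZne hdt hpos (Mf := fun r => Ma - r1 * (r - a)) (Mf' := -r1) _ hreg.U
      · intro z hz σ hbpos hb0 hent
        have hNC : ∀ z' ∈ A.Z, om A.i0 A.j0 z z' ≠ 0 → A.T2 < |z' ⬝ᵥ lg (x t + σ • z)| := by
          intro z' hz' hne
          by_contra hcon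
          push Not at hcon
          have hb := hC.hcore _ z z' hbpos (hbS z hz σ) hz hz' hne hb0 hcon
          have := ent_le_of_le hC.hβhi hbpos (fun i => (hb i).2)
          have h2 := hM t htI'
          have h3 := hC.hM1
          linarith
        have := A.main_decrease hz rfl hbpos hb0 hent hreg.U hNC he0 he1 hlow
        linarith
      · have : HasDerivAt (fun r : ℝ => Ma - r1 * (r - a)) (-r1) t := by
          have h1 : HasDerivAt (fun r : ℝ => r - a) 1 t := (hasDerivAt_id t).sub_const a
          have h2 := (h1.const_mul r1).const_sub Ma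
          simpa using h2
        exact this.hasDerivWithinAt
    -- the vertices
    have hW : ∀ᶠ r in 𝓝[>] t, ∀ i j w, A.Corner i j → A.IsVertex w i j → x r i + x r j < ε →
        InG A.Z (ent w - (ma + r2 * (r - a))) (x r) := by
      rw [eventually_all]; intro i
      rw [eventually_all]; intro j
      by_cases hcor : A.Corner i j
      swap
      · exact Eventually.of_forall fun r w h => absurd h hcor
      by_cases hex : ∃ w, A.IsVertex w i j
      swap
      · exact Eventually.of_forall fun r w _ hw => absurd ⟨w, hw⟩ hex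
      obtain ⟨w0, hw0⟩ := hex
      suffices hsuff : ∀ᶠ r in 𝓝[>] t, x r i + x r j < ε →
          InG A.Z (ent w0 - (ma + r2 * (r - a))) (x r) by
        filter_upwards [hsuff] with r hr w _ hw
        rw [hw.unique hw0]; exact hr
      rcases lt_or_ge (ε / 2) (x t i + x t j) with hbig | hsmall
      · have hcν : ContinuousWithinAt (fun r => x r i + x r j) (Ici t) t :=
          ((continuous_apply i).continuousAt.comp_continuousWithinAt hdt.continuousWithinAt).add
            ((continuous_apply j).continuousAt.comp_continuousWithinAt hdt.continuousWithinAt)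
        have hev : ∀ᶠ r in 𝓝[>] t, ε / 2 < x r i + x r j :=
          (hcν.eventually (Ioi_mem_nhds hbig)).filter_mono hmono
        filter_upwards [hev, hevI, hevpos] with r h1 h2 h3 h4
        apply InG_of_ent_le (fun k => (h3 k).le)
        have := hC.hdrop i j w0 hcor hw0 (x r) h3 (hS r h2) h4.le
        have := hm r h2
        linarith
      · have hε := hC.hε
        have hG : InG A.Z (ent w0 - (ma + r2 * (t - a))) (x t) :=
          hreg.W i j w0 hcor hw0 (by linarith)
        have hstep := InG_step A.hZne hdt hpos (Mf := fun r => ent w0 - (ma + r2 * (r - a)))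
          (Mf' := -r2) ?_ hG ?_
        · filter_upwards [hstep] with r hr _
          exact hr
        · have : HasDerivAt (fun r : ℝ => ent w0 - (ma + r2 * (r - a))) (-r2) t := by
            have h1 : HasDerivAt (fun r : ℝ => r - a) 1 t := (hasDerivAt_id t).sub_const a
            have h2 := ((h1.const_mul r2).const_add ma).const_sub (ent w0)
            simpa using h2
          exact this.hasDerivWithinAt
        · intro z hz σ hbpos hb0 hent
          set bb := x t + σ • z with hbb
          -- the touching point is close to the vertex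
          have hνb : bb i + bb j < ε := by
            by_contra hcon
            push Not at hcon
            set ν0 := x t i + x t j with hν0
            set ν1 := bb i + bb j with hν1
            have hden : 0 < ν1 - ν0 := by linarith
            set l := (3 * ε / 4 - ν0) / (ν1 - ν0) with hl
            have hl0 : 0 < l := div_pos (by linarith) hden
            have hl1 : l ≤ 1 := by rw [hl, div_le_one hden]; linarith
            set y' := x t + (l * σ) • z with hy'
            have hy'k : ∀ k, y' k = (1 - l) * x t k + l * bb k := by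
              intro k
              simp only [hy', hbb, Pi.add_apply, Pi.smul_apply, smul_eq_mul]; ring
            have hy'pos : ∀ k, 0 < y' k := by
              intro k
              rw [hy'k]
              have h1 : 0 ≤ (1 - l) * x t k := mul_nonneg (by linarith) (hpos k).le
              have h2 : 0 < l * bb k := mul_pos hl0 (hbpos k)
              linarith
            have hy'ν : y' i + y' j = 3 * ε / 4 := by
              rw [hy'k, hy'k]
              have : (1 - l) * x t i + l * bb i + ((1 - l) * x t j + l * bb j)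
                  = ν0 + l * (ν1 - ν0) := by rw [hν0, hν1]; ring
              rw [this, hl, div_mul_cancel₀ _ hden.ne']; ring
            have h1 := hC.hdrop i j w0 hcor hw0 y' hy'pos (hbS z hz _) (by rw [hy'ν]; linarith)
            have h2 : dualT (lg bb) y' ≤ ent y' := dualT_le_ent (fun k => (hy'pos k).le) _
            have h3 : dualT (lg bb) y' = ent bb := by
              rw [hy', dualT_add_smul hb0, dualT_lg_fibre hbpos hb0]
            have h4 := hm t htI'
            rw [hy'ν] at h1
            linarith
          have hbi : bb i < ε := by linarith [hbpos j]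
          have hNC : ∀ z' ∈ A.Z, om A.i0 A.j0 z z' ≠ 0 → A.T2 < |z' ⬝ᵥ lg bb| := by
            intro z' hz' hne
            by_contra hcon
            push Not at hcon
            have hb := hC.hcore _ z z' hbpos (hbS z hz σ) hz hz' hne hb0 hcon
            have := (hb i).1
            have := hC.hεβ
            linarith
          have := A.main_decrease hz rfl hbpos hb0 hent hG hNC he0 he1 hlow
          linarith
    -- the coordinate hyperplanes
    have hD : ∀ᶠ r in 𝓝[>] t, ∀ i, δa + r3 * (r - a) ≤ x r i := by
      rw [eventually_all]; intro i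
      have hxi : HasDerivWithinAt (fun r => x r i) (A.N.field A.k (x t) i) (Ici t) t :=
        (hasDerivWithinAt_pi.mp hdt) i
      have hδd : HasDerivWithinAt (fun r : ℝ => δa + r3 * (r - a)) r3 (Ici t) t := by
        have h1 : HasDerivAt (fun r : ℝ => r - a) 1 t := (hasDerivAt_id t).sub_const a
        have h2 := (h1.const_mul r3).const_add δa
        simpa using h2.hasDerivWithinAt
      have hu : HasDerivWithinAt (fun r => δa + r3 * (r - a) - x r i)
          (r3 - A.N.field A.k (x t) i) (Ici t) t := hδd.sub hxi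
      rcases (hreg.D i).lt_or_eq with hlt | heq
      · have : ∀ᶠ r in 𝓝[≥] t, δa + r3 * (r - a) - x r i < 0 :=
          hu.continuousWithinAt.eventually (Iio_mem_nhds (by linarith))
        exact (this.filter_mono hmono).mono fun r hr => by linarith
      · by_cases hnc : ∃ r ∈ A.N.reactions, r.1 i ≠ r.2 i
        · have hgood := hedge t htI' (x t) hreg hSt i heq.symm
          have hf := A.field_lower he0 he1 hlow hgood hnc
          have := eventually_lt_of_hasDerivWithinAt_neg hu (by linarith)
          refine this.mono fun r hr => ?_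
          rw [heq, sub_self] at hr
          linarith
        · push Not at hnc
          have := A.coord_conserved hnc hSt
          have h2 := (hδ t htI').2
          have h3 := hC.hcmin i
          linarith
    filter_upwards [hU, hW, hD] with r h1 h2 h3
    exact ⟨h1, h2, h3⟩

end Setup

end Vale.Agent.P072
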