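import Vale.Agent.P072.Main
import Vale.Agent.P072.Compare
import Vale.Agent.P072.Minor

/-!
# The standing data for the two-dimensional argument, and the main decrease lemma
-/

namespace Vale.Agent.P072

open Finset

variable {d : ℕ}

/-- A complex as a real vector. -/
def toR (y : Fin d → ℕ) : Fin d → ℝ := fun i => (y i : ℝ)

lemma monomial_eq_exp {x : Fin d → ℝ} (hx : ∀ i, 0 < x i) (y : Fin d → ℕ) :
    monomial x y = Real.exp (toR y ⬝ᵥ lg x) := by
  unfold monomial dotProduct toR lg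
  rw [Real.exp_sum]
  apply Finset.prod_congr rfl
  intro i _
  rw [mul_comm, Real.exp_mul, Real.exp_log (hx i), Real.rpow_natCast]

/-- All the fixed data. -/
structure Setup (d : ℕ) where
  N : Network d
  k : (Fin d → ℕ) × (Fin d → ℕ) → ℝ
  hWR : N.WeaklyReversible
  klo : ℝ
  hklo : 0 < klo
  hk : ∀ r ∈ N.reactions, klo ≤ k r
  Z : Finset (Fin d → ℝ)
  Zs : ℝ
  hZs : 1 ≤ Zs
  hZS : ∀ z ∈ Z, z ∈ N.stoich
  hZne : ∀ z ∈ Z, z ≠ 0
  hZint : ∀ z ∈ Z, ∀ i, ∃ n : ℤ, z i = n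
  hZbd : ∀ z ∈ Z, ∀ i, |z i| ≤ Zs
  hZreach : ∀ y y', Relation.ReflTransGen (fun a b => (a, b) ∈ N.reactions) y y' → y ≠ y' →
    toR y' - toR y ∈ Z
  hZneg : ∀ z ∈ Z, -z ∈ Z
  i0 : Fin d
  j0 : Fin d
  hinj : Inj2 N.stoich i0 j0
  v1 : Fin d → ℝ
  v2 : Fin d → ℝ
  hv1 : v1 ∈ N.stoich
  hv2 : v2 ∈ N.stoich
  hv : om i0 j0 v1 v2 ≠ 0
  θ : ℝ
  hθ0 : 0 < θ
  hθ1 : θ < 1
  hsmall : θ * (2 * Zs * Zs) * (∑ r ∈ N.reactions, k r) ≤ klo / 2
  c : Fin d → ℝ
  hc : ∀ i, 0 < c i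

namespace Setup

variable (A : Setup d)

/-- The threshold `T = log (1/θ)`. -/
noncomputable def T : ℝ := -Real.log A.θ

lemma T_pos : 0 < A.T := by
  unfold T
  have := Real.log_neg A.hθ0 A.hθ1
  linarith

lemma exp_neg_T : Real.exp (-A.T) = A.θ := by
  unfold T; rw [neg_neg, Real.exp_log A.hθ0]

/-- The enlarged threshold. -/
noncomputable def T2 : ℝ := A.T + d * (A.Zs * Real.exp A.T)

lemma T2_pos : 0 < A.T2 := by
  unfold T2
  have := A.T_pos
  have := A.hZs
  positivity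

/-- The rate constant. -/
noncomputable def κ : ℝ := A.T2 / (2 * A.Zs * A.Zs) * (A.klo / 2)

lemma κ_pos : 0 < A.κ := by
  unfold κ
  have := A.T2_pos
  have := A.hZs
  have := A.hklo
  positivity

lemma hZint' {z : Fin d → ℝ} (hz : z ∈ A.Z) (i : Fin d) : z i = 0 ∨ 1 ≤ |z i| := by
  obtain ⟨n, hn⟩ := A.hZint z hz i
  by_cases h0 : n = 0
  · left; rw [hn, h0]; simp
  · right
    rw [hn]
    have := Int.one_le_abs h0
    exact_mod_cast this

lemma reactionVector_mem {r : (Fin d → ℕ) × (Fin d → ℕ)} (hr : r ∈ A.N.reactions) :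
    reactionVector r ∈ A.Z :=
  A.hZreach r.1 r.2 (Relation.ReflTransGen.single (by simpa using hr)) (A.N.ne r hr)

lemma om_field (i j : Fin d) (z : Fin d → ℝ) (x : Fin d → ℝ) :
    om i j z (A.N.field A.k x)
      = ∑ r ∈ A.N.reactions, A.k r * monomial x r.1 * om i j z (reactionVector r) := by
  unfold om Network.field
  simp only [Finset.sum_apply, Pi.smul_apply, smul_eq_mul, Finset.mul_sum]
  rw [← Finset.sum_sub_distrib]
  apply Finset.sum_congr rfl
  intro r _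
  ring

/-- Ratio of monomials. -/
lemma monomial_le_of_dot {x : Fin d → ℝ} (hx : ∀ i, 0 < x i) {y y' : Fin d → ℕ}
    (h : A.T ≤ (toR y' - toR y) ⬝ᵥ lg x) : monomial x y ≤ A.θ * monomial x y' := by
  rw [monomial_eq_exp hx, monomial_eq_exp hx, ← A.exp_neg_T, ← Real.exp_add]
  apply Real.exp_le_exp.mpr
  rw [sub_dotProduct] at h
  linarith

/-- **Main decrease lemma.** -/
lemma main_decrease {x b z0 : Fin d → ℝ} {σ M e0 : ℝ}
    (hz0 : z0 ∈ A.Z) (hb : b = x + σ • z0) (hbpos : ∀ i, 0 < b i) (hb0 : z0 ⬝ᵥ lg b = 0)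
    (hM : ent b = M) (hG : InG A.Z M x)
    (hNC : ∀ z ∈ A.Z, om A.i0 A.j0 z0 z ≠ 0 → A.T2 < |z ⬝ᵥ lg b|)
    (he0 : 0 < e0) (he1 : e0 ≤ 1) (hx : ∀ i, e0 ≤ x i) :
    lg b ⬝ᵥ A.N.field A.k x ≤ -(A.κ * e0 ^ A.N.size) := by
  classical
  have hxpos : ∀ i, 0 < x i := fun i => lt_of_lt_of_le he0 (hx i)
  have hMx : dualT (lg b) x = M := by
    rw [← dualT_add_smul hb0 x σ, ← hb, dualT_lg_self hbpos, hM]
  have hG' : InG A.Z (dualT (lg b) x) x := by rw [hMx]; exact hG
  have hz0S := A.hZS z0 hz0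
  obtain ⟨_, ⟨r1, hr1, rfl⟩, hD⟩ := exists_nonparallel A.hinj A.hv1 A.hv2 A.hv
    (G := reactionVector '' (A.N.reactions : Set ((Fin d → ℕ) × (Fin d → ℕ)))) rfl hz0S
    (A.hZne z0 hz0)
  have hr1' : r1 ∈ A.N.reactions := hr1
  set z1 := reactionVector r1 with hz1
  have hz1Z : z1 ∈ A.Z := A.reactionVector_mem hr1'
  set D := om A.i0 A.j0 z0 z1 with hDdef
  set a := z1 ⬝ᵥ lg b with ha
  have haT : A.T2 < |a| := hNC z1 hz1Z hD
  set t := a / D with ht
  have hlin : ∀ u ∈ A.N.stoich, u ⬝ᵥ lg b = t * om A.i0 A.j0 z0 u := by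
    intro u hu
    have := dot_plucker A.hinj hu hz0S (A.hZS z1 hz1Z) hb0
    rw [ht]; field_simp; linarith
  have hZs0 : 0 < A.Zs := lt_of_lt_of_le one_pos A.hZs
  have hDle : |D| ≤ 2 * A.Zs * A.Zs := abs_om_le (A.hZbd z0 hz0) (A.hZbd z1 hz1Z)
  have hDpos : 0 < |D| := abs_pos.mpr hD
  have htabs : A.T2 / (2 * A.Zs * A.Zs) ≤ |t| := by
    rw [ht, abs_div]
    calc A.T2 / (2 * A.Zs * A.Zs) ≤ |a| / (2 * A.Zs * A.Zs) := by gcongr
      _ ≤ |a| / |D| := div_le_div_of_nonneg_left (abs_nonneg _) hDpos hDle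
  have htne : t ≠ 0 := by
    intro h0
    rw [h0, abs_zero] at htabs
    have : 0 < A.T2 / (2 * A.Zs * A.Zs) := div_pos A.T2_pos (by positivity)
    linarith
  obtain ⟨ς, hς1, hςt⟩ : ∃ ς : ℝ, ς * ς = 1 ∧ t = ς * |t| := by
    rcases lt_or_gt_of_ne htne with hneg | hpos
    · exact ⟨-1, by norm_num, by rw [abs_of_neg hneg]; ring⟩
    · exact ⟨1, by norm_num, by rw [abs_of_pos hpos]; ring⟩
  have hςabs : |ς| = 1 := by
    have : |ς| * |ς| = 1 := by rw [← abs_mul, hς1, abs_one]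
    nlinarith [abs_nonneg ς]
  let h : (Fin d → ℕ) → ℝ := fun y => -(ς * om A.i0 A.j0 z0 (toR y))
  have hdiff : ∀ y y' : Fin d → ℕ,
      h y' - h y = -(ς * om A.i0 A.j0 z0 (toR y' - toR y)) := by
    intro y y'
    simp only [h, om_sub_right]; ring
  have hrv : ∀ r : (Fin d → ℕ) × (Fin d → ℕ), toR r.2 - toR r.1 = reactionVector r := fun r => rfl
  have key : A.klo / 2 * e0 ^ A.N.size
      ≤ ∑ r ∈ A.N.reactions, A.k r * monomial x r.1 * (h r.2 - h r.1) := by
    apply flux_lower_bound A.N.reactions A.k (monomial x) h A.hWR A.hklo A.hk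
      (fun v => (monomial_pos hxpos v).le) A.hθ0.le (by positivity : 0 ≤ 2 * A.Zs * A.Zs)
    · intro r hr hlt
      have hrZ := A.reactionVector_mem hr
      rw [hdiff, hrv]
      have hpos : 0 < -(ς * om A.i0 A.j0 z0 (reactionVector r)) := by
        rw [← hrv, ← hdiff]; linarith
      have hne : om A.i0 A.j0 z0 (reactionVector r) ≠ 0 := by
        intro h0; rw [h0] at hpos; simp at hpos
      have h1 := one_le_abs_om (A.hZint z0 hz0) (A.hZint _ hrZ) hne
      have h2 : |-(ς * om A.i0 A.j0 z0 (reactionVector r))|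
          = |om A.i0 A.j0 z0 (reactionVector r)| := by
        rw [abs_neg, abs_mul, hςabs, one_mul]
      rw [abs_of_pos hpos] at h2
      rw [h2]; exact h1
    · intro r hr
      have hrZ := A.reactionVector_mem hr
      have h1 : h r.1 - h r.2 = ς * om A.i0 A.j0 z0 (reactionVector r) := by
        have := hdiff r.1 r.2
        rw [hrv] at this
        linarith
      rw [h1]
      calc ς * om A.i0 A.j0 z0 (reactionVector r)
          ≤ |ς * om A.i0 A.j0 z0 (reactionVector r)| := le_abs_self _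
        _ = |om A.i0 A.j0 z0 (reactionVector r)| := by rw [abs_mul, hςabs, one_mul]
        _ ≤ 2 * A.Zs * A.Zs := abs_om_le (A.hZbd z0 hz0) (A.hZbd _ hrZ)
    · intro y y' hreach hlt
      have hne : y ≠ y' := by
        intro h0; rw [h0] at hlt; exact lt_irrefl _ hlt
      have hzZ := A.hZreach y y' hreach hne
      set z := toR y' - toR y with hz
      have h1 : 0 < ς * om A.i0 A.j0 z0 z := by
        have := hdiff y y'
        linarith
      have hB : z ⬝ᵥ lg b = |t| * (ς * om A.i0 A.j0 z0 z) := by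
        rw [hlin z (A.hZS z hzZ)]
        conv_lhs => rw [hςt]
        ring
      have htpos : 0 < |t| := abs_pos.mpr htne
      have hBpos : 0 < z ⬝ᵥ lg b := by rw [hB]; positivity
      have hne' : om A.i0 A.j0 z0 z ≠ 0 := by
        intro h0; rw [h0] at h1; simp at h1
      have hBT := hNC z hzZ hne'
      have hgap : A.T < |z ⬝ᵥ lg x| := by
        by_contra hcon
        push Not at hcon
        have := gap_lemma hxpos hG' hzZ (A.hZint' hzZ) (A.hZbd z hzZ) A.T_pos.le hcon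
        unfold T2 at hBT
        linarith
      have hsign := sign_lemma hxpos hG' hzZ
      have hApos : 0 ≤ z ⬝ᵥ lg x := by
        by_contra hcon
        push Not at hcon
        have : (z ⬝ᵥ lg x) * (z ⬝ᵥ lg b) < 0 := mul_neg_of_neg_of_pos hcon hBpos
        linarith
      rw [abs_of_nonneg hApos] at hgap
      exact A.monomial_le_of_dot hxpos hgap.le
    · exact A.hsmall
    · refine ⟨r1, hr1', fun h0 => ?_⟩
      have := hdiff r1.1 r1.2
      rw [hrv, h0, sub_self] at this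
      have h2 : ς * D = 0 := by linarith
      rcases mul_eq_zero.mp h2 with h3 | h3
      · rw [h3] at hς1; simp at hς1
      · exact hD h3
    · intro r hr
      exact monomial_lower he0 he1 hx r.1 ((Nat.le_add_right _ _).trans (A.N.total_le_size hr))
  have hsum : ∑ r ∈ A.N.reactions, A.k r * monomial x r.1 * (h r.2 - h r.1)
      = -(ς * om A.i0 A.j0 z0 (A.N.field A.k x)) := by
    rw [A.om_field, Finset.mul_sum, ← Finset.sum_neg_distrib]
    apply Finset.sum_congr rfl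
    intro r _
    rw [hdiff, hrv]; ring
  have hfin : lg b ⬝ᵥ A.N.field A.k x
      = -(|t| * ∑ r ∈ A.N.reactions, A.k r * monomial x r.1 * (h r.2 - h r.1)) := by
    rw [dotProduct_comm, hlin _ (field_mem_stoich A.N A.k x), hsum]
    conv_lhs => rw [hςt]
    ring
  rw [hfin]
  have hpos : 0 ≤ A.klo / 2 * e0 ^ A.N.size := by
    have := A.hklo
    positivity
  have : A.κ * e0 ^ A.N.size
      ≤ |t| * ∑ r ∈ A.N.reactions, A.k r * monomial x r.1 * (h r.2 - h r.1) := by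
    unfold κ
    calc A.T2 / (2 * A.Zs * A.Zs) * (A.klo / 2) * e0 ^ A.N.size
        = A.T2 / (2 * A.Zs * A.Zs) * (A.klo / 2 * e0 ^ A.N.size) := by ring
      _ ≤ |t| * (A.klo / 2 * e0 ^ A.N.size) := mul_le_mul_of_nonneg_right htabs hpos
      _ ≤ _ := mul_le_mul_of_nonneg_left key (abs_nonneg _)
  linarith

end Setup

end Vale.Agent.P072
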