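import Vale.Agent.P072.Compare
import Vale.Agent.P072.Barrier
import Vale.Agent.P072.Sub.Fibre

/-!
# One infinitesimal step for the polygon constraint
-/

namespace Vale.Agent.P072

open Finset Set Filter Topology

variable {d : ℕ}

/-- The fibre minimiser in vector form. -/
lemma exists_fibre_min' (x z : Fin d → ℝ) (hx : ∀ i, 0 < x i) (hz : z ≠ 0) :
    ∃ σ : ℝ, (∀ i, 0 < (x + σ • z) i) ∧ z ⬝ᵥ lg (x + σ • z) = 0 := by
  obtain ⟨σ, h1, h2⟩ := exists_fibre_min x z hx hz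
  exact ⟨σ, fun i => by simpa using h1 i, by simpa [dotProduct, lg] using h2⟩

lemma dualT_lg_fibre {x z : Fin d → ℝ} {σ : ℝ} (hb : ∀ i, 0 < (x + σ • z) i)
    (h0 : z ⬝ᵥ lg (x + σ • z) = 0) : dualT (lg (x + σ • z)) x = ent (x + σ • z) := by
  rw [← dualT_add_smul h0 x σ, dualT_lg_self hb]

lemma eventually_pos_of_continuousWithinAt {y : ℝ → Fin d → ℝ} {s : Set ℝ} {t0 : ℝ}
    (hc : ContinuousWithinAt y s t0) (hpos : ∀ i, 0 < y t0 i) :
    ∀ᶠ t in 𝓝[s] t0, ∀ i, 0 < y t i := by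
  rw [eventually_all]
  intro i
  have : ContinuousWithinAt (fun t => y t i) s t0 :=
    (continuous_apply i).continuousAt.comp_continuousWithinAt hc
  exact this.eventually (Ioi_mem_nhds (hpos i))

/-- If `x t0` lies in the polygon of level `Mf t0` and on every active edge the entropy of the
translated curve decreases faster than the level, the curve stays in the moving polygon for a
short time. -/
lemma InG_step {Z : Finset (Fin d → ℝ)} (hZne : ∀ z ∈ Z, z ≠ 0) {x : ℝ → Fin d → ℝ}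
    {v0 : Fin d → ℝ} {t0 : ℝ} (hder : HasDerivWithinAt x v0 (Ici t0) t0)
    (hpos : ∀ i, 0 < x t0 i) {Mf : ℝ → ℝ} {Mf' : ℝ}
    (hMf : HasDerivWithinAt Mf Mf' (Ici t0) t0) (hG : InG Z (Mf t0) (x t0))
    (hact : ∀ z ∈ Z, ∀ σ : ℝ, (∀ i, 0 < (x t0 + σ • z) i) → z ⬝ᵥ lg (x t0 + σ • z) = 0 →
      ent (x t0 + σ • z) = Mf t0 → lg (x t0 + σ • z) ⬝ᵥ v0 < Mf') :
    ∀ᶠ t in 𝓝[>] t0, InG Z (Mf t) (x t) := by
  unfold InG
  rw [Finset.eventually_all]
  intro z hz
  obtain ⟨σ, hbpos, hb0⟩ := exists_fibre_min' (x t0) z hpos (hZne z hz)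
  have hy : HasDerivWithinAt (fun t => x t + σ • z) v0 (Ici t0) t0 := hder.add_const _
  have hu : HasDerivWithinAt (fun t => ent (x t + σ • z) - Mf t)
      (lg (x t0 + σ • z) ⬝ᵥ v0 - Mf') (Ici t0) t0 :=
    (hasDerivWithinAt_ent hy hbpos).sub hMf
  have hle : ent (x t0 + σ • z) ≤ Mf t0 := by
    rw [← dualT_lg_fibre hbpos hb0]
    exact hG z hz _ hb0
  have hmono : 𝓝[>] t0 ≤ 𝓝[≥] t0 := nhdsWithin_mono _ Ioi_subset_Ici_self
  have hev1 : ∀ᶠ t in 𝓝[>] t0, ∀ i, 0 < (x t + σ • z) i :=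
    (eventually_pos_of_continuousWithinAt hy.continuousWithinAt hbpos).filter_mono hmono
  have hev2 : ∀ᶠ t in 𝓝[>] t0, ent (x t + σ • z) - Mf t ≤ 0 := by
    rcases hle.lt_or_eq with hlt | heq
    · have : ∀ᶠ t in 𝓝[≥] t0, ent (x t + σ • z) - Mf t < 0 :=
        hu.continuousWithinAt.eventually (Iio_mem_nhds (by linarith))
      exact (this.filter_mono hmono).mono fun t ht => ht.le
    · have hneg : lg (x t0 + σ • z) ⬝ᵥ v0 - Mf' < 0 := by
        have := hact z hz σ hbpos hb0 heq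
        linarith
      have := eventually_lt_of_hasDerivWithinAt_neg hu hneg
      refine this.mono fun t ht => ?_
      rw [heq, sub_self] at ht
      exact ht.le
  filter_upwards [hev1, hev2] with t h1 h2 p hp
  rw [← dualT_add_smul hp (x t) σ]
  have := dualT_le_ent (fun i => (h1 i).le) p
  linarith

end Vale.Agent.P072
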