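import Vale.Agent.P072.Setup
import Vale.Agent.P072.Sub.Plane

/-!
# Construction of the standing data from a network with two-dimensional stoichiometric subspace
-/

namespace Vale.Agent.P072

open Finset

variable {d : ℕ}

/-- Along a directed path the difference of the end complexes lies in the stoichiometric
subspace. -/
lemma reach_sub_mem_stoich (N : Network d) {y y' : Fin d → ℕ}
    (h : Relation.ReflTransGen (fun a b => (a, b) ∈ N.reactions) y y') :
    toR y' - toR y ∈ N.stoich := by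
  induction h with
  | refl => simp
  | @tail b c _ hbc ih =>
    have h1 : toR c - toR b ∈ N.stoich :=
      Submodule.subset_span ⟨(b, c), hbc, rfl⟩
    have : toR c - toR y = (toR c - toR b) + (toR b - toR y) := by abel
    rw [this]
    exact N.stoich.add_mem h1 ih

lemma toR_injective : Function.Injective (toR : (Fin d → ℕ) → Fin d → ℝ) := by
  intro a b hab
  funext i
  have := congrFun hab i
  exact Nat.cast_injective this

/-- The set of complexes of the network. -/
def Network.complexes (N : Network d) : Finset (Fin d → ℕ) :=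
  N.reactions.image Prod.fst ∪ N.reactions.image Prod.snd

lemma Network.coord_le_size (N : Network d) {y : Fin d → ℕ} (hy : y ∈ N.complexes) (i : Fin d) :
    y i ≤ N.size := by
  unfold Network.complexes at hy
  rw [Finset.mem_union, Finset.mem_image, Finset.mem_image] at hy
  rcases hy with ⟨r, hr, rfl⟩ | ⟨r, hr, rfl⟩
  · have h1 := N.total_le_size hr
    have h2 : r.1 i ≤ ∑ i, r.1 i :=
      Finset.single_le_sum (f := r.1) (fun _ _ => Nat.zero_le _) (Finset.mem_univ i)
    omega
  · have h1 := N.total_le_size hr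
    have h2 : r.2 i ≤ ∑ i, r.2 i :=
      Finset.single_le_sum (f := r.2) (fun _ _ => Nat.zero_le _) (Finset.mem_univ i)
    omega

lemma reach_mem_complexes (N : Network d) {y y' : Fin d → ℕ}
    (h : Relation.ReflTransGen (fun a b => (a, b) ∈ N.reactions) y y') (hne : y ≠ y') :
    y ∈ N.complexes ∧ y' ∈ N.complexes := by
  constructor
  · rcases Relation.ReflTransGen.cases_head h with h0 | ⟨c, hc, _⟩
    · exact absurd h0 hne
    · unfold Network.complexes
      exact Finset.mem_union_left _ (Finset.mem_image.mpr ⟨(y, c), hc, rfl⟩)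
  · rcases Relation.ReflTransGen.cases_tail h with h0 | ⟨c, _, hc⟩
    · exact absurd h0.symm hne
    · unfold Network.complexes
      exact Finset.mem_union_right _ (Finset.mem_image.mpr ⟨(c, y'), hc, rfl⟩)

theorem exists_setup (N : Network d) (hWR : N.WeaklyReversible)
    (h2 : Module.finrank ℝ N.stoich = 2) (k : (Fin d → ℕ) × (Fin d → ℕ) → ℝ)
    (hk : ∀ r ∈ N.reactions, 0 < k r) (c : Fin d → ℝ) (hc : ∀ i, 0 < c i) :
    ∃ A : Setup d, A.N = N ∧ A.k = k ∧ A.c = c := by
  classical
  obtain ⟨klo, hklo, hklo'⟩ := exists_pos_lower_bound N.reactions k hk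
  obtain ⟨i0, j0, hinj, v1, hv1, v2, hv2, hv⟩ := exists_inj_pair N.stoich h2
  set Reach := Relation.ReflTransGen (fun a b => (a, b) ∈ N.reactions) with hReach
  set Z : Finset (Fin d → ℝ) :=
    ((N.complexes ×ˢ N.complexes).filter
      (fun q => q.1 ≠ q.2 ∧ (Reach q.1 q.2 ∨ Reach q.2 q.1))).image
      (fun q => toR q.2 - toR q.1) with hZ
  have hZmem : ∀ z, z ∈ Z ↔ ∃ y y', y ∈ N.complexes ∧ y' ∈ N.complexes ∧ y ≠ y' ∧
      (Reach y y' ∨ Reach y' y) ∧ toR y' - toR y = z := by
    intro z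
    rw [hZ, Finset.mem_image]
    constructor
    · rintro ⟨q, hq, rfl⟩
      rw [Finset.mem_filter, Finset.mem_product] at hq
      exact ⟨q.1, q.2, hq.1.1, hq.1.2, hq.2.1, hq.2.2, rfl⟩
    · rintro ⟨y, y', hy, hy', hne, hr, rfl⟩
      refine ⟨(y, y'), ?_, rfl⟩
      rw [Finset.mem_filter, Finset.mem_product]
      exact ⟨⟨hy, hy'⟩, hne, hr⟩
  set Zs : ℝ := (N.size : ℝ) + 1 with hZs
  have hZs1 : 1 ≤ Zs := by
    have : (0 : ℝ) ≤ (N.size : ℝ) := Nat.cast_nonneg _
    linarith
  set Ksum := ∑ r ∈ N.reactions, k r with hKsum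
  have hKsum0 : 0 ≤ Ksum := Finset.sum_nonneg fun r hr => (hk r hr).le
  have hZZ : 0 ≤ 2 * Zs * Zs := by positivity
  have hden : 0 < (2 * Zs * Zs) * Ksum + 1 := by positivity
  set θ := min (1 / 2) (klo / 2 / ((2 * Zs * Zs) * Ksum + 1)) with hθ
  have hθ0 : 0 < θ := by positivity
  have hθ1 : θ < 1 := lt_of_le_of_lt (min_le_left _ _) (by norm_num)
  have hsmall : θ * (2 * Zs * Zs) * Ksum ≤ klo / 2 := by
    have h1 : θ ≤ klo / 2 / ((2 * Zs * Zs) * Ksum + 1) := min_le_right _ _
    rw [le_div_iff₀ hden] at h1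
    nlinarith
  refine ⟨{
    N := N
    k := k
    hWR := hWR
    klo := klo
    hklo := hklo
    hk := hklo'
    Z := Z
    Zs := Zs
    hZs := hZs1
    hZS := ?_
    hZne := ?_
    hZint := ?_
    hZbd := ?_
    hZreach := ?_
    hZneg := ?_
    i0 := i0
    j0 := j0
    hinj := hinj
    v1 := v1
    v2 := v2
    hv1 := hv1
    hv2 := hv2
    hv := hv
    θ := θ
    hθ0 := hθ0
    hθ1 := hθ1
    hsmall := hsmall
    c := c
    hc := hc }, rfl, rfl, rfl⟩
  · intro z hz
    obtain ⟨y, y', _, _, _, hr, rfl⟩ := (hZmem z).mp hz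
    rcases hr with hr | hr
    · exact reach_sub_mem_stoich N hr
    · have := N.stoich.neg_mem (reach_sub_mem_stoich N hr)
      rwa [neg_sub] at this
  · intro z hz
    obtain ⟨y, y', _, _, hne, _, rfl⟩ := (hZmem z).mp hz
    intro h0
    exact hne (toR_injective (sub_eq_zero.mp h0)).symm
  · intro z hz i
    obtain ⟨y, y', _, _, _, _, rfl⟩ := (hZmem z).mp hz
    refine ⟨(y' i : ℤ) - (y i : ℤ), ?_⟩
    simp [toR]
  · intro z hz i
    obtain ⟨y, y', hy, hy', _, _, rfl⟩ := (hZmem z).mp hz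
    have h1 : (y i : ℝ) ≤ (N.size : ℝ) := by exact_mod_cast N.coord_le_size hy i
    have h2 : (y' i : ℝ) ≤ (N.size : ℝ) := by exact_mod_cast N.coord_le_size hy' i
    have h3 : (0 : ℝ) ≤ (y i : ℝ) := Nat.cast_nonneg _
    have h4 : (0 : ℝ) ≤ (y' i : ℝ) := Nat.cast_nonneg _
    show |(y' i : ℝ) - (y i : ℝ)| ≤ Zs
    rw [abs_le]
    constructor <;> linarith
  · intro y y' hr hne
    obtain ⟨hy, hy'⟩ := reach_mem_complexes N hr hne
    exact (hZmem _).mpr ⟨y, y', hy, hy', hne, Or.inl hr, rfl⟩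
  · intro z hz
    obtain ⟨y, y', hy, hy', hne, hr, rfl⟩ := (hZmem z).mp hz
    exact (hZmem _).mpr ⟨y', y, hy', hy, hne.symm, hr.symm, by rw [neg_sub]⟩

end Vale.Agent.P072
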