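import Vale.Agent.P072.Region
import Vale.Agent.P072.ZBuild

/-!
# Permanence of weakly reversible mass-action systems with two-dimensional stoichiometric subspace
-/

namespace Vale.Agent.P072

open Finset Set Filter Topology
open scoped NNReal

namespace Setup

variable {d : ℕ} (A : Setup d)

/-- Existence of the constants. -/
lemma exists_consts : ∃ βlo βhi M1 ε cmin : ℝ, 0 < cmin ∧ A.Consts βlo βhi M1 ε cmin := by
  obtain ⟨βlo, βhi, h1, h2, h3⟩ := A.core_bounds
  obtain ⟨ε0, hε0, hdrop⟩ := A.exists_uniform_drop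
  obtain ⟨cmin, hcmin0, hcmin⟩ := exists_pos_lower_bound Finset.univ A.c (fun i _ => A.hc i)
  refine ⟨βlo, βhi, d * (βhi * Real.log βhi) + 1, min ε0 βlo, cmin, hcmin0, ?_⟩
  exact
    { hβlo := h1
      hβhi := h2
      hcore := h3
      hM1 := by linarith
      hε := lt_min hε0 h1
      hεβ := min_le_right _ _
      hdrop := fun i j w hc hw x hx hxS hle =>
        hdrop i j w hc hw x hx hxS (hle.trans (min_le_left _ _))
      hcmin := fun i => hcmin i (Finset.mem_univ i) }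

/-- Near the coordinate hyperplanes, inside the region, the field points inwards. -/
lemma edge_hyp {ε : ℝ} (hε : 0 < ε) (M : ℝ) {m : ℝ} (hm : 0 < m) :
    ∃ δ0 : ℝ, 0 < δ0 ∧ ∀ (M' m' δ' : ℝ) (y : Fin d → ℝ), M' ≤ M → m ≤ m' → 0 < δ' →
      A.InRegion ε M' m' δ' y → y - A.c ∈ A.N.stoich → ∀ i, y i ≤ δ0 → A.Good i y := by
  obtain ⟨B, hB⟩ := A.InG_bounded M
  obtain ⟨ε', hε', hfar⟩ := A.exists_uniform_far hε hm
  obtain ⟨δ0, hδ0, hgood⟩ := A.good_of_small B ε' hε'
  refine ⟨δ0, hδ0, fun M' m' δ' y hM hm' hδ' hreg hyS i hi => ?_⟩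
  have hpos : ∀ k, 0 < y k := fun k => lt_of_lt_of_le hδ' (hreg.D k)
  apply hgood y hpos (fun k => (le_abs_self _).trans (hB y hyS (hreg.U.mono hM) k)) _ i hi
  intro i' j' hcor
  apply hfar i' j' hcor y hpos hyS
  intro w hw hlt
  exact (hreg.W i' j' w hcor hw hlt).mono (by linarith)

variable {A}
variable {βlo βhi M1 ε cmin : ℝ}

/-- The barrier lemma for true solutions. -/
lemma run (hC : A.Consts βlo βhi M1 ε cmin) {x : ℝ → Fin d → ℝ}
    (hx : A.N.IsPosSolution A.k x) (hx0 : x 0 - A.c ∈ A.N.stoich) {a b : ℝ} (ha : 0 ≤ a)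
    {Ma r1 ma r2 δa r3 e0 : ℝ} (he0 : 0 < e0) (he1 : e0 ≤ 1)
    (hM : ∀ t ∈ Icc a b, M1 ≤ Ma - r1 * (t - a))
    (hm : ∀ t ∈ Icc a b, ma + r2 * (t - a) ≤ ε / 2)
    (hδ : ∀ t ∈ Icc a b, e0 ≤ δa + r3 * (t - a) ∧ δa + r3 * (t - a) < cmin)
    (hr1 : r1 < A.κ * e0 ^ A.N.size) (hr2 : r2 < A.κ * e0 ^ A.N.size)
    (hr3 : r3 < A.klo / 2 * e0 ^ A.N.size)
    (hedge : ∀ t ∈ Icc a b, ∀ y : Fin d → ℝ,
      A.InRegion ε (Ma - r1 * (t - a)) (ma + r2 * (t - a)) (δa + r3 * (t - a)) y →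
      y - A.c ∈ A.N.stoich → ∀ i, y i = δa + r3 * (t - a) → A.Good i y)
    (h0 : A.InRegion ε Ma ma δa (x a)) :
    ∀ t ∈ Icc a b,
      A.InRegion ε (Ma - r1 * (t - a)) (ma + r2 * (t - a)) (δa + r3 * (t - a)) (x t) := by
  have hder : ∀ t, 0 ≤ t → HasDerivWithinAt x (A.N.field A.k (x t)) (Ici 0) t :=
    fun t ht => (hx t ht).2
  have hS : ∀ t, 0 ≤ t → x t - A.c ∈ A.N.stoich :=
    stays_in_class A.N hder (fun t _ => field_mem_stoich A.N A.k _) hx0
  apply region_barrier hC x (fun t => A.N.field A.k (x t)) _ _ _ he0 he1 hM hm hδ hr1 hr2 hr3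
    hedge (fun _ _ _ => rfl) h0
  · intro s hs
    exact ((hder s (ha.trans hs.1)).continuousWithinAt).mono (fun r hr => ha.trans hr.1)
  · intro t ht
    exact (hder t (ha.trans ht.1)).mono (Ici_subset_Ici.mpr (ha.trans ht.1))
  · intro t ht
    exact hS t (ha.trans ht.1)

/-- Every point of the class lies in a region with admissible parameters. -/
lemma exists_levels (hC : A.Consts βlo βhi M1 ε cmin) (hcmin : 0 < cmin) {δfin : ℝ}
    (hδfin : 0 < δfin) {x₀ : Fin d → ℝ} (hx₀ : ∀ i, 0 < x₀ i) (hx₀S : x₀ - A.c ∈ A.N.stoich) :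
    ∃ M0 m0 δ0 : ℝ, M1 ≤ M0 ∧ 0 < m0 ∧ m0 ≤ ε / 2 ∧ 0 < δ0 ∧ δ0 ≤ 1 ∧ δ0 < cmin ∧ δ0 ≤ δfin ∧
      A.InRegion ε M0 m0 δ0 x₀ ∧
      (∀ (M' m' δ' : ℝ) (y : Fin d → ℝ), M' ≤ M0 → m0 ≤ m' → 0 < δ' →
        A.InRegion ε M' m' δ' y → y - A.c ∈ A.N.stoich → ∀ i, y i ≤ δ0 → A.Good i y) := by
  obtain ⟨xmin, hxmin, hmin⟩ := exists_pos_lower_bound Finset.univ x₀ (fun i _ => hx₀ i)
  have hε := hC.hε
  set M0 := max M1 (ent x₀) with hM0
  set m0 := min (ε / 2) xmin with hm0
  have hm0pos : 0 < m0 := lt_min (by linarith) hxmin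
  obtain ⟨δe, hδe, hedge⟩ := A.edge_hyp hε M0 hm0pos
  refine ⟨M0, m0, min (min δe xmin) (min (min (cmin / 2) 1) δfin), le_max_left _ _, hm0pos,
    min_le_left _ _, by positivity, ?_, ?_, ?_, ?_, ?_⟩
  · exact (min_le_right _ _).trans ((min_le_left _ _).trans (min_le_right _ _))
  · have : min (min δe xmin) (min (min (cmin / 2) 1) δfin) ≤ cmin / 2 :=
      (min_le_right _ _).trans ((min_le_left _ _).trans (min_le_left _ _))
    linarith
  · exact (min_le_right _ _).trans (min_le_right _ _)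
  · refine ⟨InG_of_ent_le (fun i => (hx₀ i).le) (le_max_right _ _), ?_, ?_⟩
    · intro i j w hcor hw hlt
      apply InG_of_ent_le (fun i => (hx₀ i).le)
      have h1 := hC.hdrop i j w hcor hw x₀ hx₀ hx₀S hlt.le
      have h2 : m0 ≤ xmin := min_le_right _ _
      have h3 := hmin i (Finset.mem_univ i)
      have h4 := hx₀ j
      linarith
    · intro i
      exact ((min_le_left _ _).trans (min_le_right _ _)).trans (hmin i (Finset.mem_univ i))
  · intro M' m' δ' y h1 h2 h3 h4 h5 i hi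
    exact hedge M' m' δ' y h1 h2 h3 h4 h5 i (hi.trans ((min_le_left _ _).trans (min_le_left _ _)))

/-- Global existence of positive solutions. -/
lemma exists_posSolution (hC : A.Consts βlo βhi M1 ε cmin) (hcmin : 0 < cmin)
    {x₀ : Fin d → ℝ} (hx₀ : ∀ i, 0 < x₀ i) (hx₀S : x₀ - A.c ∈ A.N.stoich) :
    ∃ x : ℝ → Fin d → ℝ, A.N.IsPosSolution A.k x ∧ x 0 = x₀ := by
  obtain ⟨M0, m0, δ0, hM0, hm0, hm0', hδ0, hδ01, hδ0c, -, hreg0, hedge⟩ :=
    exists_levels hC hcmin one_pos hx₀ hx₀S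
  obtain ⟨B, hB⟩ := A.InG_bounded M0
  have hB0 : 0 ≤ B ∨ IsEmpty (Fin d) := by
    by_cases hd : Nonempty (Fin d)
    · obtain ⟨i⟩ := hd
      left
      exact (abs_nonneg _).trans (hB x₀ hx₀S hreg0.U i)
    · right; exact not_nonempty_iff.mp hd
  set R := max B 0 with hR
  have hR0 : 0 ≤ R := le_max_right _ _
  let χ : ContDiffBump (0 : Fin d → ℝ) := ⟨R + 1, R + 2, by linarith, by linarith⟩
  let g : (Fin d → ℝ) → (Fin d → ℝ) := fun x => χ x • A.N.field A.k x
  have hsupp : HasCompactSupport g := χ.hasCompactSupport.smul_right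
  have hcd : ContDiff ℝ 1 g := (χ.contDiff (n := 1)).smul (contDiff_field A.N A.k)
  obtain ⟨K, hK⟩ := hcd.lipschitzWith_of_hasCompactSupport hsupp one_ne_zero
  obtain ⟨Mb, hMb⟩ := hsupp.exists_bound_of_continuous hcd.continuous
  obtain ⟨α, hα0, hα⟩ := exists_global_solution (fun _ => g) K (Real.toNNReal Mb) (fun _ => hK)
    (fun _ => continuous_const) (fun _ x => (hMb x).trans (Real.le_coe_toNNReal Mb)) x₀
  have hS : ∀ t, 0 ≤ t → α t - A.c ∈ A.N.stoich :=
    stays_in_class A.N hα (fun t _ => A.N.stoich.smul_mem _ (field_mem_stoich A.N A.k _))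
      (by rw [hα0]; exact hx₀S)
  have hg : ∀ y, y - A.c ∈ A.N.stoich → InG A.Z M0 y → g y = A.N.field A.k y := by
    intro y hyS hy
    have : χ y = 1 := by
      apply χ.one_of_mem_closedBall
      rw [mem_closedBall_zero_iff, pi_norm_le_iff_of_nonneg (by positivity)]
      intro i
      rw [Real.norm_eq_abs]
      have h1 := hB y hyS hy i
      have h2 : B ≤ R := le_max_left _ _
      show |y i| ≤ R + 1
      linarith
    simp only [g, this, one_smul]
  have hin : ∀ t, 0 ≤ t → A.InRegion ε M0 m0 δ0 (α t) := by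
    intro t ht
    have hκ : 0 < A.κ * δ0 ^ A.N.size := mul_pos A.κ_pos (pow_pos hδ0 _)
    have hκ' : 0 < A.klo / 2 * δ0 ^ A.N.size := mul_pos (half_pos A.hklo) (pow_pos hδ0 _)
    have := region_barrier hC α (fun t => g (α t)) (a := 0) (b := t) ?_ ?_ ?_
      (Ma := M0) (r1 := 0) (ma := m0) (r2 := 0) (δa := δ0) (r3 := 0) (e0 := δ0) hδ0 hδ01
      (by intro s _; simpa using hM0) (by intro s _; simpa using hm0')
      (by intro s _; simpa using hδ0c) hκ hκ hκ' ?_ ?_ (by rw [hα0]; exact hreg0) t ⟨ht, le_rfl⟩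
    · simpa using this
    · intro s hs
      exact ((hα s hs.1).continuousWithinAt).mono Icc_subset_Ici_self
    · intro s hs
      exact (hα s hs.1).mono (Ici_subset_Ici.mpr hs.1)
    · intro s hs
      exact hS s hs.1
    · intro s _ y hy hyS i hi
      simp only [zero_mul, sub_zero, add_zero] at hy hi
      exact hedge M0 m0 δ0 y le_rfl le_rfl hδ0 hy hyS i hi.le
    · intro s hs hy
      simp only [zero_mul, sub_zero, add_zero] at hy
      exact hg _ (hS s hs.1) hy.U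
  refine ⟨α, fun t ht => ⟨fun i => ?_, ?_⟩, hα0⟩
  · exact lt_of_lt_of_le hδ0 ((hin t ht).D i)
  · rw [← hg _ (hS t ht) (hin t ht).U]
    exact hα t ht

/-- Every positive solution in the class eventually enters the final region. -/
lemma eventually_inRegion (hC : A.Consts βlo βhi M1 ε cmin) (hcmin : 0 < cmin) {δfin : ℝ}
    (hδfin0 : 0 < δfin) (hδfin1 : δfin ≤ 1) (hδfinc : δfin < cmin)
    (hedgefin : ∀ (M' m' δ' : ℝ) (y : Fin d → ℝ), M' ≤ M1 → ε / 2 ≤ m' → 0 < δ' →
        A.InRegion ε M' m' δ' y → y - A.c ∈ A.N.stoich → ∀ i, y i ≤ δfin → A.Good i y)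
    {x : ℝ → Fin d → ℝ} (hx : A.N.IsPosSolution A.k x) (hx0S : x 0 - A.c ∈ A.N.stoich) :
    ∃ T, ∀ t, T ≤ t → A.InRegion ε M1 (ε / 2) δfin (x t) := by
  obtain ⟨M0, m0, δ0, hM0, hm0, hm0', hδ0, hδ01, hδ0c, hδ0fin, hreg0, hedge⟩ :=
    exists_levels hC hcmin hδfin0 (hx 0 le_rfl).1 hx0S
  set ς1 := A.κ * δ0 ^ A.N.size with hς1
  have hς1pos : 0 < ς1 := mul_pos A.κ_pos (pow_pos hδ0 _)
  set ς3 := A.klo / 2 * δ0 ^ A.N.size with hς3
  have hς3pos : 0 < ς3 := mul_pos (half_pos A.hklo) (pow_pos hδ0 _)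
  -- stage one
  set T1 := ((M0 - M1) + (ε / 2 - m0)) / ς1 + 1 with hT1
  have hA1 : 0 ≤ M0 - M1 := by linarith
  have hA2 : 0 ≤ ε / 2 - m0 := by linarith
  have hT1pos : 0 < T1 := by positivity
  have hT1ς : (M0 - M1) + (ε / 2 - m0) < ς1 * T1 := by
    rw [hT1, mul_add, mul_div_cancel₀ _ hς1pos.ne']
    linarith
  have frac : ∀ (D L t : ℝ), 0 ≤ D → 0 < L → 0 ≤ t → t ≤ L → 0 ≤ D / L * t ∧ D / L * t ≤ D := by
    intro D L t hD hL ht htL
    constructor
    · exact mul_nonneg (div_nonneg hD hL.le) ht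
    · rw [div_mul_eq_mul_div, div_le_iff₀ hL]
      exact mul_le_mul_of_nonneg_left htL hD
  have stage1 := run hC hx hx0S (a := 0) (b := T1) le_rfl
    (Ma := M0) (r1 := (M0 - M1) / T1) (ma := m0) (r2 := (ε / 2 - m0) / T1) (δa := δ0) (r3 := 0)
    (e0 := δ0) hδ0 hδ01
    (by
      intro t ht
      have := (frac (M0 - M1) T1 (t - 0) hA1 hT1pos (by linarith [ht.1]) (by linarith [ht.2])).2
      linarith)
    (by
      intro t ht
      have := (frac (ε / 2 - m0) T1 (t - 0) hA2 hT1pos (by linarith [ht.1])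
        (by linarith [ht.2])).2
      linarith)
    (by intro t _; simpa using hδ0c)
    (by rw [div_lt_iff₀ hT1pos]; linarith)
    (by rw [div_lt_iff₀ hT1pos]; linarith)
    hς3pos
    (by
      intro t ht y hy hyS i hi
      have h1 := (frac (M0 - M1) T1 (t - 0) hA1 hT1pos (by linarith [ht.1])
        (by linarith [ht.2])).1
      have h2 := (frac (ε / 2 - m0) T1 (t - 0) hA2 hT1pos (by linarith [ht.1])
        (by linarith [ht.2])).1
      refine hedge _ _ _ y (by linarith) (by linarith) ?_ hy hyS i ?_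
      · simpa using hδ0
      · rw [hi]; simp)
    hreg0
  have hregT1 : A.InRegion ε M1 (ε / 2) δ0 (x T1) := by
    have := stage1 T1 ⟨hT1pos.le, le_rfl⟩
    have e1 : M0 - (M0 - M1) / T1 * (T1 - 0) = M1 := by field_simp; ring
    have e2 : m0 + (ε / 2 - m0) / T1 * (T1 - 0) = ε / 2 := by field_simp; ring
    have e3 : δ0 + 0 * (T1 - 0) = δ0 := by ring
    rwa [e1, e2, e3] at this
  -- stage two
  set L2 := (δfin - δ0) / ς3 + 1 with hL2
  have hA3 : 0 ≤ δfin - δ0 := by linarith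
  have hL2pos : 0 < L2 := by positivity
  have hL2ς : δfin - δ0 < ς3 * L2 := by
    rw [hL2, mul_add, mul_div_cancel₀ _ hς3pos.ne']
    linarith
  have hε := hC.hε
  have stage2 := run hC hx hx0S (a := T1) (b := T1 + L2) hT1pos.le
    (Ma := M1) (r1 := 0) (ma := ε / 2) (r2 := 0) (δa := δ0) (r3 := (δfin - δ0) / L2)
    (e0 := δ0) hδ0 hδ01
    (by intro t _; simp)
    (by intro t _; simp)
    (by
      intro t ht
      have := frac (δfin - δ0) L2 (t - T1) hA3 hL2pos (by linarith [ht.1]) (by linarith [ht.2])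
      exact ⟨by linarith [this.1], by linarith [this.2]⟩)
    hς1pos hς1pos
    (by rw [div_lt_iff₀ hL2pos]; exact hL2ς)
    (by
      intro t ht y hy hyS i hi
      have := frac (δfin - δ0) L2 (t - T1) hA3 hL2pos (by linarith [ht.1]) (by linarith [ht.2])
      refine hedgefin _ _ _ y (by simp) (by simp) ?_ hy hyS i ?_
      · linarith [this.1]
      · rw [hi]; linarith [this.2])
    hregT1
  have hregT2 : A.InRegion ε M1 (ε / 2) δfin (x (T1 + L2)) := by
    have := stage2 (T1 + L2) ⟨by linarith, le_rfl⟩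
    have e1 : M1 - 0 * (T1 + L2 - T1) = M1 := by ring
    have e2 : ε / 2 + 0 * (T1 + L2 - T1) = ε / 2 := by ring
    have e3 : δ0 + (δfin - δ0) / L2 * (T1 + L2 - T1) = δfin := by field_simp; ring
    rwa [e1, e2, e3] at this
  -- stage three
  refine ⟨T1 + L2, fun t ht => ?_⟩
  have hκ : 0 < A.κ * δfin ^ A.N.size := mul_pos A.κ_pos (pow_pos hδfin0 _)
  have hκ' : 0 < A.klo / 2 * δfin ^ A.N.size := mul_pos (half_pos A.hklo) (pow_pos hδfin0 _)
  have stage3 := run hC hx hx0S (a := T1 + L2) (b := t) (by linarith)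
    (Ma := M1) (r1 := 0) (ma := ε / 2) (r2 := 0) (δa := δfin) (r3 := 0)
    (e0 := δfin) hδfin0 hδfin1
    (by intro t _; simp)
    (by intro t _; simp)
    (by intro t _; simpa using hδfinc)
    hκ hκ hκ'
    (by
      intro s _ y hy hyS i hi
      refine hedgefin _ _ _ y (by simp) (by simp) ?_ hy hyS i ?_
      · simpa using hδfin0
      · rw [hi]; simp)
    hregT2 t ⟨ht, le_rfl⟩
  simpa using stage3

variable (A)

/-- **Permanence** for the data of a `Setup`. -/
theorem permanent : A.N.PermanentOn A.k (A.N.posClass A.c) := by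
  obtain ⟨βlo, βhi, M1, ε, cmin, hcmin, hC⟩ := A.exists_consts
  have hε := hC.hε
  obtain ⟨δe, hδe, hedge⟩ := A.edge_hyp hε M1 (half_pos hε)
  set δfin := min δe (min (cmin / 2) 1) with hδfin
  have hδfin0 : 0 < δfin := by positivity
  have hδfin1 : δfin ≤ 1 := (min_le_right _ _).trans (min_le_right _ _)
  have hδfinc : δfin < cmin := by
    have : δfin ≤ cmin / 2 := (min_le_right _ _).trans (min_le_left _ _)
    linarith
  constructor
  · intro x₀ hx₀
    exact exists_posSolution hC hcmin hx₀.1 hx₀.2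
  · obtain ⟨B, hB⟩ := A.InG_bounded M1
    refine ⟨{x | A.InRegion ε M1 (ε / 2) δfin x} ∩ {x | x - A.c ∈ A.N.stoich}, ?_, ?_, ?_⟩
    · apply IsCompact.of_isClosed_subset (isCompact_Icc (a := fun _ : Fin d => -B)
        (b := fun _ => B))
      · apply IsClosed.inter
        · have := A.isClosed_region ε (Mf := fun _ => M1) (mf := fun _ => ε / 2)
            (δf := fun _ => δfin) continuous_const continuous_const continuous_const
          exact this.preimage (f := fun x : Fin d → ℝ => (x, (0 : ℝ))) (by fun_prop)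
        · have : IsClosed (A.N.stoich : Set (Fin d → ℝ)) :=
            Submodule.closed_of_finiteDimensional _
          exact this.preimage (continuous_id.sub continuous_const)
      · rintro x ⟨hx, hxS⟩
        exact ⟨fun i => (abs_le.mp (hB x hxS hx.U i)).1, fun i => (abs_le.mp (hB x hxS hx.U i)).2⟩
    · rintro x ⟨hx, hxS⟩
      exact ⟨fun i => lt_of_lt_of_le hδfin0 (hx.D i), hxS⟩
    · intro x hx hx0
      obtain ⟨T, hT⟩ := eventually_inRegion hC hcmin hδfin0 hδfin1 hδfinc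
        (fun M' m' δ' y h1 h2 h3 h4 h5 i hi =>
          hedge M' m' δ' y h1 h2 h3 h4 h5 i (hi.trans (min_le_left _ _))) hx hx0.2
      have hS : ∀ t, 0 ≤ t → x t - A.c ∈ A.N.stoich :=
        stays_in_class A.N (fun t ht => (hx t ht).2) (fun t _ => field_mem_stoich A.N A.k _)
          hx0.2
      exact ⟨max T 0, fun t ht =>
        ⟨hT t ((le_max_left _ _).trans ht), hS t ((le_max_right _ _).trans ht)⟩⟩

end Setup

/-- **Permanence of weakly reversible mass-action systems with `dim S = 2`.** -/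
theorem permanent_of_finrank_two {d : ℕ} (N : Network d) (hWR : N.WeaklyReversible)
    (h2 : Module.finrank ℝ N.stoich = 2) (k : (Fin d → ℕ) × (Fin d → ℕ) → ℝ)
    (hk : ∀ r ∈ N.reactions, 0 < k r) (c : Fin d → ℝ) (hc : ∀ i, 0 < c i) :
    N.PermanentOn k (N.posClass c) := by
  obtain ⟨A, rfl, rfl, rfl⟩ := exists_setup N hWR h2 k hk c hc
  exact A.permanent

end Vale.Agent.P072
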