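import Vale.Agent.P072.Defs

/-!
# Uniqueness of solutions of a mass-action system (constant rates)

The mass-action field is polynomial, hence Lipschitz on compact sets, so two solutions on an
interval `[0, τ)` with the same initial value coincide there.
-/

namespace Vale.Agent.P072

open Set

variable {d : ℕ}

lemma contDiff_monomial (y : Fin d → ℕ) :
    ContDiff ℝ 1 (fun x : Fin d → ℝ => monomial x y) := by
  unfold monomial
  exact contDiff_prod fun i _ => (contDiff_apply ℝ ℝ i).pow (y i)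

lemma contDiff_field (N : Network d) (k : (Fin d → ℕ) × (Fin d → ℕ) → ℝ) :
    ContDiff ℝ 1 (N.field k) := by
  unfold Network.field
  exact ContDiff.sum fun r _ => (contDiff_const.mul (contDiff_monomial r.1)).smul contDiff_const

/-- Two solutions on `[0, τ)` of the mass-action system with the same initial value coincide. -/
theorem solution_unique (N : Network d) (k : (Fin d → ℕ) × (Fin d → ℕ) → ℝ) {τ : ℝ}
    {x z : ℝ → Fin d → ℝ}
    (hx : ∀ t ∈ Ico (0 : ℝ) τ, HasDerivWithinAt x (N.field k (x t)) (Ici 0) t)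
    (hz : ∀ t ∈ Ico (0 : ℝ) τ, HasDerivWithinAt z (N.field k (z t)) (Ici 0) t)
    (h0 : z 0 = x 0) : ∀ t ∈ Ico (0 : ℝ) τ, z t = x t := by
  intro t₁ ht₁
  have hsub : Icc (0 : ℝ) t₁ ⊆ Ico 0 τ := fun t ht => ⟨ht.1, lt_of_le_of_lt ht.2 ht₁.2⟩
  have hcx : ContinuousOn x (Icc 0 t₁) := fun t ht =>
    ((hx t (hsub ht)).continuousWithinAt).mono (fun s hs => hs.1)
  have hcz : ContinuousOn z (Icc 0 t₁) := fun t ht =>
    ((hz t (hsub ht)).continuousWithinAt).mono (fun s hs => hs.1)
  set s : Set (Fin d → ℝ) := x '' Icc 0 t₁ ∪ z '' Icc 0 t₁ with hs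
  have hscomp : IsCompact s := (isCompact_Icc.image_of_continuousOn hcx).union
    (isCompact_Icc.image_of_continuousOn hcz)
  obtain ⟨K, hK⟩ := LocallyLipschitzOn.exists_lipschitzOnWith_of_compact hscomp
    ((contDiff_field N k).locallyLipschitz.locallyLipschitzOn (s := s))
  have key := ODE_solution_unique_of_mem_Icc_right (v := fun _ => N.field k) (s := fun _ => s)
    (K := K) (f := z) (g := x) (a := 0) (b := t₁) (fun _ _ => hK) hcz
    (fun t ht => (hz t (hsub ⟨ht.1, ht.2.le⟩)).mono (Ici_subset_Ici.2 ht.1))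
    (fun t ht => Or.inr ⟨t, ⟨ht.1, ht.2.le⟩, rfl⟩) hcx
    (fun t ht => (hx t (hsub ⟨ht.1, ht.2.le⟩)).mono (Ici_subset_Ici.2 ht.1))
    (fun t ht => Or.inl ⟨t, ⟨ht.1, ht.2.le⟩, rfl⟩) h0
  exact key ⟨ht₁.1, le_rfl⟩

end Vale.Agent.P072
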