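import Vale.Agent.P072.VarRegion
import Vale.Agent.P072.TwoDim
import Vale.Agent.P072.Sub.Caratheodory

/-!
# Time-dependent rates: integrability and conservation
-/

namespace Vale.Agent.P072

open Finset Set Filter Topology MeasureTheory

variable {d : ℕ}

lemma continuous_monomial (y : Fin d → ℕ) : Continuous (fun x : Fin d → ℝ => monomial x y) := by
  unfold monomial
  fun_prop

lemma intervalIntegrable_field (N : Network d) {ε : ℝ}
    {k : ℝ → (Fin d → ℕ) × (Fin d → ℕ) → ℝ} (hk : N.AdmissibleRates ε k) (hε : 0 < ε)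
    {x : ℝ → Fin d → ℝ} {a b : ℝ} (hab : a ≤ b) (hx : ContinuousOn x (Icc a b)) :
    IntervalIntegrable (fun s => N.field (k s) (x s)) volume a b := by
  unfold Network.field
  have : (fun s => ∑ r ∈ N.reactions, (k s r * monomial (x s) r.1) • reactionVector r)
      = ∑ r ∈ N.reactions, fun s => (k s r * monomial (x s) r.1) • reactionVector r := by
    ext s; simp
  rw [this]
  apply IntervalIntegrable.sum
  intro r hr
  suffices hsc : IntervalIntegrable (fun s => k s r * monomial (x s) r.1) volume a b from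
    ⟨hsc.1.smul_const _, hsc.2.smul_const _⟩
  have hm : IntervalIntegrable (fun s => monomial (x s) r.1) volume a b := by
    apply ContinuousOn.intervalIntegrable
    rw [uIcc_of_le hab]
    exact (continuous_monomial r.1).comp_continuousOn hx
  have hmeas : AEStronglyMeasurable (fun s => k s r) volume :=
    (hk.1 r).aestronglyMeasurable
  have hbd : ∀ s, ‖k s r‖ ≤ ε⁻¹ := by
    intro s
    obtain ⟨h1, h2⟩ := hk.2 s r hr
    rw [Real.norm_eq_abs, abs_of_nonneg (hε.le.trans h1)]
    exact h2
  exact ⟨hm.1.bdd_mul hmeas.restrict (Eventually.of_forall hbd),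
    hm.2.bdd_mul hmeas.restrict (Eventually.of_forall hbd)⟩

/-- The integral of a curve in a subspace lies in the subspace. -/
lemma integral_mem_stoich (N : Network d) {g : ℝ → Fin d → ℝ} {a b : ℝ}
    (hint : IntervalIntegrable g volume a b) (hg : ∀ s, g s ∈ N.stoich) :
    ∫ s in a..b, g s ∈ N.stoich := by
  rw [← Subspace.dualAnnihilator_dualCoannihilator_eq (W := N.stoich),
    Submodule.mem_dualCoannihilator]
  intro φ hφ
  rw [Submodule.mem_dualAnnihilator] at hφ
  let φc : (Fin d → ℝ) →L[ℝ] ℝ := LinearMap.toContinuousLinearMap φ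
  have hφc : ∀ w, φc w = φ w := fun w => rfl
  rw [← hφc, ← φc.intervalIntegral_comp_comm hint]
  have : (fun s => φc (g s)) = fun _ => (0 : ℝ) := by
    ext s; rw [hφc]; exact hφ _ (hg s)
  rw [this]; simp

section sol
variable {N : Network d} {ε : ℝ} {k : ℝ → (Fin d → ℕ) × (Fin d → ℕ) → ℝ}
  {x : ℝ → Fin d → ℝ}

lemma IsPosSolutionVar.intervalIntegrable (hk : N.AdmissibleRates ε k) (hε : 0 < ε)
    (hx : N.IsPosSolutionVar k x) {a b : ℝ} (ha : 0 ≤ a) (hab : a ≤ b) :
    IntervalIntegrable (fun s => N.field (k s) (x s)) volume a b :=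
  intervalIntegrable_field N hk hε hab (hx.1.mono fun _ hs => ha.trans hs.1)

lemma IsPosSolutionVar.sub_eq (hk : N.AdmissibleRates ε k) (hε : 0 < ε)
    (hx : N.IsPosSolutionVar k x) {s t : ℝ} (hs : 0 ≤ s) (hst : s ≤ t) :
    x t - x s = ∫ r in s..t, N.field (k r) (x r) := by
  have h1 := hx.2.2 t (hs.trans hst)
  have h2 := hx.2.2 s hs
  have i1 := IsPosSolutionVar.intervalIntegrable hk hε hx le_rfl (hs.trans hst)
  have i2 := IsPosSolutionVar.intervalIntegrable hk hε hx le_rfl hs
  rw [← intervalIntegral.integral_interval_sub_left i1 i2]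
  rw [h1]
  conv_lhs => rw [h2]
  abel

lemma IsPosSolutionVar.stays (hk : N.AdmissibleRates ε k) (hε : 0 < ε)
    (hx : N.IsPosSolutionVar k x) {c : Fin d → ℝ} (h0 : x 0 - c ∈ N.stoich) {t : ℝ}
    (ht : 0 ≤ t) : x t - c ∈ N.stoich := by
  have h1 := IsPosSolutionVar.sub_eq hk hε hx le_rfl ht
  have h2 := integral_mem_stoich N (IsPosSolutionVar.intervalIntegrable hk hε hx le_rfl ht)
    (fun s => field_mem_stoich N (k s) (x s))
  rw [← h1] at h2
  have : x t - c = (x t - x 0) + (x 0 - c) := by abel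
  rw [this]
  exact N.stoich.add_mem h2 h0

end sol

end Vale.Agent.P072
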