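import Vale.Agent.P072.VarStep

/-!
# Time-dependent rates: the moving barrier lemma in integral form
-/

namespace Vale.Agent.P072

open Finset Set Filter Topology MeasureTheory

namespace Setup

variable {d : ℕ} (A : Setup d)

/-- Rate vectors compatible with the constants of `A`. -/
structure Adm (khi : ℝ) (κ : (Fin d → ℕ) × (Fin d → ℕ) → ℝ) : Prop where
  lo : ∀ r ∈ A.N.reactions, A.klo ≤ κ r
  hi : ∀ r ∈ A.N.reactions, κ r ≤ khi
  small : A.θ * (2 * A.Zs * A.Zs) * (∑ r ∈ A.N.reactions, κ r) ≤ A.klo / 2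

variable {A}

/-- The same data with another rate vector. -/
def withK {khi : ℝ} {κ : (Fin d → ℕ) × (Fin d → ℕ) → ℝ} (h : A.Adm khi κ) : Setup d :=
  { A with k := κ, hk := h.lo, hsmall := h.small }

lemma main_decrease_var {khi : ℝ} {κ : (Fin d → ℕ) × (Fin d → ℕ) → ℝ} (h : A.Adm khi κ)
    {x b z0 : Fin d → ℝ} {σ M e0 : ℝ}
    (hz0 : z0 ∈ A.Z) (hb : b = x + σ • z0) (hbpos : ∀ i, 0 < b i) (hb0 : z0 ⬝ᵥ lg b = 0)
    (hM : ent b = M) (hG : InG A.Z M x)
    (hNC : ∀ z ∈ A.Z, om A.i0 A.j0 z0 z ≠ 0 → A.T2 < |z ⬝ᵥ lg b|)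
    (he0 : 0 < e0) (he1 : e0 ≤ 1) (hx : ∀ i, e0 ≤ x i) :
    lg b ⬝ᵥ A.N.field κ x ≤ -(A.κ * e0 ^ A.N.size) :=
  (withK h).main_decrease hz0 hb hbpos hb0 hM hG hNC he0 he1 hx

lemma field_lower_var {khi : ℝ} {κ : (Fin d → ℕ) × (Fin d → ℕ) → ℝ} (h : A.Adm khi κ)
    {x : Fin d → ℝ} {i : Fin d} {e0 : ℝ} (he0 : 0 < e0) (he1 : e0 ≤ 1)
    (hx : ∀ k, e0 ≤ x k) (hgood : A.Good i x) (hnc : ∃ r ∈ A.N.reactions, r.1 i ≠ r.2 i) :
    A.klo / 2 * e0 ^ A.N.size ≤ A.N.field κ x i :=
  (withK h).field_lower he0 he1 hx hgood hnc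

variable {βlo βhi M1 ε cmin : ℝ}

/-- **Moving barrier lemma, integral form.** -/
lemma region_barrier_var (hC : A.Consts βlo βhi M1 ε cmin) {khi : ℝ}
    (x g : ℝ → Fin d → ℝ) (kk : ℝ → (Fin d → ℕ) × (Fin d → ℕ) → ℝ) {a b : ℝ}
    (hcont : ContinuousOn x (Icc a b))
    (hint : IntervalIntegrable g volume a b)
    (hx : ∀ s ∈ Icc a b, ∀ t ∈ Icc a b, s ≤ t → x t - x s = ∫ r in s..t, g r)
    (hS : ∀ t ∈ Icc a b, x t - A.c ∈ A.N.stoich)
    (hadm : ∀ s, A.Adm khi (kk s))
    {Ma r1 ma r2 δa r3 e0 : ℝ} (he0 : 0 < e0) (he1 : e0 ≤ 1)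
    (hM : ∀ t ∈ Icc a b, M1 ≤ Ma - r1 * (t - a))
    (hm : ∀ t ∈ Icc a b, ma + r2 * (t - a) ≤ ε / 2)
    (hδ : ∀ t ∈ Icc a b, e0 ≤ δa + r3 * (t - a) ∧ δa + r3 * (t - a) < cmin)
    (hr1 : r1 < A.κ * e0 ^ A.N.size) (hr2 : r2 < A.κ * e0 ^ A.N.size)
    (hr3 : r3 < A.klo / 2 * e0 ^ A.N.size)
    (hedge : ∀ t ∈ Icc a b, ∀ y : Fin d → ℝ,
      A.InRegion ε (Ma - r1 * (t - a)) (ma + r2 * (t - a)) (δa + r3 * (t - a)) y →
      y - A.c ∈ A.N.stoich → ∀ i, y i = δa + r3 * (t - a) → A.Good i y)
    {O : Set (Fin d → ℝ)} (hO : IsOpen O)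
    (hOreg : ∀ t ∈ Icc a b, ∀ y : Fin d → ℝ,
      A.InRegion ε (Ma - r1 * (t - a)) (ma + r2 * (t - a)) (δa + r3 * (t - a)) y →
      y - A.c ∈ A.N.stoich → y ∈ O)
    (hg : ∀ t ∈ Icc a b, x t ∈ O → g t = A.N.field (kk t) (x t))
    (h0 : A.InRegion ε Ma ma δa (x a)) :
    ∀ t ∈ Icc a b,
      A.InRegion ε (Ma - r1 * (t - a)) (ma + r2 * (t - a)) (δa + r3 * (t - a)) (x t) := by
  set s : Set ℝ :=
    {t | A.InRegion ε (Ma - r1 * (t - a)) (ma + r2 * (t - a)) (δa + r3 * (t - a)) (x t)} with hs
  suffices Icc a b ⊆ s from fun t ht => this ht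
  apply IsClosed.Icc_subset_of_forall_mem_nhdsWithin
  · have hcl := A.isClosed_region ε (Mf := fun t => Ma - r1 * (t - a))
      (mf := fun t => ma + r2 * (t - a)) (δf := fun t => δa + r3 * (t - a))
      (by fun_prop) (by fun_prop) (by fun_prop)
    have hc2 : ContinuousOn (fun t => (x t, t)) (Icc a b) := hcont.prodMk continuousOn_id
    have := hc2.preimage_isClosed_of_isClosed isClosed_Icc hcl
    rw [inter_comm]
    exact this
  · show A.InRegion ε (Ma - r1 * (a - a)) (ma + r2 * (a - a)) (δa + r3 * (a - a)) (x a)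
    simpa using h0
  · intro t ht
    have hreg : A.InRegion ε (Ma - r1 * (t - a)) (ma + r2 * (t - a)) (δa + r3 * (t - a)) (x t) :=
      ht.1
    have htI : t ∈ Ico a b := ht.2
    have htI' : t ∈ Icc a b := ⟨htI.1, htI.2.le⟩
    have hbI : b ∈ Icc a b := ⟨htI.1.trans htI.2.le, le_rfl⟩
    have hct : ContinuousWithinAt x (Ici t) t :=
      (hcont t htI').mono_of_mem_nhdsWithin (Icc_mem_nhdsGE_of_mem htI)
    have hlow : ∀ i, e0 ≤ x t i := fun i => (hδ t htI').1.trans (hreg.D i)
    have hpos : ∀ i, 0 < x t i := fun i => lt_of_lt_of_le he0 (hlow i)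
    have hSt := hS t htI'
    have hmono : 𝓝[>] t ≤ 𝓝[≥] t := nhdsWithin_mono _ Ioi_subset_Ici_self
    have hevI' : ∀ᶠ r in 𝓝[≥] t, r ∈ Icc a b := Icc_mem_nhdsGE_of_mem htI
    have hevI : ∀ᶠ r in 𝓝[>] t, r ∈ Icc a b := hevI'.filter_mono hmono
    have hevpos : ∀ᶠ r in 𝓝[>] t, ∀ i, 0 < x r i :=
      (eventually_pos_of_continuousWithinAt hct hpos).filter_mono hmono
    have hintt : IntervalIntegrable g volume t b :=
      hint.mono_set (by
        rw [uIcc_of_le htI.2.le, uIcc_of_le (htI.1.trans htI.2.le)]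
        exact Icc_subset_Icc_left htI.1)
    have hxt : ∀ r ∈ Icc t b, x r - x t = ∫ u in t..r, g u :=
      fun r hr => hx t htI' r ⟨htI.1.trans hr.1, hr.2⟩ hr.1
    have hgt : ∀ᶠ r in 𝓝[≥] t, g r = A.N.field (kk r) (x r) := by
      have h1 : ∀ᶠ r in 𝓝[≥] t, x r ∈ O :=
        hct.eventually (hO.mem_nhds (hOreg t htI' (x t) hreg hSt))
      filter_upwards [h1, hevI'] with r h2 h3
      exact hg r h3 h2
    have hkk : ∀ s, ∀ r ∈ A.N.reactions, 0 ≤ kk s r ∧ kk s r ≤ khi :=
      fun s r hr => ⟨A.hklo.le.trans ((hadm s).lo r hr), (hadm s).hi r hr⟩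
    have hbS : ∀ z ∈ A.Z, ∀ σ : ℝ, x t + σ • z - A.c ∈ A.N.stoich := by
      intro z hz σ
      have : x t + σ • z - A.c = (x t - A.c) + σ • z := by abel
      rw [this]
      exact A.N.stoich.add_mem hSt (A.N.stoich.smul_mem _ (A.hZS z hz))
    -- the outer polygon
    have hU : ∀ᶠ r in 𝓝[>] t, InG A.Z (Ma - r1 * (r - a)) (x r) := by
      have := InG_step_var A.N A.hZne htI.2 hct hintt hxt hgt hkk hpos hr1 hreg.U ?_
      · filter_upwards [this] with r hr
        have e : Ma - r1 * (r - a) = Ma - r1 * (t - a) - r1 * (r - t) := by ring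
        rw [e]; exact hr
      · intro z hz σ hbpos hb0 hent s'
        have hNC : ∀ z' ∈ A.Z, om A.i0 A.j0 z z' ≠ 0 → A.T2 < |z' ⬝ᵥ lg (x t + σ • z)| := by
          intro z' hz' hne
          by_contra hcon
          push Not at hcon
          have hb := hC.hcore _ z z' hbpos (hbS z hz σ) hz hz' hne hb0 hcon
          have := ent_le_of_le hC.hβhi hbpos (fun i => (hb i).2)
          have h2 := hM t htI'
          have h3 := hC.hM1
          linarith
        exact main_decrease_var (hadm s') hz rfl hbpos hb0 hent hreg.U hNC he0 he1 hlow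
    -- the vertices
    have hW : ∀ᶠ r in 𝓝[>] t, ∀ i j w, A.Corner i j → A.IsVertex w i j → x r i + x r j < ε →
        InG A.Z (ent w - (ma + r2 * (r - a))) (x r) := by
      rw [eventually_all]; intro i
      rw [eventually_all]; intro j
      by_cases hcor : A.Corner i j
      swap
      · exact Eventually.of_forall fun r w h => absurd h hcor
      by_cases hex : ∃ w, A.IsVertex w i j
      swap
      · exact Eventually.of_forall fun r w _ hw => absurd ⟨w, hw⟩ hex
      obtain ⟨w0, hw0⟩ := hex
      suffices hsuff : ∀ᶠ r in 𝓝[>] t, x r i + x r j < ε →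
          InG A.Z (ent w0 - (ma + r2 * (r - a))) (x r) by
        filter_upwards [hsuff] with r hr w _ hw
        rw [hw.unique hw0]; exact hr
      rcases lt_or_ge (ε / 2) (x t i + x t j) with hbig | hsmall
      · have hcν : ContinuousWithinAt (fun r => x r i + x r j) (Ici t) t :=
          ((continuous_apply i).continuousAt.comp_continuousWithinAt hct).add
            ((continuous_apply j).continuousAt.comp_continuousWithinAt hct)
        have hev : ∀ᶠ r in 𝓝[>] t, ε / 2 < x r i + x r j :=
          (hcν.eventually (Ioi_mem_nhds hbig)).filter_mono hmono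
        filter_upwards [hev, hevI, hevpos] with r h1 h2 h3 h4
        apply InG_of_ent_le (fun k => (h3 k).le)
        have := hC.hdrop i j w0 hcor hw0 (x r) h3 (hS r h2) h4.le
        have := hm r h2
        linarith
      · have hε := hC.hε
        have hG : InG A.Z (ent w0 - (ma + r2 * (t - a))) (x t) :=
          hreg.W i j w0 hcor hw0 (by linarith)
        have hstep := InG_step_var A.N A.hZne htI.2 hct hintt hxt hgt hkk hpos hr2 hG ?_
        · filter_upwards [hstep] with r hr _
          have e : ent w0 - (ma + r2 * (r - a))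
              = ent w0 - (ma + r2 * (t - a)) - r2 * (r - t) := by ring
          rw [e]; exact hr
        · intro z hz σ hbpos hb0 hent s'
          set bb := x t + σ • z with hbb
          have hνb : bb i + bb j < ε := by
            by_contra hcon
            push Not at hcon
            set ν0 := x t i + x t j with hν0
            set ν1 := bb i + bb j with hν1
            have hden : 0 < ν1 - ν0 := by linarith
            set l := (3 * ε / 4 - ν0) / (ν1 - ν0) with hl
            have hl0 : 0 < l := div_pos (by linarith) hden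
            have hl1 : l ≤ 1 := by rw [hl, div_le_one hden]; linarith
            set y' := x t + (l * σ) • z with hy'
            have hy'k : ∀ k, y' k = (1 - l) * x t k + l * bb k := by
              intro k
              simp only [hy', hbb, Pi.add_apply, Pi.smul_apply, smul_eq_mul]; ring
            have hy'pos : ∀ k, 0 < y' k := by
              intro k
              rw [hy'k]
              have h1 : 0 ≤ (1 - l) * x t k := mul_nonneg (by linarith) (hpos k).le
              have h2 : 0 < l * bb k := mul_pos hl0 (hbpos k)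
              linarith
            have hy'ν : y' i + y' j = 3 * ε / 4 := by
              rw [hy'k, hy'k]
              have : (1 - l) * x t i + l * bb i + ((1 - l) * x t j + l * bb j)
                  = ν0 + l * (ν1 - ν0) := by rw [hν0, hν1]; ring
              rw [this, hl, div_mul_cancel₀ _ hden.ne']; ring
            have h1 := hC.hdrop i j w0 hcor hw0 y' hy'pos (hbS z hz _) (by rw [hy'ν]; linarith)
            have h2 : dualT (lg bb) y' ≤ ent y' := dualT_le_ent (fun k => (hy'pos k).le) _
            have h3 : dualT (lg bb) y' = ent bb := by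
              rw [hy', dualT_add_smul hb0, dualT_lg_fibre hbpos hb0]
            have h4 := hm t htI'
            rw [hy'ν] at h1
            linarith
          have hbi : bb i < ε := by linarith [hbpos j]
          have hNC : ∀ z' ∈ A.Z, om A.i0 A.j0 z z' ≠ 0 → A.T2 < |z' ⬝ᵥ lg bb| := by
            intro z' hz' hne
            by_contra hcon
            push Not at hcon
            have hb := hC.hcore _ z z' hbpos (hbS z hz σ) hz hz' hne hb0 hcon
            have := (hb i).1
            have := hC.hεβ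
            linarith
          exact main_decrease_var (hadm s') hz rfl hbpos hb0 hent hG hNC he0 he1 hlow
    -- the coordinate hyperplanes
    have hD : ∀ᶠ r in 𝓝[>] t, ∀ i, δa + r3 * (r - a) ≤ x r i := by
      rw [eventually_all]; intro i
      rcases (hreg.D i).lt_or_eq with hlt | heq
      · have hcu : ContinuousWithinAt (fun r => δa + r3 * (r - a) - x r i) (Ici t) t := by
          apply ContinuousWithinAt.sub
          · fun_prop
          · exact (continuous_apply i).continuousAt.comp_continuousWithinAt hct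
        have : ∀ᶠ r in 𝓝[≥] t, δa + r3 * (r - a) - x r i < 0 :=
          hcu.eventually (Iio_mem_nhds (by linarith))
        exact (this.filter_mono hmono).mono fun r hr => by linarith
      · by_cases hnc : ∃ r ∈ A.N.reactions, r.1 i ≠ r.2 i
        · have hgood := hedge t htI' (x t) hreg hSt i heq.symm
          let p0 : Fin d → ℝ := fun k => if k = i then -1 else 0
          have hp0 : ∀ v : Fin d → ℝ, p0 ⬝ᵥ v = -v i := by
            intro v
            simp [p0, dotProduct]
          obtain ⟨τ, hτ, ρ, hρ, hstep⟩ := lin_step A.N htI.2 hct hintt hxt hgt hkk (p0 := p0)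
            (ς := A.klo / 2 * e0 ^ A.N.size)
            (fun s' => by
              rw [hp0]
              have := field_lower_var (hadm s') he0 he1 hlow hgood hnc
              linarith)
            (η := A.klo / 2 * e0 ^ A.N.size - r3) (by linarith)
          have hev4 : ∀ᶠ r in 𝓝[>] t, r ∈ Ioo t (t + τ) := Ioo_mem_nhdsGT (by linarith)
          filter_upwards [hev4] with r hr
          have := hstep r hr p0 (by simpa using hρ)
          rw [hp0] at this
          simp only [Pi.sub_apply] at this
          have e : (-(A.klo / 2 * e0 ^ A.N.size) + (A.klo / 2 * e0 ^ A.N.size - r3)) * (r - t)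
              = -(r3 * (r - t)) := by ring
          rw [e] at this
          have e2 : δa + r3 * (r - a) = δa + r3 * (t - a) + r3 * (r - t) := by ring
          rw [e2, heq]
          linarith
        · push Not at hnc
          have := A.coord_conserved hnc hSt
          have h2 := (hδ t htI').2
          have h3 := hC.hcmin i
          linarith
    filter_upwards [hU, hW, hD] with r h1 h2 h3
    exact ⟨h1, h2, h3⟩

end Setup

end Vale.Agent.P072
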