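import Vale.Agent.P072.Region
import Vale.Agent.P072.DefsVar

/-!
# Time-dependent rates: uniform estimates and the infinitesimal steps in integral form
-/

namespace Vale.Agent.P072

open Finset Set Filter Topology MeasureTheory

variable {d : ℕ}

/-- The functional `v ↦ p ⬝ᵥ v` as a continuous linear map. -/
noncomputable def dotCLM (p : Fin d → ℝ) : (Fin d → ℝ) →L[ℝ] ℝ :=
  ∑ i, p i • ContinuousLinearMap.proj i

lemma dotCLM_apply (p v : Fin d → ℝ) : dotCLM p v = p ⬝ᵥ v := by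
  simp [dotCLM, dotProduct]

lemma dot_field (N : Network d) (κ : (Fin d → ℕ) × (Fin d → ℕ) → ℝ) (p x : Fin d → ℝ) :
    p ⬝ᵥ N.field κ x
      = ∑ r ∈ N.reactions, κ r * (monomial x r.1 * (p ⬝ᵥ reactionVector r)) := by
  unfold Network.field
  rw [dotProduct_sum]
  apply Finset.sum_congr rfl
  intro r _
  rw [dotProduct_smul, smul_eq_mul]; ring

/-- Uniform (in the rates) continuity of `(p, x) ↦ p · f_κ(x)`. -/
lemma unif_cont (N : Network d) {khi : ℝ} (p0 x0 : Fin d → ℝ) {η : ℝ}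
    (hη : 0 < η) :
    ∃ ρ : ℝ, 0 < ρ ∧ ∀ p x' : Fin d → ℝ, dist p p0 < ρ → dist x' x0 < ρ →
      ∀ κ : (Fin d → ℕ) × (Fin d → ℕ) → ℝ, (∀ r ∈ N.reactions, 0 ≤ κ r ∧ κ r ≤ khi) →
        p ⬝ᵥ N.field κ x' ≤ p0 ⬝ᵥ N.field κ x0 + η := by
  let e : (Fin d → ℝ) × (Fin d → ℝ) → ℝ := fun q =>
    khi * ∑ r ∈ N.reactions, |monomial q.2 r.1 * (q.1 ⬝ᵥ reactionVector r)
      - monomial x0 r.1 * (p0 ⬝ᵥ reactionVector r)|
  have hcont : Continuous e := by
    simp only [e, monomial, dotProduct]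
    fun_prop
  have he0 : e (p0, x0) = 0 := by simp [e]
  have hev : ∀ᶠ q in 𝓝 (p0, x0), e q < η :=
    (hcont.continuousAt (x := (p0, x0))).eventually (by rw [he0]; exact Iio_mem_nhds hη)
  obtain ⟨ρ, hρ, hball⟩ := Metric.eventually_nhds_iff.mp hev
  refine ⟨ρ, hρ, fun p x' hp hx κ hκ => ?_⟩
  have h1 : e (p, x') < η := by
    apply hball
    rw [Prod.dist_eq]
    exact max_lt hp hx
  rw [dot_field, dot_field]
  have h2 : ∑ r ∈ N.reactions, κ r * (monomial x' r.1 * (p ⬝ᵥ reactionVector r))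
      - ∑ r ∈ N.reactions, κ r * (monomial x0 r.1 * (p0 ⬝ᵥ reactionVector r)) ≤ e (p, x') := by
    rw [← Finset.sum_sub_distrib]
    simp only [e, Finset.mul_sum]
    apply Finset.sum_le_sum
    intro r hr
    obtain ⟨hk0, hk1⟩ := hκ r hr
    rw [← mul_sub]
    calc κ r * (monomial x' r.1 * (p ⬝ᵥ reactionVector r)
          - monomial x0 r.1 * (p0 ⬝ᵥ reactionVector r))
        ≤ κ r * |monomial x' r.1 * (p ⬝ᵥ reactionVector r)
          - monomial x0 r.1 * (p0 ⬝ᵥ reactionVector r)| :=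
          mul_le_mul_of_nonneg_left (le_abs_self _) hk0
      _ ≤ _ := mul_le_mul_of_nonneg_right hk1 (abs_nonneg _)
  linarith

/-- **Linear step.** If all admissible fields at `x t0` decrease the functional `p0` at rate `ς`,
then nearby functionals decrease along the integral curve at almost the same rate for a short
time. -/
lemma lin_step (N : Network d) {khi : ℝ} {x g : ℝ → Fin d → ℝ}
    {kk : ℝ → (Fin d → ℕ) × (Fin d → ℕ) → ℝ} {t0 t1 : ℝ} (ht : t0 < t1)
    (hc : ContinuousWithinAt x (Ici t0) t0)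
    (hint : IntervalIntegrable g volume t0 t1)
    (hx : ∀ t ∈ Icc t0 t1, x t - x t0 = ∫ r in t0..t, g r)
    (hg : ∀ᶠ s in 𝓝[≥] t0, g s = N.field (kk s) (x s))
    (hkk : ∀ s, ∀ r ∈ N.reactions, 0 ≤ kk s r ∧ kk s r ≤ khi)
    {p0 : Fin d → ℝ} {ς : ℝ} (hς : ∀ s, p0 ⬝ᵥ N.field (kk s) (x t0) ≤ -ς) {η : ℝ} (hη : 0 < η) :
    ∃ τ : ℝ, 0 < τ ∧ ∃ ρ : ℝ, 0 < ρ ∧ ∀ t ∈ Ioo t0 (t0 + τ), ∀ p : Fin d → ℝ, dist p p0 < ρ →
      p ⬝ᵥ (x t - x t0) ≤ (-ς + η) * (t - t0) := by
  obtain ⟨ρ, hρ, huc⟩ := unif_cont N (khi := khi) p0 (x t0) hη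
  have hev1 : ∀ᶠ s in 𝓝[≥] t0, dist (x s) (x t0) < ρ :=
    hc.eventually (Metric.ball_mem_nhds _ hρ)
  have hev := hev1.and hg
  obtain ⟨u, hu, hsub⟩ := (mem_nhdsGE_iff_exists_Ico_subset).mp hev
  have hu' : t0 < u := hu
  refine ⟨min (u - t0) (t1 - t0), lt_min (by linarith) (by linarith), ρ, hρ, ?_⟩
  intro t htI p hp
  have ht1 : t < u := by
    have := htI.2
    have h2 : min (u - t0) (t1 - t0) ≤ u - t0 := min_le_left _ _
    linarith
  have ht2 : t < t1 := by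
    have := htI.2
    have h2 : min (u - t0) (t1 - t0) ≤ t1 - t0 := min_le_right _ _
    linarith
  have hintt : IntervalIntegrable g volume t0 t :=
    hint.mono_set (by
      rw [uIcc_of_le htI.1.le, uIcc_of_le ht.le]
      exact Icc_subset_Icc_right ht2.le)
  rw [hx t ⟨htI.1.le, ht2.le⟩, ← dotCLM_apply, ← (dotCLM p).intervalIntegral_comp_comm hintt]
  have hint2 : IntervalIntegrable (fun s => dotCLM p (g s)) volume t0 t := by
    have := (dotCLM p).integrable_comp hintt.1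
    have h2 := (dotCLM p).integrable_comp hintt.2
    exact ⟨this, h2⟩
  calc ∫ s in t0..t, dotCLM p (g s) ≤ ∫ _s in t0..t, (-ς + η) := by
        apply intervalIntegral.integral_mono_on htI.1.le hint2 intervalIntegrable_const
        intro s hs
        have hsI : s ∈ Ico t0 u := ⟨hs.1, lt_of_le_of_lt hs.2 ht1⟩
        obtain ⟨h1, h2⟩ := hsub hsI
        rw [dotCLM_apply, h2]
        have := huc p (x s) hp h1 (kk s) (hkk s)
        have h3 := hς s
        linarith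
    _ = (-ς + η) * (t - t0) := by
        rw [intervalIntegral.integral_const, smul_eq_mul]; ring

/-- Convexity of the entropy: the tangent inequality at the later point. -/
lemma ent_le_add_dot {a c : Fin d → ℝ} (ha : ∀ i, 0 ≤ a i) (hc : ∀ i, 0 < c i) :
    ent c ≤ ent a + lg c ⬝ᵥ (c - a) := by
  have h1 := dualT_le_ent ha (lg c)
  have h2 : dualT (lg c) a = ent c - lg c ⬝ᵥ (c - a) := by
    rw [← dualT_lg_self hc]
    unfold dualT dotProduct
    rw [← Finset.sum_sub_distrib]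
    apply Finset.sum_congr rfl
    intro i _
    simp only [Pi.sub_apply]; ring
  linarith

lemma continuousWithinAt_lg {y : ℝ → Fin d → ℝ} {s : Set ℝ} {t0 : ℝ}
    (hc : ContinuousWithinAt y s t0) (hpos : ∀ i, 0 < y t0 i) :
    ContinuousWithinAt (fun t => lg (y t)) s t0 := by
  unfold lg
  rw [continuousWithinAt_pi]
  intro i
  have : ContinuousWithinAt (fun t => y t i) s t0 :=
    (continuous_apply i).continuousAt.comp_continuousWithinAt hc
  exact this.log (hpos i).ne'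

/-- The polygon step in integral form. -/
lemma InG_step_var (N : Network d) {khi : ℝ} {Z : Finset (Fin d → ℝ)} (hZne : ∀ z ∈ Z, z ≠ 0)
    {x g : ℝ → Fin d → ℝ} {kk : ℝ → (Fin d → ℕ) × (Fin d → ℕ) → ℝ} {t0 t1 : ℝ} (ht : t0 < t1)
    (hc : ContinuousWithinAt x (Ici t0) t0)
    (hint : IntervalIntegrable g volume t0 t1)
    (hx : ∀ t ∈ Icc t0 t1, x t - x t0 = ∫ r in t0..t, g r)
    (hg : ∀ᶠ s in 𝓝[≥] t0, g s = N.field (kk s) (x s))
    (hkk : ∀ s, ∀ r ∈ N.reactions, 0 ≤ kk s r ∧ kk s r ≤ khi)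
    (hpos : ∀ i, 0 < x t0 i) {M0 r ς : ℝ} (hrς : r < ς) (hG : InG Z M0 (x t0))
    (hact : ∀ z ∈ Z, ∀ σ : ℝ, (∀ i, 0 < (x t0 + σ • z) i) → z ⬝ᵥ lg (x t0 + σ • z) = 0 →
      ent (x t0 + σ • z) = M0 → ∀ s, lg (x t0 + σ • z) ⬝ᵥ N.field (kk s) (x t0) ≤ -ς) :
    ∀ᶠ t in 𝓝[>] t0, InG Z (M0 - r * (t - t0)) (x t) := by
  unfold InG
  rw [Finset.eventually_all]
  intro z hz
  obtain ⟨σ, hbpos, hb0⟩ := exists_fibre_min' (x t0) z hpos (hZne z hz)
  have hyc : ContinuousWithinAt (fun t => x t + σ • z) (Ici t0) t0 := hc.add continuousWithinAt_const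
  have hle : ent (x t0 + σ • z) ≤ M0 := by
    rw [← dualT_lg_fibre hbpos hb0]
    exact hG z hz _ hb0
  have hmono : 𝓝[>] t0 ≤ 𝓝[≥] t0 := nhdsWithin_mono _ Ioi_subset_Ici_self
  have hev1 : ∀ᶠ t in 𝓝[>] t0, ∀ i, 0 < (x t + σ • z) i :=
    (eventually_pos_of_continuousWithinAt hyc hbpos).filter_mono hmono
  have hev2 : ∀ᶠ t in 𝓝[>] t0, ent (x t + σ • z) ≤ M0 - r * (t - t0) := by
    rcases hle.lt_or_eq with hlt | heq
    · have hcu : ContinuousWithinAt (fun t => ent (x t + σ • z) - (M0 - r * (t - t0))) (Ici t0) t0 := by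
        apply ContinuousWithinAt.sub
        · exact continuous_ent.continuousAt.comp_continuousWithinAt hyc
        · fun_prop
      have : ∀ᶠ t in 𝓝[≥] t0, ent (x t + σ • z) - (M0 - r * (t - t0)) < 0 :=
        hcu.eventually (Iio_mem_nhds (by simp; linarith))
      exact (this.filter_mono hmono).mono fun t ht => by linarith
    · obtain ⟨τ, hτ, ρ, hρ, hstep⟩ := lin_step N ht hc hint hx hg hkk
        (hact z hz σ hbpos hb0 heq) (η := ς - r) (by linarith)
      have hlgc := continuousWithinAt_lg hyc hbpos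
      have hev3 : ∀ᶠ t in 𝓝[>] t0, dist (lg (x t + σ • z)) (lg (x t0 + σ • z)) < ρ :=
        (hlgc.eventually (Metric.ball_mem_nhds _ hρ)).filter_mono hmono
      have hev4 : ∀ᶠ t in 𝓝[>] t0, t ∈ Ioo t0 (t0 + τ) := Ioo_mem_nhdsGT (by linarith)
      filter_upwards [hev1, hev3, hev4] with t h1 h3 h4
      have h5 := hstep t h4 _ h3
      have h6 := ent_le_add_dot (a := x t0 + σ • z) (c := x t + σ • z)
        (fun i => (hbpos i).le) h1
      have h7 : x t + σ • z - (x t0 + σ • z) = x t - x t0 := by abel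
      rw [h7, heq] at h6
      have h8 : (-ς + (ς - r)) * (t - t0) = -(r * (t - t0)) := by ring
      linarith
  filter_upwards [hev1, hev2] with t h1 h2 p hp
  rw [← dualT_add_smul hp (x t) σ]
  have := dualT_le_ent (fun i => (h1 i).le) p
  linarith

end Vale.Agent.P072
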