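import Vale.Agent.P072.VarAux

/-!
# Permanence for time-dependent rates when the stoichiometric subspace is two-dimensional
-/

namespace Vale.Agent.P072

open Finset Set Filter Topology MeasureTheory
open scoped NNReal

variable {d : ℕ}

/-- Standing data whose constants serve all rate vectors with values in `[ε, ε⁻¹]`. -/
lemma exists_setup_var (N : Network d) (hWR : N.WeaklyReversible)
    (h2 : Module.finrank ℝ N.stoich = 2) {ε : ℝ} (hε0 : 0 < ε) (hε1 : ε ≤ 1)
    (c : Fin d → ℝ) (hc : ∀ i, 0 < c i) :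
    ∃ A : Setup d, A.N = N ∧ A.c = c ∧
      ∀ κ : (Fin d → ℕ) × (Fin d → ℕ) → ℝ, (∀ r ∈ N.reactions, ε ≤ κ r ∧ κ r ≤ ε⁻¹) →
        A.Adm ε⁻¹ κ := by
  obtain ⟨A0, rfl, -, rfl⟩ := exists_setup N hWR h2 (fun _ => 1) (fun _ _ => one_pos) c hc
  have hinv : 0 < ε⁻¹ := inv_pos.mpr hε0
  have hεinv : ε ≤ ε⁻¹ := hε1.trans ((one_le_inv₀ hε0).mpr hε1)
  set Ksum : ℝ := A0.N.reactions.card * ε⁻¹ with hKsum
  have hKsum0 : 0 ≤ Ksum := by positivity
  have hZs := A0.hZs
  have hZZ : 0 ≤ 2 * A0.Zs * A0.Zs := by positivity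
  have hden : 0 < (2 * A0.Zs * A0.Zs) * Ksum + 1 := by positivity
  set θ := min (1 / 2) (ε / 2 / ((2 * A0.Zs * A0.Zs) * Ksum + 1)) with hθ
  have hθ0 : 0 < θ := by positivity
  have hθ1 : θ < 1 := lt_of_le_of_lt (min_le_left _ _) (by norm_num)
  have hsmall : θ * (2 * A0.Zs * A0.Zs) * Ksum ≤ ε / 2 := by
    have h1 : θ ≤ ε / 2 / ((2 * A0.Zs * A0.Zs) * Ksum + 1) := min_le_right _ _
    rw [le_div_iff₀ hden] at h1
    nlinarith
  have hsum : ∀ κ : (Fin d → ℕ) × (Fin d → ℕ) → ℝ, (∀ r ∈ A0.N.reactions, κ r ≤ ε⁻¹) →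
      θ * (2 * A0.Zs * A0.Zs) * (∑ r ∈ A0.N.reactions, κ r) ≤ ε / 2 := by
    intro κ hκ
    have h1 : ∑ r ∈ A0.N.reactions, κ r ≤ Ksum := by
      calc ∑ r ∈ A0.N.reactions, κ r ≤ ∑ _r ∈ A0.N.reactions, ε⁻¹ := Finset.sum_le_sum hκ
        _ = Ksum := by simp [hKsum]
    calc θ * (2 * A0.Zs * A0.Zs) * (∑ r ∈ A0.N.reactions, κ r)
        ≤ θ * (2 * A0.Zs * A0.Zs) * Ksum := mul_le_mul_of_nonneg_left h1 (by positivity)
      _ ≤ ε / 2 := hsmall
  refine ⟨{ A0 with
    k := fun _ => ε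
    klo := ε
    hklo := hε0
    hk := fun _ _ => le_rfl
    θ := θ
    hθ0 := hθ0
    hθ1 := hθ1
    hsmall := hsum _ (fun _ _ => hεinv) }, rfl, rfl, fun κ hκ => ?_⟩
  exact ⟨fun r hr => (hκ r hr).1, fun r hr => (hκ r hr).2, hsum κ fun r hr => (hκ r hr).2⟩

namespace Setup

variable {A : Setup d} {βlo βhi M1 ε cmin ε0 : ℝ}
  {k : ℝ → (Fin d → ℕ) × (Fin d → ℕ) → ℝ}

/-- The barrier lemma for true solutions with time-dependent rates. -/
lemma run_var (hC : A.Consts βlo βhi M1 ε cmin) (hε0 : 0 < ε0)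
    (hk : A.N.AdmissibleRates ε0 k) (hadm : ∀ s, A.Adm ε0⁻¹ (k s)) {x : ℝ → Fin d → ℝ}
    (hx : A.N.IsPosSolutionVar k x) (hx0 : x 0 - A.c ∈ A.N.stoich) {a b : ℝ} (ha : 0 ≤ a)
    (hab : a ≤ b)
    {Ma r1 ma r2 δa r3 e0 : ℝ} (he0 : 0 < e0) (he1 : e0 ≤ 1)
    (hM : ∀ t ∈ Icc a b, M1 ≤ Ma - r1 * (t - a))
    (hm : ∀ t ∈ Icc a b, ma + r2 * (t - a) ≤ ε / 2)
    (hδ : ∀ t ∈ Icc a b, e0 ≤ δa + r3 * (t - a) ∧ δa + r3 * (t - a) < cmin)
    (hr1 : r1 < A.κ * e0 ^ A.N.size) (hr2 : r2 < A.κ * e0 ^ A.N.size)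
    (hr3 : r3 < A.klo / 2 * e0 ^ A.N.size)
    (hedge : ∀ t ∈ Icc a b, ∀ y : Fin d → ℝ,
      A.InRegion ε (Ma - r1 * (t - a)) (ma + r2 * (t - a)) (δa + r3 * (t - a)) y →
      y - A.c ∈ A.N.stoich → ∀ i, y i = δa + r3 * (t - a) → A.Good i y)
    (h0 : A.InRegion ε Ma ma δa (x a)) :
    ∀ t ∈ Icc a b,
      A.InRegion ε (Ma - r1 * (t - a)) (ma + r2 * (t - a)) (δa + r3 * (t - a)) (x t) := by
  apply region_barrier_var hC x (fun s => A.N.field (k s) (x s)) k
    (hx.1.mono fun _ hs => ha.trans hs.1)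
    (IsPosSolutionVar.intervalIntegrable hk hε0 hx ha hab)
    (fun s hs t _ hst => IsPosSolutionVar.sub_eq hk hε0 hx (ha.trans hs.1) hst)
    (fun t ht => IsPosSolutionVar.stays hk hε0 hx hx0 (ha.trans ht.1))
    hadm he0 he1 hM hm hδ hr1 hr2 hr3 hedge isOpen_univ (fun _ _ _ _ _ => mem_univ _)
    (fun _ _ _ => rfl) h0

/-- Global existence of positive solutions for time-dependent rates. -/
lemma exists_posSolution_var (hC : A.Consts βlo βhi M1 ε cmin) (hcmin : 0 < cmin)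
    (hε0 : 0 < ε0) (hk : A.N.AdmissibleRates ε0 k) (hadm : ∀ s, A.Adm ε0⁻¹ (k s))
    {x₀ : Fin d → ℝ} (hx₀ : ∀ i, 0 < x₀ i) (hx₀S : x₀ - A.c ∈ A.N.stoich) :
    ∃ x : ℝ → Fin d → ℝ, A.N.IsPosSolutionVar k x ∧ x 0 = x₀ := by
  obtain ⟨M0, m0, δ0, hM0, hm0, hm0', hδ0, hδ01, hδ0c, -, hreg0, hedge⟩ :=
    exists_levels hC hcmin one_pos hx₀ hx₀S
  obtain ⟨B, hB⟩ := A.InG_bounded M0
  set R := max B 0 with hR
  have hR0 : 0 ≤ R := le_max_right _ _
  have hinv : 0 < ε0⁻¹ := inv_pos.mpr hε0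
  let χ : ContDiffBump (0 : Fin d → ℝ) := ⟨R + 1, R + 2, by linarith, by linarith⟩
  -- the building blocks of the cut-off field
  let G : (Fin d → ℕ) × (Fin d → ℕ) → (Fin d → ℝ) → (Fin d → ℝ) :=
    fun r x => (χ x * monomial x r.1) • reactionVector r
  have hGsupp : ∀ r, HasCompactSupport (G r) := by
    intro r
    have h1 : HasCompactSupport (fun x => χ x * monomial x r.1) :=
      χ.hasCompactSupport.mul_right
    exact h1.smul_right
  have hGcd : ∀ r, ContDiff ℝ 1 (G r) := by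
    intro r
    have h1 : ContDiff ℝ 1 (fun x : Fin d → ℝ => monomial x r.1) := by
      unfold monomial; fun_prop
    exact ((χ.contDiff (n := 1)).mul h1).smul contDiff_const
  have hGL : ∀ r, ∃ K : ℝ≥0, LipschitzWith K (G r) := fun r =>
    (hGcd r).lipschitzWith_of_hasCompactSupport (hGsupp r) one_ne_zero
  have hGB : ∀ r, ∃ C : ℝ, ∀ x, ‖G r x‖ ≤ C := fun r =>
    (hGsupp r).exists_bound_of_continuous (hGcd r).continuous
  choose KG hKG using hGL
  choose CG hCG using hGB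
  let g : ℝ → (Fin d → ℝ) → (Fin d → ℝ) := fun t x => ∑ r ∈ A.N.reactions, k t r • G r x
  have hgfield : ∀ t x, g t x = χ x • A.N.field (k t) x := by
    intro t x
    simp only [g, G, Network.field, Finset.smul_sum, smul_smul]
    apply Finset.sum_congr rfl
    intro r _
    congr 1; ring
  have hkabs : ∀ t, ∀ r ∈ A.N.reactions, |k t r| ≤ ε0⁻¹ := by
    intro t r hr
    obtain ⟨h1, h2⟩ := hk.2 t r hr
    rw [abs_of_nonneg (hε0.le.trans h1)]; exact h2
  set KK : ℝ≥0 := ∑ r ∈ A.N.reactions, (Real.toNNReal ε0⁻¹) * KG r with hKK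
  have hLip : ∀ t, LipschitzWith KK (g t) := by
    intro t
    apply LipschitzWith.of_dist_le_mul
    intro x y
    simp only [g, dist_eq_norm, ← Finset.sum_sub_distrib, ← smul_sub]
    calc ‖∑ r ∈ A.N.reactions, k t r • (G r x - G r y)‖
        ≤ ∑ r ∈ A.N.reactions, ‖k t r • (G r x - G r y)‖ := norm_sum_le _ _
      _ ≤ ∑ r ∈ A.N.reactions, ε0⁻¹ * (KG r * ‖x - y‖) := by
          apply Finset.sum_le_sum
          intro r hr
          rw [norm_smul, Real.norm_eq_abs]
          apply mul_le_mul (hkabs t r hr) _ (norm_nonneg _) hinv.le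
          have := (hKG r).dist_le_mul x y
          simpa [dist_eq_norm] using this
      _ = (KK : ℝ) * ‖x - y‖ := by
          rw [hKK]
          push_cast
          rw [Finset.sum_mul]
          apply Finset.sum_congr rfl
          intro r _
          rw [Real.coe_toNNReal _ hinv.le]; ring
  set MM : ℝ := ∑ r ∈ A.N.reactions, ε0⁻¹ * |CG r| with hMM
  have hMMbd : ∀ t x, ‖g t x‖ ≤ (Real.toNNReal MM : ℝ≥0) := by
    intro t x
    refine le_trans ?_ (Real.le_coe_toNNReal MM)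
    calc ‖g t x‖ ≤ ∑ r ∈ A.N.reactions, ‖k t r • G r x‖ := norm_sum_le _ _
      _ ≤ MM := by
          apply Finset.sum_le_sum
          intro r hr
          rw [norm_smul, Real.norm_eq_abs]
          exact mul_le_mul (hkabs t r hr) ((hCG r x).trans (le_abs_self _)) (norm_nonneg _)
            hinv.le
  have hmeas : ∀ α : ℝ → Fin d → ℝ, Continuous α →
      AEStronglyMeasurable (fun t => g t (α t)) volume := by
    intro α hα
    have : (fun t => g t (α t)) = ∑ r ∈ A.N.reactions, fun t => k t r • G r (α t) := by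
      ext t; simp [g]
    rw [this]
    apply Finset.aestronglyMeasurable_sum
    intro r _
    exact (hk.1 r).aestronglyMeasurable.smul
      (((hGcd r).continuous.comp hα).aestronglyMeasurable)
  obtain ⟨α, hαc, hα0, hα⟩ := exists_caratheodory_solution g KK (Real.toNNReal MM) hLip hMMbd
    hmeas x₀
  -- integrability of the right-hand side along the solution
  have hint : ∀ a b : ℝ, IntervalIntegrable (fun s => g s (α s)) volume a b := by
    intro a b
    have hc : IntervalIntegrable (fun _ : ℝ => ((Real.toNNReal MM : ℝ≥0) : ℝ)) volume a b :=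
      intervalIntegrable_const
    exact hc.mono_fun' (hmeas α hαc).restrict (Eventually.of_forall fun s => hMMbd s (α s))
  have hsub : ∀ s t : ℝ, 0 ≤ s → s ≤ t → α t - α s = ∫ r in s..t, g r (α r) := by
    intro s t hs hst
    rw [← intervalIntegral.integral_interval_sub_left (hint 0 t) (hint 0 s),
      hα t (hs.trans hst)]
    conv_lhs => rw [hα s hs]
    abel
  have hS : ∀ t, 0 ≤ t → α t - A.c ∈ A.N.stoich := by
    intro t ht
    have h1 := hsub 0 t le_rfl ht
    have h2 := integral_mem_stoich A.N (hint 0 t) (fun s => by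
      rw [hgfield]
      exact A.N.stoich.smul_mem _ (field_mem_stoich A.N (k s) (α s)))
    rw [← h1, hα0] at h2
    have : α t - A.c = (α t - x₀) + (x₀ - A.c) := by abel
    rw [this]
    exact A.N.stoich.add_mem h2 hx₀S
  have hχ : ∀ y ∈ Metric.ball (0 : Fin d → ℝ) (R + 1), χ y = 1 := by
    intro y hy
    exact χ.one_of_mem_closedBall (Metric.ball_subset_closedBall hy)
  have hin : ∀ t, 0 ≤ t → A.InRegion ε M0 m0 δ0 (α t) := by
    intro t ht
    have hκ : 0 < A.κ * δ0 ^ A.N.size := mul_pos A.κ_pos (pow_pos hδ0 _)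
    have hκ' : 0 < A.klo / 2 * δ0 ^ A.N.size := mul_pos (half_pos A.hklo) (pow_pos hδ0 _)
    have := region_barrier_var hC α (fun s => g s (α s)) k (a := 0) (b := t)
      hαc.continuousOn (hint 0 t) (fun s hs t' _ hst => hsub s t' hs.1 hst)
      (fun s hs => hS s hs.1) hadm
      (Ma := M0) (r1 := 0) (ma := m0) (r2 := 0) (δa := δ0) (r3 := 0) (e0 := δ0) hδ0 hδ01
      (by intro s _; simpa using hM0) (by intro s _; simpa using hm0')
      (by intro s _; simpa using hδ0c) hκ hκ hκ' ?_ (O := Metric.ball 0 (R + 1))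
      Metric.isOpen_ball ?_ ?_ (by rw [hα0]; exact hreg0) t ⟨ht, le_rfl⟩
    · simpa using this
    · intro s _ y hy hyS i hi
      simp only [zero_mul, sub_zero, add_zero] at hy hi
      exact hedge M0 m0 δ0 y le_rfl le_rfl hδ0 hy hyS i hi.le
    · intro s _ y hy hyS
      simp only [zero_mul, sub_zero, add_zero] at hy
      rw [mem_ball_zero_iff]
      have h1 : ‖y‖ ≤ R := by
        rw [pi_norm_le_iff_of_nonneg hR0]
        intro i
        rw [Real.norm_eq_abs]
        exact (hB y hyS hy.U i).trans (le_max_left _ _)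
      linarith
    · intro s _ hs
      show g s (α s) = _
      rw [hgfield, hχ _ hs, one_smul]
  have hball : ∀ t, 0 ≤ t → α t ∈ Metric.ball (0 : Fin d → ℝ) (R + 1) := by
    intro t ht
    rw [mem_ball_zero_iff]
    have h1 : ‖α t‖ ≤ R := by
      rw [pi_norm_le_iff_of_nonneg hR0]
      intro i
      rw [Real.norm_eq_abs]
      exact (hB _ (hS t ht) (hin t ht).U i).trans (le_max_left _ _)
    linarith
  refine ⟨α, ⟨hαc.continuousOn, fun t ht i => lt_of_lt_of_le hδ0 ((hin t ht).D i), ?_⟩, hα0⟩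
  intro t ht
  rw [hα t ht, hα0]
  congr 1
  apply intervalIntegral.integral_congr
  intro s hs
  rw [uIcc_of_le ht] at hs
  show g s (α s) = _
  rw [hgfield, hχ _ (hball s hs.1), one_smul]

/-- Every positive solution in the class eventually enters the final region. -/
lemma eventually_inRegion_var (hC : A.Consts βlo βhi M1 ε cmin) (hcmin : 0 < cmin)
    (hε0 : 0 < ε0) (hk : A.N.AdmissibleRates ε0 k) (hadm : ∀ s, A.Adm ε0⁻¹ (k s)) {δfin : ℝ}
    (hδfin0 : 0 < δfin) (hδfin1 : δfin ≤ 1) (hδfinc : δfin < cmin)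
    (hedgefin : ∀ (M' m' δ' : ℝ) (y : Fin d → ℝ), M' ≤ M1 → ε / 2 ≤ m' → 0 < δ' →
        A.InRegion ε M' m' δ' y → y - A.c ∈ A.N.stoich → ∀ i, y i ≤ δfin → A.Good i y)
    {x : ℝ → Fin d → ℝ} (hx : A.N.IsPosSolutionVar k x) (hx0S : x 0 - A.c ∈ A.N.stoich) :
    ∃ T, ∀ t, T ≤ t → A.InRegion ε M1 (ε / 2) δfin (x t) := by
  obtain ⟨M0, m0, δ0, hM0, hm0, hm0', hδ0, hδ01, hδ0c, hδ0fin, hreg0, hedge⟩ :=
    exists_levels hC hcmin hδfin0 (hx.2.1 0 le_rfl) hx0S
  set ς1 := A.κ * δ0 ^ A.N.size with hς1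
  have hς1pos : 0 < ς1 := mul_pos A.κ_pos (pow_pos hδ0 _)
  set ς3 := A.klo / 2 * δ0 ^ A.N.size with hς3
  have hς3pos : 0 < ς3 := mul_pos (half_pos A.hklo) (pow_pos hδ0 _)
  -- stage one
  set T1 := ((M0 - M1) + (ε / 2 - m0)) / ς1 + 1 with hT1
  have hA1 : 0 ≤ M0 - M1 := by linarith
  have hA2 : 0 ≤ ε / 2 - m0 := by linarith
  have hT1pos : 0 < T1 := by positivity
  have hT1ς : (M0 - M1) + (ε / 2 - m0) < ς1 * T1 := by
    rw [hT1, mul_add, mul_div_cancel₀ _ hς1pos.ne']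
    linarith
  have frac : ∀ (D L t : ℝ), 0 ≤ D → 0 < L → 0 ≤ t → t ≤ L → 0 ≤ D / L * t ∧ D / L * t ≤ D := by
    intro D L t hD hL ht htL
    constructor
    · exact mul_nonneg (div_nonneg hD hL.le) ht
    · rw [div_mul_eq_mul_div, div_le_iff₀ hL]
      exact mul_le_mul_of_nonneg_left htL hD
  have stage1 := run_var hC hε0 hk hadm hx hx0S (a := 0) (b := T1) le_rfl hT1pos.le
    (Ma := M0) (r1 := (M0 - M1) / T1) (ma := m0) (r2 := (ε / 2 - m0) / T1) (δa := δ0) (r3 := 0)
    (e0 := δ0) hδ0 hδ01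
    (by
      intro t ht
      have := (frac (M0 - M1) T1 (t - 0) hA1 hT1pos (by linarith [ht.1]) (by linarith [ht.2])).2
      linarith)
    (by
      intro t ht
      have := (frac (ε / 2 - m0) T1 (t - 0) hA2 hT1pos (by linarith [ht.1])
        (by linarith [ht.2])).2
      linarith)
    (by intro t _; simpa using hδ0c)
    (by rw [div_lt_iff₀ hT1pos]; linarith)
    (by rw [div_lt_iff₀ hT1pos]; linarith)
    hς3pos
    (by
      intro t ht y hy hyS i hi
      have h1 := (frac (M0 - M1) T1 (t - 0) hA1 hT1pos (by linarith [ht.1])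
        (by linarith [ht.2])).1
      have h2 := (frac (ε / 2 - m0) T1 (t - 0) hA2 hT1pos (by linarith [ht.1])
        (by linarith [ht.2])).1
      refine hedge _ _ _ y (by linarith) (by linarith) ?_ hy hyS i ?_
      · simpa using hδ0
      · rw [hi]; simp)
    hreg0
  have hregT1 : A.InRegion ε M1 (ε / 2) δ0 (x T1) := by
    have := stage1 T1 ⟨hT1pos.le, le_rfl⟩
    have e1 : M0 - (M0 - M1) / T1 * (T1 - 0) = M1 := by field_simp; ring
    have e2 : m0 + (ε / 2 - m0) / T1 * (T1 - 0) = ε / 2 := by field_simp; ring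
    have e3 : δ0 + 0 * (T1 - 0) = δ0 := by ring
    rwa [e1, e2, e3] at this
  -- stage two
  set L2 := (δfin - δ0) / ς3 + 1 with hL2
  have hA3 : 0 ≤ δfin - δ0 := by linarith
  have hL2pos : 0 < L2 := by positivity
  have hL2ς : δfin - δ0 < ς3 * L2 := by
    rw [hL2, mul_add, mul_div_cancel₀ _ hς3pos.ne']
    linarith
  have hε := hC.hε
  have stage2 := run_var hC hε0 hk hadm hx hx0S (a := T1) (b := T1 + L2) hT1pos.le
    (by linarith)
    (Ma := M1) (r1 := 0) (ma := ε / 2) (r2 := 0) (δa := δ0) (r3 := (δfin - δ0) / L2)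
    (e0 := δ0) hδ0 hδ01
    (by intro t _; simp)
    (by intro t _; simp)
    (by
      intro t ht
      have := frac (δfin - δ0) L2 (t - T1) hA3 hL2pos (by linarith [ht.1]) (by linarith [ht.2])
      exact ⟨by linarith [this.1], by linarith [this.2]⟩)
    hς1pos hς1pos
    (by rw [div_lt_iff₀ hL2pos]; exact hL2ς)
    (by
      intro t ht y hy hyS i hi
      have := frac (δfin - δ0) L2 (t - T1) hA3 hL2pos (by linarith [ht.1]) (by linarith [ht.2])
      refine hedgefin _ _ _ y (by simp) (by simp) ?_ hy hyS i ?_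
      · linarith [this.1]
      · rw [hi]; linarith [this.2])
    hregT1
  have hregT2 : A.InRegion ε M1 (ε / 2) δfin (x (T1 + L2)) := by
    have := stage2 (T1 + L2) ⟨by linarith, le_rfl⟩
    have e1 : M1 - 0 * (T1 + L2 - T1) = M1 := by ring
    have e2 : ε / 2 + 0 * (T1 + L2 - T1) = ε / 2 := by ring
    have e3 : δ0 + (δfin - δ0) / L2 * (T1 + L2 - T1) = δfin := by field_simp; ring
    rwa [e1, e2, e3] at this
  -- stage three
  refine ⟨T1 + L2, fun t ht => ?_⟩
  have hκ : 0 < A.κ * δfin ^ A.N.size := mul_pos A.κ_pos (pow_pos hδfin0 _)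
  have hκ' : 0 < A.klo / 2 * δfin ^ A.N.size := mul_pos (half_pos A.hklo) (pow_pos hδfin0 _)
  have stage3 := run_var hC hε0 hk hadm hx hx0S (a := T1 + L2) (b := t) (by linarith) ht
    (Ma := M1) (r1 := 0) (ma := ε / 2) (r2 := 0) (δa := δfin) (r3 := 0)
    (e0 := δfin) hδfin0 hδfin1
    (by intro t _; simp)
    (by intro t _; simp)
    (by intro t _; simpa using hδfinc)
    hκ hκ hκ'
    (by
      intro s _ y hy hyS i hi
      refine hedgefin _ _ _ y (by simp) (by simp) ?_ hy hyS i ?_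
      · simpa using hδfin0
      · rw [hi]; simp)
    hregT2 t ⟨ht, le_rfl⟩
  simpa using stage3

variable (A)

/-- **Permanence, uniformly in the time-dependent rates**, for the data of a `Setup`. -/
theorem permanent_var (hε0 : 0 < ε0)
    (hall : ∀ κ : (Fin d → ℕ) × (Fin d → ℕ) → ℝ,
      (∀ r ∈ A.N.reactions, ε0 ≤ κ r ∧ κ r ≤ ε0⁻¹) → A.Adm ε0⁻¹ κ) :
    A.N.PermanentOnVar ε0 (A.N.posClass A.c) := by
  obtain ⟨βlo, βhi, M1, ε, cmin, hcmin, hC⟩ := A.exists_consts
  have hε := hC.hε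
  obtain ⟨δe, hδe, hedge⟩ := A.edge_hyp hε M1 (half_pos hε)
  set δfin := min δe (min (cmin / 2) 1) with hδfin
  have hδfin0 : 0 < δfin := by positivity
  have hδfin1 : δfin ≤ 1 := (min_le_right _ _).trans (min_le_right _ _)
  have hδfinc : δfin < cmin := by
    have : δfin ≤ cmin / 2 := (min_le_right _ _).trans (min_le_left _ _)
    linarith
  obtain ⟨B, hB⟩ := A.InG_bounded M1
  refine ⟨{x | A.InRegion ε M1 (ε / 2) δfin x} ∩ {x | x - A.c ∈ A.N.stoich}, ?_, ?_, ?_⟩
  · apply IsCompact.of_isClosed_subset (isCompact_Icc (a := fun _ : Fin d => -B)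
      (b := fun _ => B))
    · apply IsClosed.inter
      · have := A.isClosed_region ε (Mf := fun _ => M1) (mf := fun _ => ε / 2)
          (δf := fun _ => δfin) continuous_const continuous_const continuous_const
        exact this.preimage (f := fun x : Fin d → ℝ => (x, (0 : ℝ))) (by fun_prop)
      · have : IsClosed (A.N.stoich : Set (Fin d → ℝ)) :=
          Submodule.closed_of_finiteDimensional _
        exact this.preimage (continuous_id.sub continuous_const)
    · rintro x ⟨hx, hxS⟩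
      exact ⟨fun i => (abs_le.mp (hB x hxS hx.U i)).1, fun i => (abs_le.mp (hB x hxS hx.U i)).2⟩
  · rintro x ⟨hx, hxS⟩
    exact ⟨fun i => lt_of_lt_of_le hδfin0 (hx.D i), hxS⟩
  · intro k hk
    have hadm : ∀ s, A.Adm ε0⁻¹ (k s) := fun s => hall (k s) (hk.2 s)
    constructor
    · intro x₀ hx₀
      exact exists_posSolution_var hC hcmin hε0 hk hadm hx₀.1 hx₀.2
    · intro x hx hx0
      obtain ⟨T, hT⟩ := eventually_inRegion_var hC hcmin hε0 hk hadm hδfin0 hδfin1 hδfinc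
        (fun M' m' δ' y h1 h2 h3 h4 h5 i hi =>
          hedge M' m' δ' y h1 h2 h3 h4 h5 i (hi.trans (min_le_left _ _))) hx hx0.2
      exact ⟨max T 0, fun t ht =>
        ⟨hT t ((le_max_left _ _).trans ht),
          IsPosSolutionVar.stays hk hε0 hx hx0.2 ((le_max_right _ _).trans ht)⟩⟩

end Setup

/-- **Permanence of weakly reversible mass-action systems with `dim S = 2`, for measurable
time-dependent rates with values in `[ε, ε⁻¹]`.** -/
theorem permanentVar_of_finrank_two {d : ℕ} (N : Network d) (hWR : N.WeaklyReversible)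
    (h2 : Module.finrank ℝ N.stoich = 2) {ε : ℝ} (hε0 : 0 < ε) (hε1 : ε ≤ 1)
    (c : Fin d → ℝ) (hc : ∀ i, 0 < c i) :
    N.PermanentOnVar ε (N.posClass c) := by
  obtain ⟨A, rfl, rfl, hall⟩ := exists_setup_var N hWR h2 hε0 hε1 c hc
  exact A.permanent_var hε0 hall

end Vale.Agent.P072
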