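import Vale.Agent.P072.Setup
import Vale.Agent.P072.Sub.Fibre
import Vale.Agent.P072.Sub.VertexEnt

/-!
# Vertices of the closed stoichiometric class
-/

namespace Vale.Agent.P072

open Finset

namespace Setup

variable {d : ℕ} (A : Setup d)

/-- `w` is the vertex of the closed class at which the coordinates `i, j` vanish. -/
def IsVertex (w : Fin d → ℝ) (i j : Fin d) : Prop :=
  w - A.c ∈ A.N.stoich ∧ (∀ k, 0 ≤ w k) ∧ w i = 0 ∧ w j = 0 ∧ Inj2 A.N.stoich i j

/-- Some direction of `Z` trades species `j` for species `i`. -/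
def Corner (i j : Fin d) : Prop := ∃ z ∈ A.Z, 0 < z i ∧ z j < 0

variable {A}

lemma IsVertex.unique {w w' : Fin d → ℝ} {i j : Fin d} (h : A.IsVertex w i j)
    (h' : A.IsVertex w' i j) : w = w' := by
  obtain ⟨hS, _, hi, hj, hinj⟩ := h
  obtain ⟨hS', _, hi', hj', _⟩ := h'
  have hmem : w - w' ∈ A.N.stoich := by
    have : w - w' = (w - A.c) - (w' - A.c) := by abel
    rw [this]; exact A.N.stoich.sub_mem hS hS'
  have := hinj _ hmem (by simp [hi, hi']) (by simp [hj, hj'])
  exact sub_eq_zero.mp this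

lemma Corner.ne {i j : Fin d} (h : A.Corner i j) : i ≠ j := by
  obtain ⟨z, _, h1, h2⟩ := h
  rintro rfl
  linarith

variable (A)

/-- The basis `v1, v2` is seen by every separating pair of coordinates. -/
lemma om_ne_zero_of_inj2 {i j : Fin d} (h : Inj2 A.N.stoich i j) : om i j A.v1 A.v2 ≠ 0 := by
  intro h0
  have hD := A.hv
  have key : ∀ a b : ℝ, (a * A.v1 i - b * A.v2 i = 0) → (a * A.v1 j - b * A.v2 j = 0) →
      a = 0 ∧ b = 0 := by
    intro a b hi hj
    have hmem : a • A.v1 - b • A.v2 ∈ A.N.stoich :=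
      A.N.stoich.sub_mem (A.N.stoich.smul_mem _ A.hv1) (A.N.stoich.smul_mem _ A.hv2)
    have hz := h _ hmem (by simpa using hi) (by simpa using hj)
    have e1 := congrFun hz A.i0
    have e2 := congrFun hz A.j0
    simp only [Pi.sub_apply, Pi.smul_apply, smul_eq_mul, Pi.zero_apply] at e1 e2
    unfold om at hD
    constructor
    · have : a * (A.v1 A.i0 * A.v2 A.j0 - A.v1 A.j0 * A.v2 A.i0) = 0 := by
        linear_combination A.v2 A.j0 * e1 - A.v2 A.i0 * e2
      rcases mul_eq_zero.mp this with h1 | h1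
      · exact h1
      · exact absurd h1 hD
    · have : b * (A.v1 A.i0 * A.v2 A.j0 - A.v1 A.j0 * A.v2 A.i0) = 0 := by
        linear_combination A.v1 A.j0 * e1 - A.v1 A.i0 * e2
      rcases mul_eq_zero.mp this with h1 | h1
      · exact h1
      · exact absurd h1 hD
  unfold om at h0
  obtain ⟨a1, a2⟩ := key (A.v2 i) (A.v1 i) (by ring) (by linarith)
  obtain ⟨b1, b2⟩ := key (A.v2 j) (A.v1 j) (by linarith) (by ring)
  have : A.v1 = 0 := h _ A.hv1 a2 b2
  apply hD
  unfold om
  rw [this]; simp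

lemma norm_bound_of_inj2 {i j : Fin d} (h : Inj2 A.N.stoich i j) :
    ∃ C : ℝ, 0 < C ∧ ∀ u ∈ A.N.stoich, ∀ k, |u k| ≤ C * (|u i| + |u j|) := by
  have hD := A.om_ne_zero_of_inj2 h
  set D := om i j A.v1 A.v2 with hDdef
  have hDpos : 0 < |D| := abs_pos.mpr hD
  set M : ℝ := ∑ k, (|A.v1 k| + |A.v2 k|) with hM
  have hM0 : 0 ≤ M := Finset.sum_nonneg fun k _ => by positivity
  have hle : ∀ k, |A.v1 k| + |A.v2 k| ≤ M := fun k =>
    Finset.single_le_sum (f := fun k => |A.v1 k| + |A.v2 k|) (fun k _ => by positivity)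
      (Finset.mem_univ k)
  have h1 : ∀ k, |A.v1 k| ≤ M := fun k => by linarith [hle k, abs_nonneg (A.v2 k)]
  have h2 : ∀ k, |A.v2 k| ≤ M := fun k => by linarith [hle k, abs_nonneg (A.v1 k)]
  refine ⟨2 * M * M / |D| + 1, by positivity, ?_⟩
  intro u hu k
  set ν := |u i| + |u j| with hν
  have hν0 : 0 ≤ ν := by positivity
  have hp := plucker_apply h hu A.hv1 A.hv2 k
  have b1 : |om i j u A.v2| ≤ ν * M := by
    unfold om
    calc |u i * A.v2 j - u j * A.v2 i| ≤ |u i * A.v2 j| + |u j * A.v2 i| := abs_sub _ _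
      _ = |u i| * |A.v2 j| + |u j| * |A.v2 i| := by rw [abs_mul, abs_mul]
      _ ≤ |u i| * M + |u j| * M := by
          gcongr
          · exact h2 j
          · exact h2 i
      _ = ν * M := by rw [hν]; ring
  have b2 : |om i j A.v1 u| ≤ ν * M := by
    unfold om
    calc |A.v1 i * u j - A.v1 j * u i| ≤ |A.v1 i * u j| + |A.v1 j * u i| := abs_sub _ _
      _ = |u j| * |A.v1 i| + |u i| * |A.v1 j| := by rw [abs_mul, abs_mul]; ring
      _ ≤ |u j| * M + |u i| * M := by
          gcongr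
          · exact h1 i
          · exact h1 j
      _ = ν * M := by rw [hν]; ring
  have hνM : 0 ≤ ν * M := mul_nonneg hν0 hM0
  have b3 : |D| * |u k| ≤ 2 * M * M * ν := by
    rw [← abs_mul, hp]
    calc |om i j u A.v2 * A.v1 k + om i j A.v1 u * A.v2 k|
        ≤ |om i j u A.v2 * A.v1 k| + |om i j A.v1 u * A.v2 k| := abs_add_le _ _
      _ = |om i j u A.v2| * |A.v1 k| + |om i j A.v1 u| * |A.v2 k| := by rw [abs_mul, abs_mul]
      _ ≤ (ν * M) * M + (ν * M) * M := by
          apply add_le_add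
          · exact mul_le_mul b1 (h1 k) (abs_nonneg _) hνM
          · exact mul_le_mul b2 (h2 k) (abs_nonneg _) hνM
      _ = 2 * M * M * ν := by ring
  have b4 : |u k| ≤ 2 * M * M / |D| * ν := by
    rw [div_mul_eq_mul_div, le_div_iff₀ hDpos]
    linarith
  linarith

lemma vertex_or_far {i j : Fin d} (hcor : A.Corner i j) :
    (∃ η : ℝ, 0 < η ∧ ∀ x : Fin d → ℝ, (∀ k, 0 < x k) → x - A.c ∈ A.N.stoich → η ≤ x i + x j) ∨
      ∃ w, A.IsVertex w i j := by
  obtain ⟨z, hzZ, hzi, hzj⟩ := hcor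
  have hzS := A.hZS z hzZ
  by_cases hinj : Inj2 A.N.stoich i j
  · -- the candidate vertex
    have hD := A.om_ne_zero_of_inj2 hinj
    set D := om i j A.v1 A.v2 with hDdef
    set us : Fin d → ℝ := (om i j A.c A.v2 / D) • A.v1 + (om i j A.v1 A.c / D) • A.v2 with hus
    have husS : us ∈ A.N.stoich :=
      A.N.stoich.add_mem (A.N.stoich.smul_mem _ A.hv1) (A.N.stoich.smul_mem _ A.hv2)
    have husi : us i = A.c i := by
      simp only [hus, Pi.add_apply, Pi.smul_apply, smul_eq_mul]
      field_simp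
      rw [hDdef]; unfold om; ring
    have husj : us j = A.c j := by
      simp only [hus, Pi.add_apply, Pi.smul_apply, smul_eq_mul]
      field_simp
      rw [hDdef]; unfold om; ring
    set w : Fin d → ℝ := A.c - us with hw
    have hwS : w - A.c ∈ A.N.stoich := by
      have : w - A.c = -us := by rw [hw]; abel
      rw [this]; exact A.N.stoich.neg_mem husS
    have hwi : w i = 0 := by simp [hw, husi]
    have hwj : w j = 0 := by simp [hw, husj]
    by_cases hpos : ∀ k, 0 ≤ w k
    · exact Or.inr ⟨w, hwS, hpos, hwi, hwj, hinj⟩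
    · left
      push Not at hpos
      obtain ⟨k, hk⟩ := hpos
      obtain ⟨C, hC0, hC⟩ := A.norm_bound_of_inj2 hinj
      refine ⟨-w k / C, div_pos (by linarith) hC0, ?_⟩
      intro x hx hxS
      have hmem : x - w ∈ A.N.stoich := by
        have : x - w = (x - A.c) - (w - A.c) := by abel
        rw [this]; exact A.N.stoich.sub_mem hxS hwS
      have hb := hC _ hmem k
      simp only [Pi.sub_apply, hwi, hwj, sub_zero] at hb
      rw [abs_of_pos (hx i), abs_of_pos (hx j)] at hb
      rw [div_le_iff₀ hC0]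
      have := le_abs_self (x k - w k)
      have := hx k
      linarith
  · left
    unfold Inj2 at hinj
    push Not at hinj
    obtain ⟨u, huS, hui, huj, hune⟩ := hinj
    have hom : om A.i0 A.j0 u z ≠ 0 := by
      intro h0
      unfold om at h0
      have p1 : z A.i0 • u - u A.i0 • z = 0 := by
        apply A.hinj _ (A.N.stoich.sub_mem (A.N.stoich.smul_mem _ huS)
          (A.N.stoich.smul_mem _ hzS))
        · simp only [Pi.sub_apply, Pi.smul_apply, smul_eq_mul]; ring
        · simp only [Pi.sub_apply, Pi.smul_apply, smul_eq_mul]; linarith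
      have p2 : z A.j0 • u - u A.j0 • z = 0 := by
        apply A.hinj _ (A.N.stoich.sub_mem (A.N.stoich.smul_mem _ huS)
          (A.N.stoich.smul_mem _ hzS))
        · simp only [Pi.sub_apply, Pi.smul_apply, smul_eq_mul]; linarith
        · simp only [Pi.sub_apply, Pi.smul_apply, smul_eq_mul]; ring
      have e1 := congrFun p1 i
      have e2 := congrFun p2 i
      simp only [Pi.sub_apply, Pi.smul_apply, smul_eq_mul, Pi.zero_apply, hui, mul_zero,
        zero_sub, neg_eq_zero] at e1 e2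
      have f1 : u A.i0 = 0 := by
        rcases mul_eq_zero.mp e1 with h1 | h1
        · exact h1
        · linarith
      have f2 : u A.j0 = 0 := by
        rcases mul_eq_zero.mp e2 with h1 | h1
        · exact h1
        · linarith
      exact hune (A.hinj u huS f1 f2)
    have hlin : ∀ s ∈ A.N.stoich, s i * z j - s j * z i = 0 := by
      intro s hs
      have hp := plucker A.hinj hs huS hzS
      have e1 := congrFun hp i
      have e2 := congrFun hp j
      simp only [Pi.add_apply, Pi.smul_apply, smul_eq_mul, Pi.zero_apply, hui, huj, mul_zero,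
        add_zero] at e1 e2
      have : om A.i0 A.j0 u z * (s i * z j - s j * z i) = 0 := by
        linear_combination z j * e1 - z i * e2
      rcases mul_eq_zero.mp this with h1 | h1
      · exact absurd h1 hom
      · exact h1
    have hci := A.hc i
    have hcj := A.hc j
    have hden : 0 < z i - z j := by linarith
    have hK : 0 < A.c i * (-z j) + A.c j * z i := by
      have := mul_pos hci (neg_pos.mpr hzj)
      have := mul_pos hcj hzi
      linarith
    refine ⟨(A.c i * (-z j) + A.c j * z i) / (z i - z j), div_pos hK hden, ?_⟩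
    intro x hx hxS
    have h1 := hlin _ hxS
    simp only [Pi.sub_apply] at h1
    rw [div_le_iff₀ hden]
    have a1 := mul_pos (hx i) hzi
    have a2 := mul_pos (hx j) (neg_pos.mpr hzj)
    nlinarith

lemma vertex_drop {i j : Fin d} {w : Fin d → ℝ} (hcor : A.Corner i j) (hw : A.IsVertex w i j) :
    ∃ ε : ℝ, 0 < ε ∧ ∀ x : Fin d → ℝ, (∀ k, 0 < x k) → x - A.c ∈ A.N.stoich → x i + x j ≤ ε →
      ent x ≤ ent w - (x i + x j) := by
  obtain ⟨hS, h0, hi, hj, hinj⟩ := hw
  obtain ⟨C, _, hC⟩ := A.norm_bound_of_inj2 hinj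
  obtain ⟨ε, hε, h⟩ := vertex_ent_le A.N.stoich A.c w i j hcor.ne C hC hS h0 hi hj
  exact ⟨ε, hε, h⟩

lemma vertex_near {i j : Fin d} {w : Fin d → ℝ} (hcor : A.Corner i j) (hw : A.IsVertex w i j)
    {m : ℝ} (hm : 0 < m) :
    ∃ ε' : ℝ, 0 < ε' ∧ ∀ x : Fin d → ℝ, (∀ k, 0 < x k) → x - A.c ∈ A.N.stoich → x i + x j < ε' →
      ¬ InG A.Z (ent w - m) x := by
  obtain ⟨hS, h0, hi, hj, hinj⟩ := hw
  obtain ⟨z, hzZ, hzi, hzj⟩ := hcor
  obtain ⟨C, hC0, hC⟩ := A.norm_bound_of_inj2 hinj
  have hZs0 : 0 < A.Zs := lt_of_lt_of_le one_pos A.hZs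
  obtain ⟨δ, hδ, hcont⟩ := Metric.continuousAt_iff.mp
    (continuous_ent.continuousAt (x := w)) m hm
  refine ⟨δ / (A.Zs + C), by positivity, ?_⟩
  intro x hx hxS hlt hG
  rw [lt_div_iff₀ (by positivity)] at hlt
  obtain ⟨σ, hbpos, hb0⟩ := exists_fibre_min x z hx (A.hZne z hzZ)
  set ν := x i + x j with hν
  have hνpos : 0 < ν := add_pos (hx i) (hx j)
  have hzi1 : 1 ≤ z i := by
    rcases A.hZint' hzZ i with h | h
    · linarith
    · rwa [abs_of_pos hzi] at h
  have hzj1 : z j ≤ -1 := by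
    rcases A.hZint' hzZ j with h | h
    · linarith
    · rw [abs_of_neg hzj] at h; linarith
  have hσ : |σ| ≤ ν := by
    have a1 := hbpos i
    have a2 := hbpos j
    have b1 := hx i
    have b2 := hx j
    rw [abs_le]
    constructor
    · by_contra hcon
      push Not at hcon
      have : σ * z i ≤ σ * 1 := mul_le_mul_of_nonpos_left hzi1 (by linarith)
      linarith
    · by_contra hcon
      push Not at hcon
      have : σ * z j ≤ σ * (-1) := mul_le_mul_of_nonneg_left hzj1 (by linarith)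
      linarith
  set b : Fin d → ℝ := x + σ • z with hb
  have hbk : ∀ k, b k = x k + σ * z k := fun k => by simp [hb]
  have hbpos' : ∀ k, 0 < b k := fun k => by rw [hbk]; exact hbpos k
  have hdot : z ⬝ᵥ lg b = 0 := by
    unfold dotProduct lg
    rw [← hb0]
    apply Finset.sum_congr rfl
    intro k _
    rw [hbk]
  have hmem : x - w ∈ A.N.stoich := by
    have : x - w = (x - A.c) - (w - A.c) := by abel
    rw [this]; exact A.N.stoich.sub_mem hxS hS
  have hdist : dist b w < δ := by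
    rw [dist_pi_lt_iff hδ]
    intro k
    rw [Real.dist_eq, hbk]
    have c1 := hC _ hmem k
    simp only [Pi.sub_apply, hi, hj, sub_zero] at c1
    rw [abs_of_pos (hx i), abs_of_pos (hx j)] at c1
    have c2 : |σ * z k| ≤ ν * A.Zs := by
      rw [abs_mul]
      exact mul_le_mul hσ (A.hZbd z hzZ k) (abs_nonneg _) hνpos.le
    calc |x k + σ * z k - w k| = |(x k - w k) + σ * z k| := by congr 1; ring
      _ ≤ |x k - w k| + |σ * z k| := abs_add_le _ _
      _ ≤ C * ν + ν * A.Zs := add_le_add c1 c2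
      _ = ν * (A.Zs + C) := by ring
      _ < δ := hlt
  have hent := hcont hdist
  rw [Real.dist_eq] at hent
  have hent' := (abs_lt.mp hent).1
  have hMx : dualT (lg b) x = ent b := by
    rw [← dualT_add_smul hdot x σ, ← hb, dualT_lg_self hbpos']
  have := hG z hzZ (lg b) hdot
  rw [hMx] at this
  linarith

/-- Uniform version of `vertex_drop`. -/
lemma exists_uniform_drop : ∃ ε : ℝ, 0 < ε ∧ ∀ (i j : Fin d) (w : Fin d → ℝ), A.Corner i j →
    A.IsVertex w i j → ∀ x : Fin d → ℝ, (∀ k, 0 < x k) → x - A.c ∈ A.N.stoich → x i + x j ≤ ε →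
      ent x ≤ ent w - (x i + x j) := by
  classical
  have hpair : ∀ p : Fin d × Fin d, ∃ ε : ℝ, 0 < ε ∧ ∀ w : Fin d → ℝ, A.Corner p.1 p.2 →
      A.IsVertex w p.1 p.2 → ∀ x : Fin d → ℝ, (∀ k, 0 < x k) → x - A.c ∈ A.N.stoich →
      x p.1 + x p.2 ≤ ε → ent x ≤ ent w - (x p.1 + x p.2) := by
    intro p
    by_cases h : A.Corner p.1 p.2 ∧ ∃ w, A.IsVertex w p.1 p.2
    · obtain ⟨hcor, w, hw⟩ := h
      obtain ⟨ε, hε, hdrop⟩ := A.vertex_drop hcor hw
      refine ⟨ε, hε, fun w' _ hw' => ?_⟩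
      rw [hw'.unique hw]
      exact hdrop
    · exact ⟨1, one_pos, fun w hcor hw => absurd ⟨hcor, w, hw⟩ h⟩
  choose e he0 he using hpair
  obtain ⟨ε, hε, hmin⟩ := exists_pos_lower_bound Finset.univ e (fun p _ => he0 p)
  refine ⟨ε, hε, ?_⟩
  intro i j w hcor hw x hx hxS hle
  exact he (i, j) w hcor hw x hx hxS (hle.trans (hmin (i, j) (Finset.mem_univ _)))

/-- Uniform version of `vertex_or_far` and `vertex_near`. -/
lemma exists_uniform_far {ε m : ℝ} (hε : 0 < ε) (hm : 0 < m) :
    ∃ ε' : ℝ, 0 < ε' ∧ ∀ i j : Fin d, A.Corner i j → ∀ x : Fin d → ℝ, (∀ k, 0 < x k) →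
      x - A.c ∈ A.N.stoich →
      (∀ w, A.IsVertex w i j → x i + x j < ε → InG A.Z (ent w - m) x) → ε' ≤ x i + x j := by
  classical
  have hpair : ∀ p : Fin d × Fin d, ∃ ε' : ℝ, 0 < ε' ∧ (A.Corner p.1 p.2 →
      ∀ x : Fin d → ℝ, (∀ k, 0 < x k) → x - A.c ∈ A.N.stoich →
      (∀ w, A.IsVertex w p.1 p.2 → x p.1 + x p.2 < ε → InG A.Z (ent w - m) x) →
      ε' ≤ x p.1 + x p.2) := by
    intro p
    by_cases hcor : A.Corner p.1 p.2
    · rcases A.vertex_or_far hcor with ⟨η, hη, hfar⟩ | ⟨w, hw⟩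
      · exact ⟨η, hη, fun _ x hx hxS _ => hfar x hx hxS⟩
      · obtain ⟨ε2, hε2, hnear⟩ := A.vertex_near hcor hw hm
        refine ⟨min ε ε2, lt_min hε hε2, fun _ x hx hxS hall => ?_⟩
        by_contra hcon
        push Not at hcon
        exact hnear x hx hxS (hcon.trans_le (min_le_right _ _))
          (hall w hw (hcon.trans_le (min_le_left _ _)))
    · exact ⟨1, one_pos, fun h => absurd h hcor⟩
  choose e he0 he using hpair
  obtain ⟨ε', hε', hmin⟩ := exists_pos_lower_bound Finset.univ e (fun p _ => he0 p)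
  refine ⟨ε', hε', ?_⟩
  intro i j hcor x hx hxS hall
  exact (hmin (i, j) (Finset.mem_univ _)).trans (he (i, j) hcor x hx hxS hall)

end Setup

end Vale.Agent.P072
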